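import Vale.Agent.P007B.Bas

/-! The algebraic lemma that uses primality of the dimension. -/

namespace Vale.Agent.P007

open Matrix MeasureTheory ProbabilityTheory Set Filter Topology
open scoped ENNReal

variable {n : ℕ}

/-- rational matrices as real matrices -/
noncomputable def arR (n : ℕ) : Matrix (Fin n) (Fin n) ℚ →ₐ[ℚ] Matrix (Fin n) (Fin n) ℝ :=
  (Algebra.ofId ℚ ℝ).mapMatrix

lemma arR_apply (c : Matrix (Fin n) (Fin n) ℚ) (k l : Fin n) : arR n c k l = (c k l : ℝ) := rfl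

lemma ar_zero {u : Fin n → ℝ} (hu : LinearIndependent ℚ u) {d : Matrix (Fin n) (Fin n) ℚ}
    (h : arR n d *ᵥ u = 0) : d = 0 := by
  ext k l
  refine Fintype.linearIndependent_iff.1 hu (d k) ?_ l
  have := congrFun h k
  simpa [mulVec, dotProduct, arR_apply, Rat.smul_def] using this

lemma ar_pow {u : Fin n → ℝ} {c : Matrix (Fin n) (Fin n) ℝ} {lam : ℝ} (hc : c *ᵥ u = lam • u)
    (k : ℕ) : (c ^ k) *ᵥ u = lam ^ k • u := by
  induction k with
  | zero => simp
  | succ k ih => rw [pow_succ, ← mulVec_mulVec, hc, mulVec_smul, ih, smul_smul, pow_succ']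

lemma ar_aeval {u : Fin n → ℝ} {c : Matrix (Fin n) (Fin n) ℚ} {lam : ℝ}
    (hc : arR n c *ᵥ u = lam • u) (q : Polynomial ℚ) :
    arR n (Polynomial.aeval c q) *ᵥ u = Polynomial.aeval lam q • u := by
  induction q using Polynomial.induction_on' with
  | add p q hp hq => rw [map_add, map_add, add_mulVec, hp, hq, map_add, add_smul]
  | monomial k a =>
    rw [Polynomial.aeval_monomial, Polynomial.aeval_monomial, ← Algebra.smul_def,
      ← Algebra.smul_def, map_smul, map_pow, smul_mulVec, ar_pow hc, smul_assoc]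

lemma ar_int {u : Fin n → ℝ} (hu : LinearIndependent ℚ u) (i : Fin n)
    {c : Matrix (Fin n) (Fin n) ℚ} {lam : ℝ} (hc : arR n c *ᵥ u = lam • u) :
    IsIntegral ℚ lam := by
  refine ⟨c.charpoly, c.charpoly_monic, ?_⟩
  have h := ar_aeval hc c.charpoly
  rw [aeval_self_charpoly, map_zero, zero_mulVec] at h
  have h2 := congrFun h i
  simp only [Pi.zero_apply, Pi.smul_apply, smul_eq_mul] at h2
  exact (mul_eq_zero.1 h2.symm).resolve_right (hu.ne_zero i)

lemma ar_stab {u : Fin n → ℝ} {c : Matrix (Fin n) (Fin n) ℚ} {lam : ℝ}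
    (hc : arR n c *ᵥ u = lam • u) {x : ℝ} (hx : x ∈ Algebra.adjoin ℚ {lam}) :
    ∀ w ∈ Submodule.span ℚ (range u), x * w ∈ Submodule.span ℚ (range u) := by
  induction hx using Algebra.adjoin_induction with
  | mem y hy =>
    obtain rfl : y = lam := hy
    intro w hw
    induction hw using Submodule.span_induction with
    | mem z hz =>
      obtain ⟨k, rfl⟩ := hz
      have h := congrFun hc k
      simp only [Pi.smul_apply, smul_eq_mul, mulVec, dotProduct, arR_apply] at h
      rw [← h]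
      refine Submodule.sum_mem _ fun l _ => ?_
      rw [← Rat.smul_def]
      exact Submodule.smul_mem _ _ (Submodule.subset_span ⟨l, rfl⟩)
    | zero => simp
    | add a b _ _ ha hb => rw [mul_add]; exact add_mem ha hb
    | smul a b _ hb => rw [mul_smul_comm]; exact Submodule.smul_mem _ _ hb
  | algebraMap r => intro w hw; rw [← Algebra.smul_def]; exact Submodule.smul_mem _ _ hw
  | add a b _ _ ha hb => intro w hw; rw [add_mul]; exact add_mem (ha w hw) (hb w hw)
  | mul a b _ _ ha hb => intro w hw; rw [mul_assoc]; exact ha _ (hb w hw)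

lemma ar_dvd {u : Fin n → ℝ} (hu : LinearIndependent ℚ u) (i : Fin n)
    {c : Matrix (Fin n) (Fin n) ℚ} {lam : ℝ} (hc : arR n c *ᵥ u = lam • u) :
    (minpoly ℚ lam).natDegree ∣ n := by
  have hi := ar_int hu i hc
  let K := IntermediateField.adjoin ℚ ({lam} : Set ℝ)
  have hK : ∀ x : K, (x : ℝ) ∈ Algebra.adjoin ℚ {lam} := fun x => by
    rw [← IntermediateField.adjoin_simple_toSubalgebra_of_isAlgebraic hi.isAlgebraic]
    exact x.2
  let W : Submodule K ℝ :=
    { carrier := Submodule.span ℚ (range u)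
      add_mem' := fun ha hb => add_mem ha hb
      zero_mem' := zero_mem _
      smul_mem' := fun x w hw => ar_stab hc (hK x) w hw }
  have e : W.restrictScalars ℚ = Submodule.span ℚ (range u) := by ext; rfl
  have h1 : Module.finrank ℚ W = n := by
    have : Module.finrank ℚ (W.restrictScalars ℚ) = n := by
      rw [e, finrank_span_eq_card hu, Fintype.card_fin]
    exact this
  have h2 := Module.finrank_mul_finrank ℚ K W
  rw [h1, IntermediateField.adjoin.finrank hi] at h2
  exact Dvd.intro _ h2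

lemma ar_deg (hn : n.Prime) {u : Fin n → ℝ} (hu : LinearIndependent ℚ u) (i : Fin n)
    {c : Matrix (Fin n) (Fin n) ℚ} {lam : ℝ} (hc : arR n c *ᵥ u = lam • u)
    (hns : ∀ a : ℚ, c ≠ a • (1 : Matrix (Fin n) (Fin n) ℚ)) : (minpoly ℚ lam).natDegree = n := by
  refine ((Nat.dvd_prime hn).1 (ar_dvd hu i hc)).resolve_left fun h => ?_
  obtain ⟨a, rfl⟩ := minpoly.natDegree_eq_one_iff.1 h
  refine hns a (sub_eq_zero.1 (ar_zero hu ?_))
  rw [map_sub, sub_mulVec, hc, map_smul, map_one, smul_mulVec, one_mulVec, algebraMap_smul,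
    sub_self]

lemma ar_poly {u : Fin n → ℝ} (hu : LinearIndependent ℚ u) (i : Fin n)
    {c : Matrix (Fin n) (Fin n) ℚ} {lam : ℝ} (hc : arR n c *ᵥ u = lam • u)
    (hd : (minpoly ℚ lam).natDegree = n) {M : Matrix (Fin n) (Fin n) ℝ}
    (hM : Commute M (arR n c)) : ∃ q : Polynomial ℝ, M = Polynomial.aeval (arR n c) q := by
  let P : Matrix (Fin n) (Fin n) ℚ := of fun k l => (c ^ (k : ℕ)) i l
  have hli : LinearIndependent ℚ fun k : Fin n => lam ^ (k : ℕ) := by
    have := linearIndependent_pow (K := ℚ) lam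
    rwa [hd] at this
  have hPu : arR n P *ᵥ u = fun k : Fin n => lam ^ (k : ℕ) * u i := by
    funext k
    have := congrFun (ar_pow hc k) i
    rw [← map_pow] at this
    exact this
  have hP : P.det ≠ 0 := fun h => by
    obtain ⟨a, ha0, ha⟩ := exists_vecMul_eq_zero_iff.2 h
    refine ha0 (funext fun k => Fintype.linearIndependent_iff.1 hli a ?_ k)
    have h1 : (fun k => (a k : ℝ)) ᵥ* arR n P = 0 := by
      funext l
      have := congrArg (fun x : ℚ => (x : ℝ)) (congrFun ha l)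
      simpa [vecMul, dotProduct, arR_apply] using this
    have h2 : (fun k => (a k : ℝ)) ⬝ᵥ (arR n P *ᵥ u) = 0 := by
      rw [dotProduct_mulVec, h1, zero_dotProduct]
    rw [hPu] at h2
    have h3 : (∑ k : Fin n, a k • lam ^ (k : ℕ)) * u i = 0 := by
      rw [← h2, Finset.sum_mul]
      simp only [dotProduct, Rat.smul_def, mul_assoc]
    exact (mul_eq_zero.1 h3).resolve_right (hu.ne_zero i)
  have hU : IsUnit (arR n P) :=
    ((isUnit_iff_isUnit_det P).2 (isUnit_iff_ne_zero.2 hP)).map (arR n)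
  have hU' := (isUnit_iff_isUnit_det _).1 hU
  let a : Fin n → ℝ := M i ᵥ* (arR n P)⁻¹
  have ha : a ᵥ* arR n P = M i := by
    rw [vecMul_vecMul, nonsing_inv_mul _ hU', vecMul_one]
  refine ⟨∑ k : Fin n, Polynomial.monomial k (a k), ?_⟩
  set Q := Polynomial.aeval (arR n c) (∑ k : Fin n, Polynomial.monomial (k : ℕ) (a k)) with hQ
  have hQ' : Q = ∑ k : Fin n, a k • arR n (c ^ (k : ℕ)) := by
    rw [hQ, map_sum]
    refine Finset.sum_congr rfl fun k _ => ?_
    rw [Polynomial.aeval_monomial, ← Algebra.smul_def, map_pow]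
  have hQc : Commute Q (arR n c) := by
    rw [hQ']
    refine Commute.sum_left _ _ _ fun k _ => Commute.smul_left ?_ _
    rw [map_pow]
    exact (Commute.refl _).pow_left _
  have hrow : (M - Q) i = 0 := by
    funext l
    rw [Matrix.sub_apply, ← ha, hQ', Matrix.sum_apply]
    simp only [vecMul, dotProduct, arR_apply, P, Matrix.smul_apply, smul_eq_mul, of_apply,
      sub_self, Pi.zero_apply]
  have hN : arR n P * (M - Q) = 0 := by
    ext k l
    have h1 : arR n (c ^ (k : ℕ)) * (M - Q) = (M - Q) * arR n (c ^ (k : ℕ)) := by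
      rw [map_pow]; exact ((hM.sub_left hQc).pow_right _).symm
    have h2 := congrFun (congrFun h1 i) l
    rw [mul_apply (M := M - Q), hrow] at h2
    simp only [Pi.zero_apply, zero_mul, Finset.sum_const_zero] at h2
    exact h2
  exact sub_eq_zero.1 (hU.mul_right_eq_zero.1 hN)

lemma ar_core (hn : n.Prime) {u : Fin n → ℝ} (hu : LinearIndependent ℚ u) (i : Fin n)
    {c : Matrix (Fin n) (Fin n) ℚ} {lam : ℝ} (hc : arR n c *ᵥ u = lam • u)
    (hns : ∀ a : ℚ, c ≠ a • (1 : Matrix (Fin n) (Fin n) ℚ)) :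
    (∀ M M', Commute M (arR n c) → Commute M' (arR n c) → Commute M M') ∧
      ∀ M, Commute M (arR n c) → M * M = 0 → M = 0 := by
  have hd := ar_deg hn hu i hc hns
  have hi := ar_int hu i hc
  refine ⟨fun M M' h h' => ?_, fun M h h0 => ?_⟩
  · obtain ⟨q, rfl⟩ := ar_poly hu i hc hd h
    obtain ⟨q', rfl⟩ := ar_poly hu i hc hd h'
    exact (Commute.all q q').map _
  · obtain ⟨q, rfl⟩ := ar_poly hu i hc hd h
    have hp : Polynomial.aeval c (minpoly ℚ lam) = 0 :=
      ar_zero hu (by rw [ar_aeval hc, minpoly.aeval, zero_smul])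
    have hp' : Polynomial.aeval (arR n c) ((minpoly ℚ lam).map (algebraMap ℚ ℝ)) = 0 := by
      rw [Polynomial.aeval_map_algebraMap, Polynomial.aeval_algHom_apply, hp, map_zero]
    have hsq : Squarefree ((minpoly ℚ lam).map (algebraMap ℚ ℝ)) :=
      (minpoly.irreducible hi).separable.map.squarefree
    have hsq' := hsq.squarefree_of_dvd (minpoly.dvd ℝ _ hp')
    have h2 : minpoly ℝ (arR n c) ∣ q ^ 2 := minpoly.dvd ℝ _ (by rw [sq, map_mul, h0])
    obtain ⟨r, rfl⟩ := hsq'.isRadical 2 q h2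
    rw [map_mul, minpoly.aeval, zero_mul]

/-- apply a linear functional to all entries -/
noncomputable def arF (f : ℝ →ₗ[ℚ] ℚ) (C : Matrix (Fin n) (Fin n) ℝ) : Matrix (Fin n) (Fin n) ℚ := C.map f

lemma arF_mul (f : ℝ →ₗ[ℚ] ℚ) (C : Matrix (Fin n) (Fin n) ℝ) (d : Matrix (Fin n) (Fin n) ℚ) :
    arF f (C * arR n d) = arF f C * d := by
  ext k l
  simp only [arF, map_apply, mul_apply, map_sum, arR_apply]
  refine Finset.sum_congr rfl fun m _ => ?_
  rw [mul_comm, ← Rat.smul_def, map_smul, smul_eq_mul, mul_comm]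

lemma arF_mul' (f : ℝ →ₗ[ℚ] ℚ) (C : Matrix (Fin n) (Fin n) ℝ) (d : Matrix (Fin n) (Fin n) ℚ) :
    arF f (arR n d * C) = d * arF f C := by
  ext k l
  simp only [arF, map_apply, mul_apply, map_sum, arR_apply]
  refine Finset.sum_congr rfl fun m _ => ?_
  rw [← Rat.smul_def, map_smul, smul_eq_mul]

lemma arF_ext {C D : Matrix (Fin n) (Fin n) ℝ} (h : ∀ f, arF f C = arF f D) : C = D := by
  ext k l
  refine sub_eq_zero.1 ((Module.forall_dual_apply_eq_zero_iff ℚ _).1 fun f => ?_)
  rw [map_sub]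
  exact sub_eq_zero.2 (congrFun (congrFun (h f) k) l)

lemma ar_lim {g : G n} {C E : Matrix (Fin n) (Fin n) ℝ} (h : Lm g C E) (f : ℝ →ₗ[ℚ] ℚ) :
    Commute E ((g⁻¹).1 * arR n (arF f (g.1 * C * (g⁻¹).1)) * g.1) := by
  obtain ⟨γ, c, h1, h2⟩ := h
  have e1 : g.1 * (g⁻¹).1 = 1 := congrArg Subtype.val (mul_inv_cancel g)
  have e2 : (g⁻¹).1 * g.1 = 1 := congrArg Subtype.val (inv_mul_cancel g)
  set D := (g⁻¹).1 * arR n (arF f (g.1 * C * (g⁻¹).1)) * g.1 with hD
  have h3 : ∀ r, Commute (c r • ((g⁻¹).1 * (γ r).map (Int.castRingHom ℝ) * g.1)) D := fun r => by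
    refine Commute.smul_left ?_ _
    have e : (γ r).map (Int.castRingHom ℝ) = arR n ((γ r).map (Int.castRingHom ℚ)) := by
      ext k l; simp [arR_apply]
    have h4 := h1 r
    rw [e] at h4 ⊢
    set d := (γ r).map (Int.castRingHom ℚ)
    have h5 : arR n d * (g.1 * C * (g⁻¹).1) = g.1 * C * (g⁻¹).1 * arR n d := by
      have := congrArg (fun M => g.1 * M * (g⁻¹).1) h4.eq
      simp only [← mul_assoc, e1, one_mul] at this
      simp only [mul_assoc, e1, mul_one] at this ⊢
      exact this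
    have h6 := congrArg (fun M => arR n (arF f M)) h5
    simp only [arF_mul, arF_mul', map_mul] at h6
    change _ * D = D * _
    calc _ = (g⁻¹).1 * (arR n d * (g.1 * (g⁻¹).1) * arR n (arF f (g.1 * C * (g⁻¹).1))) * g.1 := by
          simp only [hD, mul_assoc]
      _ = (g⁻¹).1 * (arR n (arF f (g.1 * C * (g⁻¹).1)) * (g.1 * (g⁻¹).1) * arR n d) * g.1 := by
          rw [e1, mul_one, mul_one, h6]
      _ = _ := by simp only [hD, mul_assoc]
  exact tendsto_nhds_unique ((h2.mul_const D).congr fun r => (h3 r).eq) (h2.const_mul D)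

lemma ar_li {g : G n} (hN : NH (mk g)) (i : Fin n) : LinearIndependent ℚ fun k => g.1 k i := by
  rw [← LinearIndependent.iff_fractionRing ℤ ℚ, Fintype.linearIndependent_iff]
  intro k hk l
  have e1 : g.1 * (g⁻¹).1 = 1 := congrArg Subtype.val (mul_inv_cancel g)
  have h0 : (fun i => (k i : ℝ)) ᵥ* g.1 = 0 := by
    by_contra h
    refine hN _ ⟨g, rfl, k, rfl⟩ h i ?_
    simpa [vecMul, dotProduct] using hk
  have h1 := congrArg (fun v => v ᵥ* (g⁻¹).1) h0
  simp only [vecMul_vecMul, e1, vecMul_one, zero_vecMul] at h1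
  have h2 : (k l : ℝ) = 0 := congrFun h1 l
  exact_mod_cast h2

lemma ar_eig {g : G n} {i : Fin n} {M : Matrix (Fin n) (Fin n) ℝ}
    (h : Commute (single i i (1 : ℝ)) ((g⁻¹).1 * M * g.1)) :
    ∃ lam : ℝ, M *ᵥ (fun k => g.1 k i) = lam • fun k => g.1 k i := by
  have e1 : g.1 * (g⁻¹).1 = 1 := congrArg Subtype.val (mul_inv_cancel g)
  set D := (g⁻¹).1 * M * g.1 with hD
  have h1 : M * g.1 = g.1 * D := by rw [hD, ← mul_assoc, ← mul_assoc, e1, one_mul]
  have h2 : ∀ k, k ≠ i → D k i = 0 := fun k hk => by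
    have := congrFun (congrFun h.eq k) i
    rw [mul_single_apply_same, single_mul_apply_of_ne _ _ _ _ _ hk, mul_one] at this
    exact this.symm
  refine ⟨D i i, funext fun k => ?_⟩
  have h3 := congrFun (congrFun h1 k) i
  rw [mul_apply (M := g.1), Finset.sum_eq_single i (fun l _ hl => by rw [h2 l hl, mul_zero])
    (by simp), mul_comm] at h3
  exact h3

theorem ar (hn : n.Prime) {g : G n} (hN : NH (mk g)) {C : Matrix (Fin n) (Fin n) ℝ}
    (hC : ∀ c : ℝ, C ≠ c • (1 : Matrix (Fin n) (Fin n) ℝ)) {i : Fin n}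
    (hi : Lm g C (single i i 1)) :
    (∀ E E', Lm g C E → Lm g C E' → Commute E E') ∧ C * C ≠ 0 := by
  have e1 : g.1 * (g⁻¹).1 = 1 := congrArg Subtype.val (mul_inv_cancel g)
  have e2 : (g⁻¹).1 * g.1 = 1 := congrArg Subtype.val (inv_mul_cancel g)
  have hu := ar_li hN i
  set C' := g.1 * C * (g⁻¹).1 with hC'
  have back : ∀ M : Matrix (Fin n) (Fin n) ℝ, (g⁻¹).1 * (g.1 * M * (g⁻¹).1) * g.1 = M := fun M => by
    simp only [← mul_assoc, e2, one_mul]
    rw [mul_assoc, e2, mul_one]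
  have cm : ∀ M M' : Matrix (Fin n) (Fin n) ℝ,
      g.1 * M * (g⁻¹).1 * (g.1 * M' * (g⁻¹).1) = g.1 * (M * M') * (g⁻¹).1 := fun M M' => by
    calc _ = g.1 * M * ((g⁻¹).1 * g.1) * M' * (g⁻¹).1 := by simp only [mul_assoc]
      _ = _ := by rw [e2]; simp only [mul_assoc, one_mul]
  choose lam hlam using fun f => ar_eig (ar_lim hi f)
  obtain ⟨f, hf⟩ : ∃ f, ∀ a : ℚ, arF f C' ≠ a • (1 : Matrix (Fin n) (Fin n) ℚ) := by
    by_contra hcon
    push Not at hcon
    refine hC (C' i i) ?_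
    have h1 : C' = C' i i • (1 : Matrix (Fin n) (Fin n) ℝ) := arF_ext fun f => by
      obtain ⟨a, ha⟩ := hcon f
      have h2 : f (C' i i) = a := by simpa [arF] using congrFun (congrFun ha i) i
      rw [ha]
      ext k l
      by_cases hkl : k = l
      · simp [arF, hkl, h2]
      · simp [arF, hkl]
    rw [← back C, ← hC']
    conv_lhs => rw [h1]
    rw [Matrix.mul_smul, mul_one, Matrix.smul_mul, e2]
  obtain ⟨k1, k2⟩ := ar_core hn hu i (hlam f) hf
  have conj : ∀ E, Lm g C E → Commute (g.1 * E * (g⁻¹).1) (arR n (arF f C')) := fun E hE => by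
    have h1 := congrArg (fun M => g.1 * M * (g⁻¹).1) (ar_lim hE f).eq
    have h2 : g.1 * ((g⁻¹).1 * arR n (arF f C') * g.1) * (g⁻¹).1 = arR n (arF f C') := by
      simp only [← mul_assoc, e1, one_mul]
      rw [mul_assoc, e1, mul_one]
    beta_reduce at h1
    rw [← hC', ← cm E, ← cm _ E, h2] at h1
    exact h1
  refine ⟨fun E E' hE hE' => ?_, fun h0 => hC 0 ?_⟩
  · have h1 := (k1 _ _ (conj E hE) (conj E' hE')).eq
    rw [cm, cm] at h1
    change E * E' = E' * E
    rw [← back (E * E'), h1, back]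
  · have h1 : Commute C' (arR n (arF f C')) := arF_ext fun f' => by
      rw [arF_mul, arF_mul']
      refine sub_eq_zero.1 (ar_zero hu ?_)
      rw [map_sub, map_mul, map_mul, sub_mulVec, ← mulVec_mulVec, ← mulVec_mulVec, hlam, hlam,
        mulVec_smul, mulVec_smul, hlam, hlam, smul_comm, sub_self]
    have h2 := k2 C' h1 (by rw [hC', cm, h0, mul_zero, zero_mul])
    rw [← back C, ← hC', h2, mul_zero, zero_mul, zero_smul]

end Vale.Agent.P007
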