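import Vale.Agent.P007B.Bas

/-! Averaging over a subgroup. -/

namespace Vale.Agent.P007

open Matrix MeasureTheory ProbabilityTheory Set Filter Topology
open scoped ENNReal Pointwise

variable {n : ℕ}

theorem Avg.quarter {a : ℝ≥0∞} (h0 : a ≠ 0) (ht : a ≠ ∞) : a / 4 + a / 4 + a / 4 < a := by
  lift a to NNReal using ht
  have h1 : (0 : NNReal) < a := pos_iff_ne_zero.2 (by simpa using h0)
  have h4 : ((a : ℝ≥0∞) / 4) = ((a / 4 : NNReal) : ℝ≥0∞) := by
    rw [ENNReal.coe_div (by norm_num)]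
    norm_num
  rw [h4, ← ENNReal.coe_add, ← ENNReal.coe_add, ENNReal.coe_lt_coe, ← NNReal.coe_lt_coe]
  have h2 : (0 : ℝ) < a := h1
  push_cast
  linarith

theorem avg (μ : Measure (X n)) [IsFiniteMeasure μ] (H : Subgroup (G n))
    (hc : IsClosed (H : Set (G n))) (hH : H ≤ Stab μ) {K : Set (X n)} (hK : MeasurableSet K) :
    ∃ V : Set (G n), IsCompact V ∧ V ⊆ H ∧ ∃ Y, MeasurableSet Y ∧ μ Yᶜ ≤ 4 * μ Kᶜ ∧
      ∀ᶠ h in 𝓝 (1 : G n), h ∈ H → ∀ x ∈ Y, ∀ y ∈ Y, ∃ v ∈ V, act v x ∈ K ∧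
        act (h * v) y ∈ K := by
  have : LocallyCompactSpace H := hc.locallyCompactSpace
  have : SecondCountableTopology H :=
    TopologicalSpace.Subtype.secondCountableTopology (H : Set (G n))
  set lam : Measure H := Measure.haar with hlam
  obtain ⟨V0, hV0, hV1⟩ := exists_compact_mem_nhds (1 : H)
  have hVc : IsClosed V0 := hV0.isClosed
  have a0 : lam V0 ≠ 0 := (Measure.measure_pos_of_mem_nhds lam hV1).ne'
  have at' : lam V0 ≠ ∞ := hV0.measure_lt_top.ne
  have q0 : lam V0 / 4 ≠ 0 := ENNReal.div_ne_zero.2 ⟨a0, by norm_num⟩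
  have qt : lam V0 / 4 ≠ ∞ := ENNReal.div_ne_top at' (by norm_num)
  have hcont : Continuous fun p : X n × H => act (p.2 : G n) p.1 :=
    act_cont2.comp (continuous_fst.prodMk (continuous_subtype_val.comp continuous_snd))
  set S : Set (X n × H) := (Prod.snd ⁻¹' V0) ∩ (fun p : X n × H => act (p.2 : G n) p.1) ⁻¹' Kᶜ
    with hS
  have hSm : MeasurableSet S :=
    (measurable_snd hVc.measurableSet).inter (hcont.measurable hK.compl)
  have hb : Measurable fun x => lam (Prod.mk x ⁻¹' S) := measurable_measure_prodMk_left hSm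
  have hint : ∫⁻ x, lam (Prod.mk x ⁻¹' S) ∂μ = μ Kᶜ * lam V0 := by
    rw [← Measure.prod_apply hSm, Measure.prod_apply_symm hSm,
      ← setLIntegral_const, ← lintegral_indicator hVc.measurableSet]
    refine lintegral_congr fun v => ?_
    by_cases hv : v ∈ V0
    · rw [indicator_of_mem hv, ← (Stab.mp (hH v.2)).measure_preimage hK.compl.nullMeasurableSet]
      congr 1
      ext x
      simp [hS, hv]
    · rw [indicator_of_notMem hv]
      have : (fun x : X n => (x, v)) ⁻¹' S = ∅ := by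
        ext x
        simp [hS, hv]
      rw [this, measure_empty]
  refine ⟨Subtype.val '' V0, hV0.image continuous_subtype_val, ?_,
    {x | lam (Prod.mk x ⁻¹' S) ≤ lam V0 / 4}, measurableSet_le hb measurable_const, ?_, ?_⟩
  · rintro _ ⟨v, -, rfl⟩
    exact v.2
  · calc μ {x | lam (Prod.mk x ⁻¹' S) ≤ lam V0 / 4}ᶜ
        ≤ μ {x | lam V0 / 4 ≤ lam (Prod.mk x ⁻¹' S)} :=
          measure_mono fun x hx => le_of_not_ge (b := lam V0 / 4) (a := lam (Prod.mk x ⁻¹' S)) hx
      _ ≤ (∫⁻ x, lam (Prod.mk x ⁻¹' S) ∂μ) / (lam V0 / 4) :=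
          meas_ge_le_lintegral_div hb.aemeasurable q0 qt
      _ = 4 * μ Kᶜ := by
          rw [hint, ENNReal.div_eq_inv_mul, ENNReal.inv_div (Or.inr at') (Or.inr a0),
            ENNReal.div_eq_inv_mul, mul_comm (μ Kᶜ), mul_assoc, ← mul_assoc 4, mul_comm 4,
            mul_assoc, ← mul_assoc, ENNReal.inv_mul_cancel a0 at', one_mul]
  · have hev := eventually_nhds_one_measure_smul_sdiff_lt (μ := lam) hV0 hVc q0
    rw [nhds_subtype_eq_comap, eventually_comap] at hev
    filter_upwards [hev] with h hh hm x hx y hy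
    have h3 := (hh ⟨h, hm⟩ rfl).le
    set g : H := ⟨h, hm⟩ with hg
    by_contra hno
    push Not at hno
    have hsub : V0 ⊆ (Prod.mk x ⁻¹' S ∪ (fun v => g * v) ⁻¹' (Prod.mk y ⁻¹' S)) ∪
        (fun v => g * v) ⁻¹' (g • V0 \ V0) := by
      intro v hv
      by_cases h1 : act (v : G n) x ∈ K
      · by_cases h2 : g * v ∈ V0
        · exact Or.inl (Or.inr ⟨h2, hno v ⟨v, hv, rfl⟩ h1⟩)
        · exact Or.inr ⟨⟨v, hv, rfl⟩, h2⟩
      · exact Or.inl (Or.inl ⟨hv, h1⟩)
    have hle : lam V0 ≤ lam V0 / 4 + lam V0 / 4 + lam V0 / 4 := by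
      refine (measure_mono hsub).trans ((measure_union_le _ _).trans
        (add_le_add ((measure_union_le _ _).trans (add_le_add hx ?_)) ?_))
      · rw [measure_preimage_mul]
        exact hy
      · rw [measure_preimage_mul]
        exact h3
    exact absurd (Avg.quarter a0 at') (not_lt.2 hle)

end Vale.Agent.P007
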