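import Vale.Agent.P007B.BasB

/-! Conull sets, slabs and restriction. -/

namespace Vale.Agent.P007

open Matrix MeasureTheory ProbabilityTheory Set Filter Topology
open scoped ENNReal

variable {n : ℕ}

theorem Co.of_ae {μ : Measure (X n)} {p : X n → Prop} (h : ∀ᵐ x ∂μ, p x) :
    ∃ Y, Co μ Y ∧ ∀ x ∈ Y, p x := by
  refine ⟨(toMeasurable μ {x | ¬ p x})ᶜ, ⟨(measurableSet_toMeasurable _ _).compl, ?_⟩,
    fun x hx => ?_⟩
  · rw [compl_compl, measure_toMeasurable]
    exact ae_iff.1 h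
  · by_contra hp
    exact hx (subset_toMeasurable _ _ hp)

theorem Co.ae {μ : Measure (X n)} {Y : Set (X n)} (h : Co μ Y) : ∀ᵐ x ∂μ, x ∈ Y := h.2

theorem Co.inter {μ : Measure (X n)} {Y Y' : Set (X n)} (h : Co μ Y) (h' : Co μ Y') :
    Co μ (Y ∩ Y') :=
  ⟨h.1.inter h'.1, by rw [compl_inter]; exact measure_union_null h.2 h'.2⟩

theorem Co.iInter {ι : Type*} [Countable ι] {μ : Measure (X n)} {Y : ι → Set (X n)}
    (h : ∀ i, Co μ (Y i)) : Co μ (⋂ i, Y i) :=
  ⟨MeasurableSet.iInter fun i => (h i).1, by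
    rw [compl_iInter]; exact measure_iUnion_null fun i => (h i).2⟩

theorem Sl_open (R c η : ℝ) : IsOpen (Sl n R c η) := by
  rw [← mk_open.isQuotientMap.isOpen_preimage]
  have e : mk ⁻¹' Sl n R c η = ⋃ k : Fin n → ℤ,
      (fun g : G n => (fun i => (k i : ℝ)) ᵥ* g.1) ⁻¹'
        ({v | v ≠ 0} ∩ ((⋂ j, {v | |v j| < R}) ∩ {v | |(|∏ j, v j| - c)| < η})) := by
    ext g
    simp only [Sl, mem_preimage, mem_setOf_eq, mem_iUnion, mem_inter_iff, mem_iInter, mem_lat]
    constructor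
    · rintro ⟨_, ⟨k, rfl⟩, h⟩
      exact ⟨k, h⟩
    · rintro ⟨k, h⟩
      exact ⟨_, ⟨k, rfl⟩, h⟩
  rw [e]
  refine isOpen_iUnion fun k => IsOpen.preimage ?_ (isOpen_ne.inter ((isOpen_iInter_of_finite
    fun j => isOpen_lt (by fun_prop) continuous_const).inter (isOpen_lt (by fun_prop)
      continuous_const)))
  exact continuous_const.matrix_vecMul
    (continuous_subtype_val (p := fun A : Matrix (Fin n) (Fin n) ℝ => A.det = 1))

theorem SG.nh {μ : Measure (X n)} (h : SG μ) : ∀ᵐ x ∂μ, NH x := by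
  have key : ∀ R : ℕ, μ {x | ∃ v ∈ lat x, v ≠ 0 ∧ (∀ j, |v j| < R) ∧ ∃ j, v j = 0} = 0 := by
    intro R
    obtain ⟨C, hC⟩ := h R
    have t1 : Tendsto (fun η : ℝ => ENNReal.ofReal (C * √η)) (𝓝[>] 0) (𝓝 0) := by
      have : Continuous fun η : ℝ => ENNReal.ofReal (C * √η) :=
        ENNReal.continuous_ofReal.comp (by fun_prop)
      simpa using (this.tendsto 0).mono_left (nhdsWithin_le_nhds (s := Ioi 0))
    refine le_antisymm (ge_of_tendsto t1 ?_) zero_le
    filter_upwards [Ioc_mem_nhdsGT (zero_lt_one' ℝ)] with η hη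
    refine (measure_mono ?_).trans (hC 0 η le_rfl hη.1 hη.2)
    rintro x ⟨v, h1, h2, h3, j, h4⟩
    refine ⟨v, h1, h2, h3, ?_⟩
    rw [Finset.prod_eq_zero (Finset.mem_univ j) h4]
    simpa using hη.1
  refine measure_mono_null ?_ (measure_iUnion_null key)
  intro x hx
  simp only [NH, mem_compl_iff, mem_setOf_eq, not_forall, not_not] at hx
  obtain ⟨v, h1, h2, j, h3⟩ := hx
  obtain ⟨R, hR⟩ := exists_nat_gt ‖v‖
  exact mem_iUnion.2 ⟨R, v, h1, h2, fun i => (norm_le_pi_norm v i).trans_lt hR, j, h3⟩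

theorem AI.restrict {μ : Measure (X n)} (hA : AI μ) {E : Set (X n)} (hE : MeasurableSet E)
    (hi : ∀ t, ∀ᵐ x ∂μ, (act (dg t) x ∈ E ↔ x ∈ E)) : AI (μ.restrict E) := by
  intro t
  have h1 : act (dg t) ⁻¹' E =ᵐ[μ] E := (hi t).mono fun x hx => propext hx
  have h2 : μ.map (act (dg t)) = μ := hA t
  change (μ.restrict E).map (act (dg t)) = μ.restrict E
  conv_rhs => rw [← h2, Measure.restrict_map (act_cont _).measurable hE,
    Measure.restrict_congr_set h1]

theorem SG.restrict {μ : Measure (X n)} (h : SG μ) (E : Set (X n)) : SG (μ.restrict E) := by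
  intro R
  obtain ⟨C, hC⟩ := h R
  exact ⟨C, fun c η h0 h1 h2 => (Measure.restrict_le_self _).trans (hC c η h0 h1 h2)⟩

end Vale.Agent.P007
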