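import Vale.Agent.P007B.DefE

/-! Algebra of diagonal elements and transvections. -/

namespace Vale.Agent.P007

open Matrix MeasureTheory ProbabilityTheory Set Filter Topology
open scoped ENNReal

variable {n : ℕ}

private theorem dg_val (t : Fin n → ℝ) :
    (dg t).1 = diagonal fun i => Real.exp (t i - (∑ j, t j) / n) := rfl

private theorem mul_val (g h : G n) : (g * h).1 = g.1 * h.1 := rfl

private theorem one_val : (1 : G n).1 = 1 := rfl

theorem dg_add (s t : Fin n → ℝ) : dg (s + t) = dg s * dg t := by
  refine Subtype.ext ?_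
  rw [mul_val, dg_val, dg_val, dg_val, diagonal_mul_diagonal]
  refine congrArg diagonal (funext fun i => ?_)
  rw [← Real.exp_add]
  simp only [Pi.add_apply, Finset.sum_add_distrib]
  refine congrArg Real.exp ?_
  ring

theorem dg_zero : dg (0 : Fin n → ℝ) = 1 := by
  refine Subtype.ext ?_
  rw [dg_val, one_val]
  simp

theorem dg_neg (t : Fin n → ℝ) : dg (-t) = (dg t)⁻¹ := by
  refine eq_inv_of_mul_eq_one_left ?_
  rw [← dg_add, neg_add_cancel, dg_zero]

theorem dg_nsmul (t : Fin n → ℝ) (k : ℕ) : dg ((k : ℝ) • t) = dg t ^ k := by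
  induction k with
  | zero => simp [dg_zero]
  | succ k ih => rw [Nat.cast_succ, add_smul, one_smul, dg_add, ih, pow_succ]

theorem dg_cont : Continuous (dg : (Fin n → ℝ) → G n) := by
  refine continuous_induced_rng.2 ?_
  change Continuous fun t : Fin n → ℝ => diagonal fun i => Real.exp (t i - (∑ j, t j) / n)
  refine Continuous.matrix_diagonal ?_
  fun_prop

/-- every positive diagonal element is some `dg t` -/
theorem exists_dg {g : G n} (h0 : ∀ k l, k ≠ l → g.1 k l = 0) (h1 : ∀ k, 0 < g.1 k k) :
    ∃ t, g = dg t := by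
  have e : g.1 = diagonal fun k => g.1 k k := by
    ext k l
    by_cases h : k = l
    · subst h
      rw [diagonal_apply_eq]
    · rw [diagonal_apply_ne _ h, h0 k l h]
  have hd : ∏ k, g.1 k k = 1 := by
    have := g.2
    rwa [e, det_diagonal] at this
  have hs : ∑ k, Real.log (g.1 k k) = 0 := by
    rw [← Real.log_prod fun k _ => (h1 k).ne', hd, Real.log_one]
  refine ⟨fun k => Real.log (g.1 k k), Subtype.ext ?_⟩
  rw [dg_val, hs]
  refine e.trans (congrArg diagonal (funext fun k => ?_))
  rw [zero_div, sub_zero, Real.exp_log (h1 k)]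

theorem conj_dg (t : Fin n → ℝ) (g : G n) (p q : Fin n) :
    ((dg t)⁻¹ * g * dg t).1 p q = g.1 p q * Real.exp (t q - t p) := by
  rw [← dg_neg, mul_val, mul_val, dg_val, dg_val, mul_diagonal, diagonal_mul, mul_comm _ (g.1 p q),
    mul_assoc, ← Real.exp_add]
  simp only [Pi.neg_apply, Finset.sum_neg_distrib]
  refine congrArg (fun x => g.1 p q * Real.exp x) ?_
  ring

theorem tv_apply {i j : Fin n} (h : i ≠ j) (s : ℝ) : (tv i j s).1 = 1 + single i j s := by
  change 1 + single i j (if i = j then 0 else s) = _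
  rw [if_neg h]

private theorem tv_self (i : Fin n) (s : ℝ) : tv i i s = 1 := by
  refine Subtype.ext ?_
  change 1 + single i i (if i = i then (0 : ℝ) else s) = 1
  rw [if_pos rfl, single_zero, add_zero]

theorem tv_add (i j : Fin n) (s r : ℝ) : tv i j (s + r) = tv i j s * tv i j r := by
  by_cases h : i = j
  · subst h
    simp only [tv_self, mul_one]
  · refine Subtype.ext ?_
    rw [mul_val, tv_apply h, tv_apply h, tv_apply h, add_mul, mul_add, mul_add,
      single_mul_single_of_ne _ _ _ _ (Ne.symm h), single_add]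
    simp only [mul_one, one_mul, add_zero]
    abel

theorem tv_zero (i j : Fin n) : tv i j 0 = 1 := by
  refine Subtype.ext ?_
  change 1 + single i j (if i = j then (0 : ℝ) else 0) = 1
  rw [ite_self, single_zero, add_zero]

theorem tv_neg (i j : Fin n) (s : ℝ) : tv i j (-s) = (tv i j s)⁻¹ := by
  refine eq_inv_of_mul_eq_one_left ?_
  rw [← tv_add, neg_add_cancel, tv_zero]

theorem tv_pow (i j : Fin n) (k : ℕ) : tv i j 1 ^ k = tv i j k := by
  induction k with
  | zero => simp [tv_zero]
  | succ k ih => rw [Nat.cast_succ, tv_add, pow_succ, ih]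

theorem tv_cont (i j : Fin n) : Continuous (tv i j : ℝ → G n) := by
  by_cases h : i = j
  · subst h
    have e : (tv i i : ℝ → G n) = fun _ => 1 := funext (tv_self i)
    rw [e]
    exact continuous_const
  · refine continuous_induced_rng.2 ?_
    have e : (Subtype.val ∘ (tv i j : ℝ → G n)) = fun s => 1 + s • single i j (1 : ℝ) := by
      funext s
      rw [smul_single, smul_eq_mul, mul_one]
      exact tv_apply h s
    exact e ▸ (by fun_prop)

theorem mul_tv_apply {i j : Fin n} (h : i ≠ j) (g : G n) (s : ℝ) (k l : Fin n) :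
    (g * tv i j s).1 k l = g.1 k l + if l = j then s * g.1 k i else 0 := by
  rw [mul_val, tv_apply h, mul_add, mul_one, Matrix.add_apply]
  split_ifs with hl
  · subst hl
    rw [mul_single_apply_same, mul_comm]
  · rw [mul_single_apply_of_ne _ _ _ _ _ hl]

theorem tv_mul_apply {i j : Fin n} (h : i ≠ j) (g : G n) (s : ℝ) (k l : Fin n) :
    (tv i j s * g).1 k l = g.1 k l + if k = i then s * g.1 j l else 0 := by
  rw [mul_val, tv_apply h, add_mul, one_mul, Matrix.add_apply]
  split_ifs with hk
  · subst hk
    rw [single_mul_apply_same]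
  · rw [single_mul_apply_of_ne _ _ _ _ _ hk]

theorem tv_mul_dg (i j : Fin n) (s : ℝ) (t : Fin n → ℝ) :
    tv i j s * dg t = dg t * tv i j (s * Real.exp (t j - t i)) := by
  by_cases h : i = j
  · subst h
    simp only [tv_self, mul_one, one_mul]
  · refine Subtype.ext (Matrix.ext fun k l => ?_)
    rw [mul_tv_apply h, tv_mul_apply h, dg_val]
    refine congrArg (_ + ·) ?_
    by_cases hk : k = i
    · subst hk
      by_cases hl : l = j
      · subst hl
        rw [if_pos rfl, if_pos rfl, diagonal_apply_eq, diagonal_apply_eq, mul_assoc,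
          ← Real.exp_add]
        refine congrArg (fun x => s * Real.exp x) ?_
        ring
      · rw [if_pos rfl, if_neg hl, diagonal_apply_ne _ (Ne.symm hl), mul_zero]
    · rw [if_neg hk, diagonal_apply_ne _ hk, mul_zero, ite_self]

theorem tv_comm {i j k : Fin n} (hij : i ≠ j) (hjk : j ≠ k) (hik : i ≠ k) (s t : ℝ) :
    tv i j s * tv j k t = tv j k t * tv i j s * tv i k (s * t) := by
  refine Subtype.ext ?_
  simp only [mul_val, tv_apply hij, tv_apply hjk, tv_apply hik, add_mul, mul_add, mul_one, one_mul,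
    single_mul_single_same, single_mul_single_of_ne _ _ _ _ hik.symm,
    single_mul_single_of_ne _ _ _ _ hij.symm, add_zero]
  abel

theorem act_iter (a : G n) (k : ℕ) (x : X n) : (act a)^[k] x = act (a ^ k) x := by
  induction k with
  | zero => rw [Function.iterate_zero_apply, pow_zero, act_one]
  | succ k ih => rw [Function.iterate_succ_apply', ih, pow_succ, act_mul]

theorem act_conj (a g : G n) (x : X n) : act a (act g x) = act (a⁻¹ * g * a) (act a x) := by
  rw [← act_mul, ← act_mul, ← mul_assoc, ← mul_assoc, mul_inv_cancel, one_mul]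

theorem mk_eq_iff {g h : G n} : mk g = mk h ↔ ∃ γ : Gam n, g = (γ : G n) * h := by
  constructor
  · intro e
    obtain ⟨γ, hγ⟩ := Quotient.exact e
    exact ⟨γ, hγ.symm⟩
  · rintro ⟨γ, hγ⟩
    exact Quotient.sound ⟨γ, hγ.symm⟩

theorem tendsto_G {ι : Type*} {F : Filter ι} {g : ι → G n} {h : G n} :
    Tendsto g F (𝓝 h) ↔ ∀ k l, Tendsto (fun r => (g r).1 k l) F (𝓝 (h.1 k l)) := by
  refine (Matrix.SpecialLinearGroup.isClosedEmbedding_val (n := Fin n)
    (R := ℝ)).isEmbedding.tendsto_nhds_iff.trans ?_
  refine tendsto_pi_nhds.trans (forall_congr' fun k => ?_)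
  exact tendsto_pi_nhds

private theorem ent_cont (k l : Fin n) : Continuous fun g : G n => g.1 k l :=
  (continuous_subtype_val (p := fun A : Matrix (Fin n) (Fin n) ℝ => A.det = 1)).matrix_elem k l

theorem box_compact (R : ℝ) : IsCompact {g : G n | ∀ k l, |g.1 k l| ≤ R} := by
  have hK : IsCompact (Set.pi univ fun _ : Fin n => Set.pi univ fun _ : Fin n => Icc (-R) R) :=
    isCompact_univ_pi fun _ => isCompact_univ_pi fun _ => isCompact_Icc
  have h2 := (Matrix.SpecialLinearGroup.isClosedEmbedding_val (n := Fin n)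
    (R := ℝ)).isCompact_preimage hK
  refine Eq.subst (motive := IsCompact) ?_ h2
  ext g
  exact ⟨fun h k l => abs_le.2 (h k trivial l trivial), fun h k _ l _ => abs_le.1 (h k l)⟩

private theorem sub_cont (k l : Fin n) : Continuous fun g : G n => |(g.1 - 1) k l| :=
  ((ent_cont k l).sub continuous_const).abs

theorem Nr.compact (w : Fin n → Fin n → ℝ) (r : ℝ) : IsCompact {g : G n | Nr w r g} := by
  refine (box_compact (1 + ∑ k, ∑ l, |r * w k l|)).of_isClosed_subset ?_ ?_
  · have e : {g : G n | Nr w r g} = ⋂ k, ⋂ l, {g : G n | |(g.1 - 1) k l| ≤ r * w k l} := by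
      ext g
      simp only [Nr, mem_ofPred_eq, mem_iInter]
    rw [e]
    exact isClosed_iInter fun k => isClosed_iInter fun l =>
      isClosed_le (sub_cont k l) continuous_const
  · intro g hg k l
    have h1 : |(g.1 - 1) k l| ≤ r * w k l := hg k l
    have h2 : |r * w k l| ≤ ∑ k, ∑ l, |r * w k l| :=
      (Finset.single_le_sum (f := fun l => |r * w k l|) (fun _ _ => abs_nonneg _)
        (Finset.mem_univ l)).trans
        (Finset.single_le_sum (f := fun k => ∑ l, |r * w k l|)
          (fun _ _ => Finset.sum_nonneg fun _ _ => abs_nonneg _) (Finset.mem_univ k))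
    have h3 : |(1 : Matrix (Fin n) (Fin n) ℝ) k l| ≤ 1 := by
      rw [one_apply]
      split_ifs <;> simp
    have h4 : g.1 k l = (1 : Matrix (Fin n) (Fin n) ℝ) k l + (g.1 - 1) k l := by
      rw [Matrix.sub_apply]
      ring
    have h5 := le_abs_self (r * w k l)
    rw [h4]
    exact (abs_add_le _ _).trans (by linarith)

theorem Nr.nhds {w : Fin n → Fin n → ℝ} (hw : ∀ k l, 0 < w k l) {r : ℝ} (hr : 0 < r) :
    ∀ᶠ g in 𝓝 (1 : G n), Nr w r g := by
  refine eventually_all.2 fun k => eventually_all.2 fun l => ?_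
  have h0 : |((1 : G n).1 - 1) k l| < r * w k l := by
    rw [one_val, sub_self, Matrix.zero_apply, abs_zero]
    exact mul_pos hr (hw k l)
  exact ((sub_cont k l).continuousAt.eventually_lt continuousAt_const h0).mono fun g hg => hg.le

end Vale.Agent.P007
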