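import Vale.Agent.P007B.BasA

/-! Topology and measure on the space of lattices. -/

namespace Vale.Agent.P007

open Matrix MeasureTheory ProbabilityTheory Set Filter Topology
open scoped ENNReal

variable {n : ℕ}

theorem act_cont2 : Continuous fun p : X n × G n => act p.2 p.1 := by
  rw [← (mk_open.prodMap (IsOpenQuotientMap.id (X := G n))).continuous_comp_iff]
  exact mk_open.continuous.comp (continuous_fst.mul continuous_snd)

theorem act_tv_meas (i j : Fin n) : Measurable fun p : X n × ℝ => act (tv i j p.2) p.1 := by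
  exact (act_cont2.comp (continuous_fst.prodMk ((tv_cont i j).comp continuous_snd))).measurable

theorem act_dg_meas : Measurable fun p : X n × (Fin n → ℝ) => act (dg p.2) p.1 := by
  exact (act_cont2.comp (continuous_fst.prodMk (dg_cont.comp continuous_snd))).measurable

theorem mk_meas : Measurable (mk : G n → X n) := by
  exact mk_open.continuous.measurable

theorem Stab.mp {μ : Measure (X n)} {g : G n} (h : g ∈ Stab μ) :
    MeasurePreserving (act g) μ μ := by
  exact ⟨(act_cont g).measurable, h⟩

theorem BasB.metr : TopologicalSpace.MetrizableSpace (X n) :=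
  TopologicalSpace.metrizableSpace_of_t3_secondCountable (X n)

theorem Stab.closed (μ : Measure (X n)) [IsFiniteMeasure μ] : IsClosed (Stab μ : Set (G n)) := by
  have : TopologicalSpace.MetrizableSpace (X n) := BasB.metr
  have e : (Stab μ : Set (G n)) =
      ⋂ f : BoundedContinuousFunction (X n) ℝ, {g | ∫ x, f (act g x) ∂μ = ∫ x, f x ∂μ} := by
    ext g
    simp only [mem_iInter, mem_ofPred_eq]
    constructor
    · intro hg f
      conv_rhs => rw [← (show μ.map (act g) = μ from hg)]
      rw [integral_map (act_cont g).measurable.aemeasurable f.continuous.aestronglyMeasurable]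
    · intro hg
      change μ.map (act g) = μ
      apply ext_of_forall_integral_eq_of_IsFiniteMeasure
      intro f
      rw [integral_map (act_cont g).measurable.aemeasurable f.continuous.aestronglyMeasurable]
      exact hg f
  rw [e]
  refine isClosed_iInter fun f => isClosed_eq ?_ continuous_const
  refine continuous_of_dominated (bound := fun _ => ‖f‖) (fun g => ?_) (fun g => ?_)
    (integrable_const _) ?_
  · exact (f.continuous.comp (act_cont g)).aestronglyMeasurable
  · exact Eventually.of_forall fun x => f.norm_coe_le_norm _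
  · exact Eventually.of_forall fun x =>
      f.continuous.comp (act_cont2.comp (continuous_const.prodMk continuous_id))

/-- a convergent sequence in `X n` is a small displacement of its limit -/
theorem lift_seq {y : ℕ → X n} {x : X n} (h : Tendsto y atTop (𝓝 x)) :
    ∃ g : ℕ → G n, Tendsto g atTop (𝓝 1) ∧ ∀ r, y r = act (g r) x := by
  obtain ⟨a, rfl⟩ := mk_open.surjective x
  have hq : IsOpenQuotientMap fun g : G n => mk (a * g) :=
    mk_open.comp (Homeomorph.mulLeft a).isOpenQuotientMap
  obtain ⟨V, hV⟩ := (𝓝 (1 : G n)).exists_antitone_basis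
  have key : ∀ r, ∃ g : G n, y r = mk (a * g) ∧
      ∀ k ≤ r, y r ∈ (fun g : G n => mk (a * g)) '' V k → g ∈ V k := by
    intro r
    classical
    by_cases hk : ∃ k ≤ r, y r ∈ (fun g : G n => mk (a * g)) '' V k
    · obtain ⟨k, hk, hy⟩ := hk
      obtain ⟨g, hg, e⟩ := Nat.findGreatest_spec
        (P := fun k => y r ∈ (fun g : G n => mk (a * g)) '' V k) hk hy
      exact ⟨g, e.symm, fun k' hk' hy' => hV.antitone (Nat.le_findGreatest hk' hy') hg⟩
    · obtain ⟨g, e⟩ := hq.surjective (y r)
      exact ⟨g, e.symm, fun k hk' hy => absurd ⟨k, hk', hy⟩ hk⟩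
  choose g hg using key
  refine ⟨g, hV.1.tendsto_right_iff.2 fun k _ => ?_, fun r => (hg r).1⟩
  have h1 : (fun g : G n => mk (a * g)) '' V k ∈ 𝓝 (mk a) := by
    have := hq.isOpenMap.image_mem_nhds (hV.mem k)
    simpa using this
  filter_upwards [h h1, eventually_ge_atTop k] with r hr hk
  exact (hg r).2 k hk hr

theorem lift_cpt {K : Set (X n)} (hK : IsCompact K) :
    ∃ K' : Set (G n), IsCompact K' ∧ K ⊆ mk '' K' := by
  refine hK.induction_on (p := fun S => ∃ K' : Set (G n), IsCompact K' ∧ S ⊆ mk '' K')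
    ⟨∅, isCompact_empty, empty_subset _⟩ ?_ ?_ ?_
  · rintro s t hst ⟨K', h1, h2⟩
    exact ⟨K', h1, hst.trans h2⟩
  · rintro s t ⟨K1, h1, h2⟩ ⟨K2, h3, h4⟩
    exact ⟨K1 ∪ K2, h1.union h3, by rw [image_union]; exact union_subset_union h2 h4⟩
  · intro x _
    obtain ⟨g, rfl⟩ := mk_open.surjective x
    obtain ⟨S, h1, h2⟩ := exists_compact_mem_nhds g
    exact ⟨mk '' S, mem_nhdsWithin_of_mem_nhds (mk_open.isOpenMap.image_mem_nhds h2),
      S, h1, subset_rfl⟩

instance X.metr : TopologicalSpace.MetrizableSpace (X n) := by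
  exact BasB.metr

theorem X.reg (μ : Measure (X n)) [IsFiniteMeasure μ] {A : Set (X n)} (hA : μ Aᶜ = 0) {δ : ℝ≥0∞}
    (hδ : δ ≠ 0) : ∃ K, IsCompact K ∧ K ⊆ A ∧ μ Kᶜ ≤ δ := by
  have hm : MeasurableSet (toMeasurable μ Aᶜ)ᶜ := (measurableSet_toMeasurable μ _).compl
  obtain ⟨K, h1, h2, h3⟩ := hm.exists_isCompact_sdiff_lt (μ := μ) (measure_ne_top _ _) hδ
  refine ⟨K, h2, h1.trans (compl_subset_comm.1 (subset_toMeasurable μ _)), ?_⟩
  have h4 : Kᶜ ⊆ ((toMeasurable μ Aᶜ)ᶜ \ K) ∪ toMeasurable μ Aᶜ := by
    intro x hx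
    by_cases h : x ∈ toMeasurable μ Aᶜ
    · exact Or.inr h
    · exact Or.inl ⟨h, hx⟩
  refine (measure_mono h4).trans ((measure_union_le _ _).trans ?_)
  rw [measure_toMeasurable, hA, add_zero]
  exact h3.le

end Vale.Agent.P007
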