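import Vale.Agent.P007B.DefE

/-! A weighted covering estimate on the line. -/

namespace Vale.Agent.P007

open Matrix MeasureTheory ProbabilityTheory Set Filter Topology
open scoped ENNReal

variable {n : ℕ}

private theorem besi_ball (m : Measure ℝ) {N I : Set ℝ} {D : ℝ → ℝ≥0∞} {Λ ε : ℝ≥0∞}
    (hN : MeasurableSet N) (hI : MeasurableSet I) (hD : Measurable D)
    (h : ∀ s ∈ I, ∀ s' ∈ I, D s ≤ Λ * D s') (he : ε * m I ≤ m (N ∩ I)) :
    ε * ∫⁻ s in I, D s ∂m ≤ Λ * ∫⁻ s in N ∩ I, D s ∂m := by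
  have h1 : ∫⁻ s in I, D s ∂m ≤ (⨆ s ∈ I, D s) * m I := by
    rw [← setLIntegral_const]
    exact setLIntegral_mono' hI fun s hs => le_iSup₂ (f := fun s (_ : s ∈ I) => D s) s hs
  calc ε * ∫⁻ s in I, D s ∂m ≤ ε * ((⨆ s ∈ I, D s) * m I) := by gcongr
    _ = (⨆ s ∈ I, D s) * (ε * m I) := by ring
    _ ≤ (⨆ s ∈ I, D s) * m (N ∩ I) := by gcongr
    _ = ∫⁻ _ in N ∩ I, (⨆ s ∈ I, D s) ∂m := (setLIntegral_const _ _).symm
    _ ≤ ∫⁻ s in N ∩ I, Λ * D s ∂m :=
        setLIntegral_mono' (hN.inter hI) fun s' hs' => iSup₂_le fun s hs => h s hs s' hs'.2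
    _ = Λ * ∫⁻ s in N ∩ I, D s ∂m := lintegral_const_mul _ hD

/-- the weighted covering estimate on the line -/
theorem besi : ∃ C : ℝ≥0∞, C ≠ ∞ ∧ ∀ (m : Measure ℝ) (R : ℝ) (N B : Set ℝ) (D : ℝ → ℝ≥0∞)
    (Λ ε : ℝ≥0∞), MeasurableSet N → Measurable D → (∀ s s', |s - s'| ≤ 2 * R → D s ≤ Λ * D s') →
    (∀ s ∈ B, ∃ r, 0 < r ∧ r ≤ R ∧
      ε * m (Icc (s - r) (s + r)) ≤ m (N ∩ Icc (s - r) (s + r))) →
    ε * ∫⁻ s in B, D s ∂m ≤ C * Λ * ∫⁻ s in N, D s ∂m := by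
  obtain ⟨K, τ, hτ, hK⟩ := HasBesicovitchCovering.no_satelliteConfig (α := ℝ)
  refine ⟨K, ENNReal.natCast_ne_top K, ?_⟩
  intro m R N B D Λ ε hN hD hΛ hB
  choose r r0 rR hr using fun s : B => hB s s.2
  let q : Besicovitch.BallPackage B ℝ :=
    { c := fun x => x, r := r, rpos := r0, r_bound := R, r_le := rR }
  obtain ⟨u, hu, hu'⟩ := Besicovitch.exist_disjoint_covering_families hτ hK q
  have uc : ∀ i, (u i).Countable := fun i =>
    (hu i).countable_of_nonempty_interior fun j _ =>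
      (Metric.nonempty_ball.2 (r0 j)).mono Metric.ball_subset_interior_closedBall
  have hc : B ⊆ ⋃ i, ⋃ j ∈ u i, Metric.closedBall (j : ℝ) (r j) := fun x hx => by
    obtain ⟨i, j, hj, h'⟩ : ∃ i, ∃ j ∈ u i, x ∈ Metric.ball (j : ℝ) (r j) := by
      simpa only [mem_iUnion, bex_def] using hu' ⟨⟨x, hx⟩, rfl⟩
    exact mem_iUnion.2 ⟨i, mem_iUnion₂.2 ⟨j, hj, Metric.ball_subset_closedBall h'⟩⟩
  have key : ∀ i, ε * ∫⁻ s in ⋃ j ∈ u i, Metric.closedBall (j : ℝ) (r j), D s ∂m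
      ≤ Λ * ∫⁻ s in N, D s ∂m := fun i => by
    have hd : (u i).PairwiseDisjoint fun j : B => N ∩ Metric.closedBall (j : ℝ) (r j) :=
      (hu i).mono fun j => inter_subset_right
    rw [lintegral_biUnion (uc i) (fun j _ => measurableSet_closedBall) (hu i),
      ← ENNReal.tsum_mul_left]
    calc ∑' j : u i, ε * ∫⁻ s in Metric.closedBall ((j : B) : ℝ) (r j), D s ∂m
        ≤ ∑' j : u i, Λ * ∫⁻ s in N ∩ Metric.closedBall ((j : B) : ℝ) (r j), D s ∂m := by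
          refine ENNReal.tsum_le_tsum fun j => besi_ball m hN measurableSet_closedBall hD
            (fun s hs s' hs' => hΛ s s' ?_) ?_
          · rw [Metric.mem_closedBall, Real.dist_eq] at hs hs'
            have := rR j
            rw [abs_le] at hs hs' ⊢
            constructor <;> linarith [hs.1, hs.2, hs'.1, hs'.2]
          · rw [Real.closedBall_eq_Icc]
            exact hr j
      _ = Λ * ∫⁻ s in ⋃ j ∈ u i, N ∩ Metric.closedBall (j : ℝ) (r j), D s ∂m := by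
          rw [lintegral_biUnion (uc i) (fun j _ => hN.inter measurableSet_closedBall) hd,
            ENNReal.tsum_mul_left]
      _ ≤ Λ * ∫⁻ s in N, D s ∂m := by
          gcongr
          exact iUnion₂_subset fun j _ => inter_subset_left
  calc ε * ∫⁻ s in B, D s ∂m
      ≤ ε * ∫⁻ s in ⋃ i, ⋃ j ∈ u i, Metric.closedBall (j : ℝ) (r j), D s ∂m := by gcongr
    _ ≤ ε * ∑' i, ∫⁻ s in ⋃ j ∈ u i, Metric.closedBall (j : ℝ) (r j), D s ∂m := by
        gcongr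
        exact lintegral_iUnion_le _ _
    _ = ∑ i, ε * ∫⁻ s in ⋃ j ∈ u i, Metric.closedBall (j : ℝ) (r j), D s ∂m := by
        rw [tsum_fintype, Finset.mul_sum]
    _ ≤ ∑ _i : Fin K, Λ * ∫⁻ s in N, D s ∂m := Finset.sum_le_sum fun i _ => key i
    _ = K * Λ * ∫⁻ s in N, D s ∂m := by
        rw [Finset.sum_const, Finset.card_univ, Fintype.card_fin, nsmul_eq_mul, mul_assoc]

end Vale.Agent.P007
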