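import Vale.Agent.P007B.Bas

/-! Removing the block part. -/

namespace Vale.Agent.P007

open Matrix MeasureTheory ProbabilityTheory Set Filter Topology
open scoped ENNReal

variable {n : ℕ}

namespace Blk

noncomputable def PB (B : Finset (Fin n)) (M : Matrix (Fin n) (Fin n) ℝ) :
    Matrix (Fin n) (Fin n) ℝ := eB B * M * eB B + (1 - eB B)

noncomputable def HB (B : Finset (Fin n)) (i : Fin n) (M : Matrix (Fin n) (Fin n) ℝ) :
    Matrix (Fin n) (Fin n) ℝ := (PB B M)⁻¹ * diagonal (Function.update 1 i (PB B M).det)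

theorem ee (B : Finset (Fin n)) : eB B * eB B = eB B := by
  rw [eB, diagonal_mul_diagonal]
  refine congrArg diagonal (funext fun k => ?_)
  split_ifs <;> simp

theorem PB_one (B : Finset (Fin n)) : PB B 1 = 1 := by
  rw [PB, mul_one, ee, add_sub_cancel]

theorem PB_cont (B : Finset (Fin n)) : Continuous (PB B) :=
  ((continuous_const.matrix_mul continuous_id).matrix_mul continuous_const).add continuous_const

theorem HB_one (B : Finset (Fin n)) (i : Fin n) : HB B i 1 = 1 := by
  rw [HB, PB_one, inv_one, det_one, one_mul]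
  simp

theorem HB_cont (B : Finset (Fin n)) (i : Fin n) : ContinuousAt (HB B i) 1 := by
  have h1 : ContinuousAt (Inv.inv : Matrix (Fin n) (Fin n) ℝ → _) (PB B 1) := by
    refine continuousAt_matrix_inv _ ?_
    rw [PB_one, det_one]
    exact NormedRing.inverse_continuousAt (1 : ℝˣ)
  have h2 : Continuous fun M => diagonal (Function.update (1 : Fin n → ℝ) i (PB B M).det) :=
    (continuous_const.update i (PB_cont B).matrix_det).matrix_diagonal
  exact (h1.comp (PB_cont B).continuousAt).mul h2.continuousAt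

theorem HB_det (B : Finset (Fin n)) (i : Fin n) {M : Matrix (Fin n) (Fin n) ℝ}
    (h : 0 < (PB B M).det) : (HB B i M).det = 1 := by
  rw [HB, det_mul, det_nonsing_inv, det_diagonal, Finset.prod_update_of_mem (Finset.mem_univ i),
    Ring.inverse_eq_inv']
  simp [h.ne']

theorem HB_spec (B : Finset (Fin n)) {i : Fin n} (hi : i ∉ B) {M : Matrix (Fin n) (Fin n) ℝ}
    (h : 0 < (PB B M).det) :
    (∀ k l, k ≠ l → k ∉ B ∨ l ∉ B → HB B i M k l = 0) ∧ (∀ k ∉ B, 0 < HB B i M k k) ∧
      eB B * (M * HB B i M) * eB B = eB B := by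
  have hu : IsUnit (PB B M).det := h.ne'.isUnit
  have a1 := mul_nonsing_inv _ hu
  have a2 := nonsing_inv_mul _ hu
  have e1 : eB B * PB B M = eB B * M * eB B := by
    rw [PB, mul_add, ← mul_assoc, ← mul_assoc, ee, mul_sub, ee, mul_one, sub_self, add_zero]
  have e2 : PB B M * eB B = eB B * M * eB B := by
    rw [PB, add_mul, mul_assoc, ee, sub_mul, ee, one_mul, sub_self, add_zero]
  have e3 : (1 - eB B) * PB B M = 1 - eB B := by
    rw [sub_mul, one_mul, e1, PB, add_sub_cancel_left]
  have e4 : PB B M * (1 - eB B) = 1 - eB B := by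
    rw [mul_sub, mul_one, e2, PB, add_sub_cancel_left]
  have f3 : (1 - eB B) * (PB B M)⁻¹ = 1 - eB B := by
    conv_lhs => rw [← e3, mul_assoc, a1, mul_one]
  have f4 : (PB B M)⁻¹ * (1 - eB B) = 1 - eB B := by
    conv_lhs => rw [← e4, ← mul_assoc, a2, one_mul]
  have f1 : (PB B M)⁻¹ * eB B = eB B * (PB B M)⁻¹ := by
    rw [sub_mul, one_mul] at f3
    rw [mul_sub, mul_one] at f4
    exact sub_right_injective (f4.trans f3.symm)
  have r : ∀ k ∉ B, ∀ l, (PB B M)⁻¹ k l = (1 : Matrix (Fin n) (Fin n) ℝ) k l := fun k hk l => by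
    have := congrFun (congrFun f3 k) l
    rw [sub_mul, one_mul] at this
    simpa [eB, diagonal_mul, hk, diagonal_apply] using this
  have c : ∀ l ∉ B, ∀ k, (PB B M)⁻¹ k l = (1 : Matrix (Fin n) (Fin n) ℝ) k l := fun l hl k => by
    have := congrFun (congrFun f4 k) l
    rw [mul_sub, mul_one] at this
    by_cases hkl : k = l
    · subst hkl; exact r k hl k
    · simpa [eB, mul_diagonal, hl, diagonal_apply, hkl] using this
  refine ⟨fun k l hkl hB => ?_, fun k hk => ?_, ?_⟩
  · rw [HB, mul_diagonal]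
    rcases hB with hB | hB
    · rw [r k hB l, one_apply_ne hkl, zero_mul]
    · rw [c l hB k, one_apply_ne hkl, zero_mul]
  · rw [HB, mul_diagonal, r k hk k, one_apply_eq, one_mul]
    by_cases hki : k = i
    · subst hki; simpa using h
    · simp [Function.update_of_ne hki]
  · have d : diagonal (Function.update (1 : Fin n → ℝ) i (PB B M).det) * eB B = eB B := by
      rw [eB, diagonal_mul_diagonal]
      refine congrArg diagonal (funext fun k => ?_)
      split_ifs with hk
      · rw [Function.update_of_ne (fun e : k = i => hi (e ▸ hk))]; simp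
      · simp
    calc eB B * (M * HB B i M) * eB B = eB B * M * ((PB B M)⁻¹ *
          (diagonal (Function.update (1 : Fin n → ℝ) i (PB B M).det) * eB B)) := by
          simp only [HB, mul_assoc]
      _ = eB B * M * eB B * (PB B M)⁻¹ := by rw [d, f1, ← mul_assoc]
      _ = eB B := by rw [← e1, mul_assoc, a1, mul_one]

end Blk

open Blk in
/-- removing the block part of a small displacement -/
theorem blk (B : Finset (Fin n)) {i : Fin n} (hi : i ∉ B) {g : ℕ → G n}
    (hg : Tendsto g atTop (𝓝 1)) : ∃ h : ℕ → G n, Tendsto h atTop (𝓝 1) ∧ ∀ᶠ r in atTop,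
      (∀ k l, k ≠ l → k ∉ B ∨ l ∉ B → (h r).1 k l = 0) ∧ (∀ k ∉ B, 0 < (h r).1 k k) ∧
      eB B * (g r * h r).1 * eB B = eB B := by
  have hv : Tendsto (fun r => (g r).1) atTop (𝓝 (1 : Matrix (Fin n) (Fin n) ℝ)) :=
    ((continuous_subtype_val (p := fun A : Matrix (Fin n) (Fin n) ℝ => A.det = 1)).tendsto
      (1 : G n)).comp hg
  have hd : ∀ᶠ r in atTop, 0 < (PB B (g r).1).det := by
    have := ((PB_cont B).matrix_det.tendsto 1).comp hv
    rw [PB_one, det_one] at this
    exact this.eventually (lt_mem_nhds one_pos)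
  have hH := (HB_cont B i).tendsto.comp hv
  rw [HB_one] at hH
  obtain ⟨h, hh⟩ : ∃ h : ℕ → G n, ∀ r, 0 < (PB B (g r).1).det → (h r).1 = HB B i (g r).1 :=
    ⟨fun r => if hr : 0 < (PB B (g r).1).det then ⟨HB B i (g r).1, HB_det B i hr⟩ else 1,
      fun r hr => congrArg Subtype.val (dif_pos hr)⟩
  refine ⟨h, tendsto_G.2 fun k l => ?_, hd.mono fun r hr => ?_⟩
  · refine (((continuous_id.matrix_elem k l).tendsto _).comp hH).congr' (hd.mono fun r hr => ?_)
    simp only [hh r hr, Function.comp, id]
  · have := HB_spec B hi hr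
    rw [← hh r hr] at this
    exact this

end Vale.Agent.P007
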