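import Vale.Agent.P007B.Res

/-! The commutator argument. -/

namespace Vale.Agent.P007

open Matrix MeasureTheory ProbabilityTheory Set Filter Topology
open scoped ENNReal

variable {n : ℕ}

variable {μ : Measure (X n)} [IsFiniteMeasure μ] {i j k : Fin n}

theorem Comm.ex_ne {m : Measure ℝ} {p : ℝ → Prop} (h : m {0}ᶜ ≠ 0) (hp : ∀ᵐ s ∂m, p s) :
    ∃ s, s ≠ 0 ∧ p s := by
  by_contra hc
  refine h (measure_mono_null (fun s hs hps => hc ⟨s, hs, hps⟩) hp)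

omit [IsFiniteMeasure μ] in
theorem Comm.ae_co {p q : Fin n} (L : LW μ p q) {Y : Set (X n)} (hY : Co μ Y) :
    ∀ᵐ x ∂μ, ∀ᵐ s ∂(L.ν x), act (tv p q s) x ∈ Y := by
  filter_upwards [L.null hY.2] with x hx
  filter_upwards [hx] with s hs
  exact not_not.1 hs

theorem Comm.swap (m1 m2 : Measure ℝ) [SFinite m1] [SFinite m2] (x : X n) {Y : Set (X n)}
    (hY : MeasurableSet Y)
    (Q : ∀ᵐ t ∂m2, ∀ᵐ s ∂m1, act (tv j k t) x ∈ Y ∧ act (tv i j s) (act (tv j k t) x) ∈ Y) :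
    ∀ᵐ s ∂m1, ∀ᵐ t ∂m2, act (tv j k t) x ∈ Y ∧ act (tv i j s) (act (tv j k t) x) ∈ Y := by
  have f1 : Measurable fun p : ℝ × ℝ => act (tv j k p.1) x :=
    (act_tv_meas j k).comp (f := fun p : ℝ × ℝ => (x, p.1))
      (measurable_const.prodMk measurable_fst)
  have f2 : Measurable fun p : ℝ × ℝ => act (tv i j p.2) (act (tv j k p.1) x) :=
    (act_tv_meas i j).comp (f := fun p : ℝ × ℝ => (act (tv j k p.1) x, p.2))
      (f1.prodMk measurable_snd)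
  have hm : MeasurableSet {p : ℝ × ℝ |
      act (tv j k p.1) x ∈ Y ∧ act (tv i j p.2) (act (tv j k p.1) x) ∈ Y} :=
    (f1 hY).inter (f2 hY)
  exact (Measure.ae_ae_comm (μ := m2) (ν := m1)
    (p := fun t s => act (tv j k t) x ∈ Y ∧ act (tv i j s) (act (tv j k t) x) ∈ Y) hm).1 Q

theorem LW.comm (hA : AI μ) (hij : i ≠ j) (hjk : j ≠ k) (hik : i ≠ k) (L1 : LW μ i j)
    (L2 : LW μ j k) (L3 : LW μ i k) (h1 : ∀ᵐ x ∂μ, x ∉ L1.T) (h2 : ∀ᵐ x ∂μ, x ∉ L2.T) :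
    ∀ᵐ x ∂μ, Sym (L3.ν x) := by
  obtain ⟨A, cA, hAa⟩ := L3.const hA (t := -Pi.single j 1) (by simp [hij, hjk.symm])
  obtain ⟨B, cB, hB⟩ := L3.const hA (t := Pi.single j 1) (by simp [hij, hjk.symm])
  obtain ⟨C, cC, hC⟩ := L2.const hA (t := Pi.single i 1) (by simp [hij.symm, hik.symm])
  obtain ⟨D, cD, hD⟩ := L1.const hA (t := -Pi.single k 1) (by simp [hik, hjk])
  have eA : ∀ x ∈ A, ∀ s, act (tv i j s) x ∈ A → L3.ν (act (tv i j s) x) = L3.ν x :=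
    fun x hx s hs => hAa x hx i j s (by simp [hij]) hs
  have eB : ∀ x ∈ B, ∀ s, act (tv j k s) x ∈ B → L3.ν (act (tv j k s) x) = L3.ν x :=
    fun x hx s hs => hB x hx j k s (by simp [hjk.symm]) hs
  have eC : ∀ x ∈ C, ∀ s, act (tv i j s) x ∈ C → L2.ν (act (tv i j s) x) = L2.ν x :=
    fun x hx s hs => hC x hx i j s (by simp [hij.symm]) hs
  have eD : ∀ x ∈ D, ∀ s, act (tv j k s) x ∈ D → L1.ν (act (tv j k s) x) = L1.ν x :=
    fun x hx s hs => hD x hx j k s (by simp [hjk]) hs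
  obtain ⟨X0, hX0⟩ : ∃ X0, X0 = ((A ∩ B) ∩ (C ∩ D)) ∩ L3.X' := ⟨_, rfl⟩
  have c0 : Co μ X0 := hX0 ▸ ((cA.inter cB).inter (cC.inter cD)).inter L3.co
  have m0 : ∀ x ∈ X0, ((x ∈ A ∧ x ∈ B) ∧ (x ∈ C ∧ x ∈ D)) ∧ x ∈ L3.X' := fun x hx => by
    rw [hX0] at hx
    exact hx
  obtain ⟨X1, c1, m1⟩ := Co.of_ae (c0.ae.and ((Comm.ae_co L1 c0).and (Comm.ae_co L2 c0)))
  filter_upwards [c1.ae, Comm.ae_co L1 c1, Comm.ae_co L2 c1, h1, h2] with x hx hs ht n1 n2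
  have := L1.sf
  have := L2.sf
  have hx0 := m0 x (m1 x hx).1
  have P : ∀ᵐ s ∂(L1.ν x), ∀ᵐ t ∂(L2.ν x),
      act (tv i j s) x ∈ X0 ∧ act (tv j k t) (act (tv i j s) x) ∈ X0 := by
    filter_upwards [hs] with s hy
    have hy1 := m1 _ hy
    rw [← eC x hx0.1.2.1 s (m0 _ hy1.1).1.2.1]
    filter_upwards [hy1.2.2] with t hz
    exact ⟨hy1.1, hz⟩
  have Q : ∀ᵐ t ∂(L2.ν x), ∀ᵐ s ∂(L1.ν x),
      act (tv j k t) x ∈ X0 ∧ act (tv i j s) (act (tv j k t) x) ∈ X0 := by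
    filter_upwards [ht] with t hw
    have hw1 := m1 _ hw
    rw [← eD x hx0.1.2.2 t (m0 _ hw1.1).1.2.2]
    filter_upwards [hw1.2.1] with s hz
    exact ⟨hw1.1, hz⟩
  have Q' := Comm.swap (L1.ν x) (L2.ν x) x c0.1 Q
  obtain ⟨s, s0, hP, hQ⟩ := Comm.ex_ne n1 (P.and Q')
  obtain ⟨t, t0, ⟨hy, hz⟩, hw, hw'⟩ := Comm.ex_ne n2 (hP.and hQ)
  have ez : act (tv j k t) (act (tv i j s) x) =
      act (tv i k (s * t)) (act (tv i j s) (act (tv j k t) x)) := by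
    rw [← act_mul, ← act_mul, ← act_mul, tv_comm hij hjk hik, mul_assoc]
  have e1 : L3.ν (act (tv j k t) (act (tv i j s) x)) = L3.ν x :=
    (eB _ (m0 _ hy).1.1.2 t (m0 _ hz).1.1.2).trans (eA x hx0.1.1.1 s (m0 _ hy).1.1.1)
  have e2 : L3.ν (act (tv i j s) (act (tv j k t) x)) = L3.ν x :=
    (eA _ (m0 _ hw).1.1.1 s (m0 _ hw').1.1.1).trans (eB x hx0.1.1.2 t (m0 _ hw).1.1.2)
  have hc := L3.cons _ (m0 _ hw').2 (s * t) (ez ▸ (m0 _ hz).2)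
  rw [← ez, e1, e2] at hc
  exact ⟨s * t, mul_ne_zero s0 t0, _, hc.symm⟩

end Vale.Agent.P007
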