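import Vale.Agent.P007B.CovA

/-! A compactness lemma. -/

namespace Vale.Agent.P007

open Matrix MeasureTheory ProbabilityTheory Set Filter Topology
open scoped ENNReal

variable {n : ℕ}

/-- the quantitative form of the hypothesis on a compact set -/
theorem limn {β : Fin n → ℕ} {τ : Fin n → ℝ} {K : Set (X n)} (hK : IsCompact K)
    (H : ∀ x ∈ K, ∀ g, act g x ∈ K → Nr (fun _ _ => 1) (1 / (2 * n)) g →
      (∀ p q, τ p < τ q → g.1 p q = 0) → ∀ p q, β q < β p → g.1 p q = 0) {ε : ℝ} (hε : 0 < ε) :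
    ∃ η : ℝ, 0 < η ∧ ∀ x ∈ K, ∀ g, act g x ∈ K → Nr (fun _ _ => 1) (1 / (2 * n)) g →
      (∀ p q, τ p < τ q → |g.1 p q| ≤ η) → ∀ p q, β q < β p → |g.1 p q| ≤ ε := by
  by_contra hc
  push Not at hc
  choose x hx g hg h1 h2 h3 using fun r : ℕ => hc (1 / (r + 1)) Nat.one_div_pos_of_nat
  obtain ⟨⟨z, h⟩, ⟨hz, hh⟩, φ, hφ, ht⟩ :=
    (hK.prod (Nr.compact (fun _ _ => 1) (1 / (2 * n)))).tendsto_subseq
      (x := fun r => (x r, g r)) fun r => ⟨hx r, h1 r⟩
  have hg' : Tendsto (fun r => g (φ r)) atTop (𝓝 h) := (continuous_snd.tendsto _).comp ht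
  have hz' : act h z ∈ K := hK.isClosed.mem_of_tendsto ((act_cont2.tendsto _).comp ht)
    (Eventually.of_forall fun r => hg (φ r))
  have h4 := H z hz h hz' hh fun p q hpq => abs_nonpos_iff.1 (le_of_tendsto_of_tendsto'
    (tendsto_G.1 hg' p q).abs
    (tendsto_one_div_add_atTop_nhds_zero_nat.comp hφ.tendsto_atTop) fun r => h2 (φ r) p q hpq)
  have h5 : ∀ᶠ r in atTop, ∀ p q, β q < β p → |(g (φ r)).1 p q| < ε := by
    refine eventually_all.2 fun p => eventually_all.2 fun q => ?_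
    by_cases hb : β q < β p
    · have h6 := (tendsto_G.1 hg' p q).abs
      rw [h4 p q hb, abs_zero] at h6
      exact (h6.eventually (gt_mem_nhds hε)).mono fun r hr _ => hr
    · exact Eventually.of_forall fun r h => (hb h).elim
  obtain ⟨r, hr⟩ := h5.exists
  obtain ⟨p, q, hb, h6⟩ := h3 (φ r)
  exact (hr p q hb).not_gt h6

end Vale.Agent.P007
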