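import Vale.Agent.P007B.DefE

/-! The maximal inequality for visits to a set. -/

namespace Vale.Agent.P007

open Matrix MeasureTheory ProbabilityTheory Set Filter Topology
open scoped ENNReal

variable {n : ℕ}

section Aux

variable {Ω : Type*} {T : Ω → Ω} {N : Set Ω}

open Classical in
theorem MaxA.sum (x : Ω) (M : ℕ) :
    cnt T N x M = ∑ k ∈ Finset.range M, if T^[k] x ∈ N then 1 else 0 :=
  Finset.card_filter _ _

theorem MaxA.add (x : Ω) (a b : ℕ) : cnt T N x (a + b) = cnt T N x a + cnt T N (T^[a] x) b := by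
  rw [MaxA.sum, MaxA.sum, MaxA.sum, Finset.sum_range_add]
  refine congrArg _ (Finset.sum_congr rfl fun k _ => ?_)
  rw [add_comm a, Function.iterate_add_apply]

open Classical in
theorem MaxA.le (x : Ω) (M : ℕ) : cnt T N x M ≤ M :=
  (Finset.card_filter_le _ _).trans (Finset.card_range M).le

theorem MaxA.mono (x : Ω) {a b : ℕ} (h : a ≤ b) : cnt T N x a ≤ cnt T N x b := by
  obtain ⟨c, rfl⟩ := Nat.exists_eq_add_of_le h
  rw [MaxA.add]
  exact Nat.le_add_right _ _

theorem MaxA.point {ε : ℝ} (hε : 0 < ε) (L H : ℕ) (x : Ω) :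
    ε * cnt T {y | ∃ M ≤ L, ε * M < cnt T N y M} x H ≤ cnt T N x (H + L) := by
  induction H using Nat.strong_induction_on generalizing x with
  | _ H ih =>
    rcases Nat.eq_zero_or_pos H with rfl | hH
    · simp [MaxA.sum]
    by_cases hx : x ∈ {y | ∃ M ≤ L, ε * M < cnt T N y M}
    · obtain ⟨M, hM, hx⟩ := hx
      have hM0 : 0 < M := Nat.pos_of_ne_zero (by
        rintro rfl
        simp [MaxA.sum] at hx)
      rcases le_or_gt H M with h | h
      · have h1 : (cnt T {y | ∃ M ≤ L, ε * M < cnt T N y M} x H : ℝ) ≤ M :=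
          Nat.cast_le.2 ((MaxA.le x H).trans h)
        have h2 : (cnt T N x M : ℝ) ≤ cnt T N x (H + L) := Nat.cast_le.2 (MaxA.mono x (by omega))
        have h3 := mul_le_mul_of_nonneg_left h1 hε.le
        linarith
      · obtain ⟨H', rfl⟩ := Nat.exists_eq_add_of_le h.le
        have h1 := ih H' (by omega) (T^[M] x)
        have h2 : (cnt T {y | ∃ M ≤ L, ε * M < cnt T N y M} x M : ℝ) ≤ M :=
          Nat.cast_le.2 (MaxA.le x M)
        have h3 := mul_le_mul_of_nonneg_left h2 hε.le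
        rw [add_assoc, MaxA.add, MaxA.add, Nat.cast_add, Nat.cast_add, mul_add]
        linarith
    · obtain ⟨H', rfl⟩ := Nat.exists_eq_add_of_le hH
      have h1 := ih H' (by omega) (T^[1] x)
      have h2 : cnt T {y | ∃ M ≤ L, ε * M < cnt T N y M} x 1 = 0 := by
        rw [MaxA.sum, Finset.sum_range_one, Function.iterate_zero_apply, if_neg hx]
      have h3 : (0 : ℝ) ≤ cnt T N x 1 := Nat.cast_nonneg _
      rw [Nat.succ_eq_add_one, zero_add, add_assoc, MaxA.add, MaxA.add, h2, zero_add, Nat.cast_add]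
      linarith

variable [MeasurableSpace Ω] {μ : Measure Ω}

theorem MaxA.meas (hT : Measurable T) (hN : MeasurableSet N) (M : ℕ) :
    Measurable fun x => cnt T N x M := by
  simp only [MaxA.sum]
  exact Finset.measurable_sum _ fun k _ =>
    Measurable.ite ((hT.iterate k) hN) measurable_const measurable_const

theorem MaxA.int (hT : MeasurePreserving T μ μ) (hN : MeasurableSet N) (M : ℕ) :
    ∫⁻ x, (cnt T N x M : ℝ≥0∞) ∂μ = M * μ N := by
  have h1 : ∀ x, (cnt T N x M : ℝ≥0∞) =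
      ∑ k ∈ Finset.range M, (T^[k] ⁻¹' N).indicator 1 x := by
    intro x
    rw [MaxA.sum, Nat.cast_sum]
    refine Finset.sum_congr rfl fun k _ => ?_
    by_cases h : T^[k] x ∈ N <;> simp [h, indicator]
  simp only [h1]
  rw [lintegral_finsetSum _ fun k _ => measurable_one.indicator ((hT.measurable.iterate k) hN)]
  rw [Finset.sum_congr rfl fun k _ => (lintegral_indicator_one
    ((hT.measurable.iterate k) hN)).trans ((hT.iterate k).measure_preimage hN.nullMeasurableSet)]
  simp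

theorem MaxA.lim {a b : ℝ≥0∞} {L : ℕ} (h : ∀ H : ℕ, H * a ≤ (H + L : ℕ) * b) : a ≤ b := by
  rcases eq_or_ne b ∞ with rfl | hb
  · exact le_top
  have ha : a ≠ ∞ := by
    have h1 := h 1
    rw [Nat.cast_one, one_mul] at h1
    exact ne_top_of_le_ne_top (ENNReal.mul_ne_top (ENNReal.natCast_ne_top _) hb) h1
  lift a to NNReal using ha
  lift b to NNReal using hb
  by_contra hn
  have h1 : (b : ℝ) < a := by exact_mod_cast not_le.1 hn
  obtain ⟨H, hH⟩ := exists_nat_gt (L * (b : ℝ) / (a - b))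
  rw [div_lt_iff₀ (sub_pos.2 h1)] at hH
  have h2 : (H : ℝ) * a ≤ (H + L) * b := by exact_mod_cast h H
  linarith

end Aux

/-- the maximal inequality for visits to a set -/
theorem maxin {Ω : Type*} [MeasurableSpace Ω] {μ : Measure Ω} {T : Ω → Ω}
    (hT : MeasurePreserving T μ μ) {N : Set Ω} (hN : MeasurableSet N) {ε : ℝ} (hε : 0 < ε) :
    ∃ Y, MeasurableSet Y ∧ ENNReal.ofReal ε * μ Yᶜ ≤ μ N ∧
      ∀ x ∈ Y, ∀ M : ℕ, (cnt T N x M : ℝ) ≤ ε * M := by
  have hB : ∀ L : ℕ, MeasurableSet {y | ∃ M ≤ L, ε * M < cnt T N y M} := by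
    intro L
    rw [show {y | ∃ M ≤ L, ε * M < cnt T N y M} = ⋃ M, ⋃ _ : M ≤ L, {y | ε * M < cnt T N y M} by
      ext y
      simp]
    exact MeasurableSet.iUnion fun M => MeasurableSet.iUnion fun _ => measurableSet_lt
      measurable_const (measurable_from_top.comp (MaxA.meas hT.measurable hN M))
  refine ⟨(⋃ L : ℕ, {y | ∃ M ≤ L, ε * M < cnt T N y M})ᶜ, (MeasurableSet.iUnion hB).compl, ?_,
    fun x hx M => not_lt.1 fun h => hx (mem_iUnion.2 ⟨M, M, le_rfl, h⟩)⟩
  rw [compl_compl, Monotone.measure_iUnion fun a b hab y hy =>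
    hy.imp fun M hM => ⟨hM.1.trans hab, hM.2⟩, ENNReal.mul_iSup]
  refine iSup_le fun L => MaxA.lim (L := L) fun H => ?_
  rw [mul_left_comm, ← MaxA.int hT (hB L), ← MaxA.int hT hN,
    ← lintegral_const_mul' _ _ ENNReal.ofReal_ne_top]
  refine lintegral_mono fun x => ?_
  have h1 := ENNReal.ofReal_le_ofReal (MaxA.point (T := T) (N := N) hε L H x)
  rwa [ENNReal.ofReal_mul hε.le, ENNReal.ofReal_natCast, ENNReal.ofReal_natCast] at h1

end Vale.Agent.P007
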