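import Vale.Agent.P007B.CovB
import Vale.Agent.P007B.Limn
import Vale.Agent.P007B.MaxA

/-! The covering theorem. -/

namespace Vale.Agent.P007

open Matrix MeasureTheory ProbabilityTheory Set Filter Topology
open scoped ENNReal

variable {n : ℕ}

/-- the weights at time `l` -/
noncomputable def covW (τ : Fin n → ℝ) (l : ℝ) (p q : Fin n) : ℝ :=
  Real.exp (-(l * max (τ q - τ p) 0))

theorem covW_wt (τ : Fin n → ℝ) {l : ℝ} (hl : 0 ≤ l) : Wt (covW τ l) := by
  refine ⟨fun _ _ => Real.exp_pos _, fun k => by simp [covW], fun k a m => ?_⟩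
  unfold covW
  rw [← Real.exp_add, Real.exp_le_exp]
  have h : max (τ m - τ k) 0 ≤ max (τ a - τ k) 0 + max (τ m - τ a) 0 := by
    refine max_le ?_ (add_nonneg (le_max_right _ _) (le_max_right _ _))
    have h1 := le_max_left (τ a - τ k) 0
    have h2 := le_max_left (τ m - τ a) 0
    linarith
  have := mul_le_mul_of_nonneg_left h hl
  linarith

theorem covW_le_one (τ : Fin n → ℝ) {l : ℝ} (hl : 0 ≤ l) (p q : Fin n) : covW τ l p q ≤ 1 := by
  unfold covW
  rw [Real.exp_le_one_iff, neg_nonpos]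
  exact mul_nonneg hl (le_max_right _ _)

/-- the gain below the blocks -/
noncomputable def covU (β : Fin n → ℕ) (ε : ℝ) (p q : Fin n) : ℝ := if β q < β p then ε else 1

theorem covU_wt {w : Fin n → Fin n → ℝ} (hw : Wt w) (β : Fin n → ℕ) {ε : ℝ} (h0 : 0 < ε)
    (h1 : ε ≤ 1) : Wt fun p q => w p q * covU β ε p q := by
  have hp : ∀ p q, 0 < covU β ε p q := fun p q => by
    unfold covU; split_ifs
    · exact h0
    · exact one_pos
  refine ⟨fun k l => mul_pos (hw.1 k l) (hp k l), fun k => by simp [covU, hw.2.1 k],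
    fun k l m => ?_⟩
  have hu : covU β ε k l * covU β ε l m ≤ covU β ε k m := by
    unfold covU
    split_ifs with a b c c b c c
    · nlinarith
    · nlinarith
    · simp
    · simpa using h1
    · simp
    · simpa using h1
    · omega
    · simp
  calc w k l * covU β ε k l * (w l m * covU β ε l m)
      = w k l * w l m * (covU β ε k l * covU β ε l m) := by ring
    _ ≤ w k m * covU β ε k m :=
      mul_le_mul (hw.2.2 k l m) hu (mul_pos (hp k l) (hp l m)).le (hw.1 k m).le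

theorem cov_count (hn : 0 < n) {x : ℝ} (hx : 0 ≤ x) :
    (32 * n * Real.exp x ^ 2 + 1) ^ (n * n) ≤
      (33 * n : ℝ) ^ (n * n) * Real.exp (2 * n ^ 2 * x) := by
  have h1 : (1 : ℝ) ≤ n := by exact_mod_cast hn
  have h2 : 1 ≤ Real.exp x ^ 2 := one_le_pow₀ (Real.one_le_exp hx)
  have e : Real.exp (2 * n ^ 2 * x) = (Real.exp x ^ 2) ^ (n * n) := by
    rw [← pow_mul, ← Real.exp_nat_mul]
    congr 1
    push_cast
    ring
  rw [e, ← mul_pow]
  refine pow_le_pow_left₀ (by positivity) ?_ _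
  nlinarith

theorem Cv.cov_nonneg {w : Fin n → Fin n → ℝ} {r : ℝ} {A : Set (X n)} {N : ℝ} (h : Cv w r A N) :
    0 ≤ N := by
  obtain ⟨F, hF, -⟩ := h
  exact (Nat.cast_nonneg _).trans hF

theorem cov_bad (hn : 0 < n) (τ : Fin n → ℝ) {Γ L l : ℝ} (hΓ : ∀ p q, |τ p - τ q| ≤ Γ)
    (hΓ0 : 0 ≤ Γ) (hL : 0 ≤ L) (hl : 0 ≤ l) {A : Set (X n)} {N : ℝ}
    (h : Cv (covW τ l) (1 / (8 * n)) A N) :
    Cv (covW τ (l + L)) (1 / (8 * n)) (act (dg (-(L • τ))) '' A)
      (N * ((33 * n : ℝ) ^ (n * n) * Real.exp (2 * n ^ 2 * (L * Γ)))) := by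
  have hx : 0 ≤ L * Γ := mul_nonneg hL hΓ0
  refine Cv.mono subset_rfl (mul_le_mul_of_nonneg_left (cov_count hn hx) h.cov_nonneg)
    (Cv.step hn (covW_wt τ hl) (covW_wt τ hl) (covW_wt τ (add_nonneg hl hL)) (-(L • τ))
      (Real.one_le_exp hx) (fun p q => ?_) (fun _ _ _ _ hg => hg) h)
  unfold covW
  rw [← Real.exp_add, ← Real.exp_add, Real.exp_le_exp]
  simp only [Pi.neg_apply, Pi.smul_apply, smul_eq_mul]
  have h1 := (abs_le.1 (hΓ p q)).2
  rcases le_total (τ q - τ p) 0 with h0 | h0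
  · rw [max_eq_right h0]
    nlinarith
  · rw [max_eq_left h0]
    nlinarith

theorem cov_good (hn : 0 < n) {β : Fin n → ℕ} {τ : Fin n → ℝ}
    (h1 : ∀ p q, β p < β q → τ p + 1 ≤ τ q)
    (h2 : ∀ p q, β p = β q → |τ p - τ q| ≤ 1 / (32 * n ^ 2)) {Γ L l η : ℝ}
    (hΓ : ∀ p q, |τ p - τ q| ≤ Γ) (hΓ0 : 0 ≤ Γ) (hL : 0 ≤ L) (hl : 0 ≤ l) {K : Set (X n)}
    (hK : ∀ x ∈ K, ∀ g, act g x ∈ K → Nr (fun _ _ => 1) (1 / (2 * n)) g →
      (∀ p q, τ p < τ q → |g.1 p q| ≤ η) → ∀ p q, β q < β p →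
        |g.1 p q| ≤ 1 / (2 * n) * Real.exp (-(L * Γ)))
    (hη : ∀ p q, τ p < τ q → covW τ l p q ≤ η) {A : Set (X n)} (hA : A ⊆ K) {N : ℝ}
    (h : Cv (covW τ l) (1 / (8 * n)) A N) :
    Cv (covW τ (l + L)) (1 / (8 * n)) (act (dg (-(L • τ))) '' A)
      (N * ((33 * n : ℝ) ^ (n * n) * Real.exp (L / 16))) := by
  have hn1 : (1 : ℝ) ≤ n := by exact_mod_cast hn
  have hx : 0 ≤ L / (32 * n ^ 2) := by positivity
  have hy : 0 ≤ L * Γ := mul_nonneg hL hΓ0
  have e : 2 * (n : ℝ) ^ 2 * (L / (32 * n ^ 2)) = L / 16 := by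
    field_simp
    ring
  have hc := cov_count hn hx
  rw [e] at hc
  have hr0 : (0 : ℝ) ≤ 1 / (2 * n) := by positivity
  have hr1 : (1 : ℝ) / (2 * n) ≤ 1 := by
    rw [div_le_one (by positivity)]
    linarith
  refine Cv.mono subset_rfl (mul_le_mul_of_nonneg_left hc h.cov_nonneg)
    (Cv.step hn (covW_wt τ hl)
      (covU_wt (covW_wt τ hl) β (Real.exp_pos (-(L * Γ))) (Real.exp_le_one_iff.2 (by linarith)))
      (covW_wt τ (add_nonneg hl hL)) (-(L • τ))
      (Real.one_le_exp hx) (fun p q => ?_) (fun x hx g hgx hg p q => ?_) h)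
  · simp only [Pi.neg_apply, Pi.smul_apply, smul_eq_mul]
    have h3 := (abs_le.1 (hΓ p q)).2
    unfold covW covU
    split_ifs with hb
    · have h4 := h1 q p hb
      rw [← Real.exp_add, ← Real.exp_add, ← Real.exp_add, Real.exp_le_exp,
        max_eq_right (by linarith)]
      nlinarith
    · rw [mul_one, ← Real.exp_add, ← Real.exp_add, Real.exp_le_exp]
      rcases le_total (τ q - τ p) 0 with h0 | h0
      · rw [max_eq_right h0]
        have h5 : β p = β q := by
          by_contra h5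
          have := h1 p q (by omega)
          linarith
        have h6 := mul_le_mul_of_nonneg_left (abs_le.1 (h2 p q h5)).2 hL
        rw [mul_one_div] at h6
        nlinarith
      · rw [max_eq_left h0]
        nlinarith
  · by_cases hb : β q < β p
    · have h4 := h1 q p hb
      have hne : p ≠ q := fun e => by rw [e] at hb; exact lt_irrefl _ hb
      have h5 := hK x (hA hx) g (hA hgx)
        (Nr.mono (fun k m => mul_le_mul_of_nonneg_left (covW_le_one τ hl k m) hr0) hg)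
        (fun a b hab => by
          have hne' : a ≠ b := fun e => by rw [e] at hab; exact lt_irrefl _ hab
          have h6 := hg a b
          rw [Matrix.sub_apply, Matrix.one_apply_ne hne', sub_zero] at h6
          refine h6.trans (le_trans ?_ (hη a b hab))
          exact mul_le_of_le_one_left (Real.exp_pos _).le hr1) p q hb
      rw [Matrix.sub_apply, Matrix.one_apply_ne hne, sub_zero]
      refine h5.trans (le_of_eq ?_)
      simp only [covW, covU, if_pos hb]
      rw [max_eq_right (by linarith)]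
      simp
    · simpa only [covU, if_neg hb, mul_one] using hg p q

/-- points with prescribed returns -/
def covA (S : X n → X n) (K : Set (X n)) (P : Finset ℕ) (k : ℕ) : Set (X n) :=
  {y | y ∈ K ∧ ∀ j < k, j ∉ P → S^[j] y ∈ K}

theorem cov_ind {w : ℕ → Fin n → Fin n → ℝ} {r : ℝ} {S : X n → X n} {K : Set (X n)}
    {N c d : ℝ} (h0 : Cv (w 0) r K N)
    (hg : ∀ k A M, A ⊆ K → Cv (w k) r A M → Cv (w (k + 1)) r (S '' A) (M * c))
    (hb : ∀ k A M, Cv (w k) r A M → Cv (w (k + 1)) r (S '' A) (M * (c * d))) (P : Finset ℕ)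
    (k : ℕ) : Cv (w k) r (S^[k] '' covA S K P k)
      (N * c ^ k * d ^ ((Finset.range k).filter (· ∈ P)).card) := by
  induction k with
  | zero => exact Cv.mono (by rintro _ ⟨y, hy, rfl⟩; exact hy.1) (by simp) h0
  | succ k ih =>
    have hs : S^[k] '' covA S K P (k + 1) ⊆ S^[k] '' covA S K P k :=
      image_mono fun y hy => ⟨hy.1, fun j hj => hy.2 j (by omega)⟩
    have e : S^[k + 1] '' covA S K P (k + 1) = S '' (S^[k] '' covA S K P (k + 1)) := by
      rw [Function.iterate_succ', image_comp]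
    have ih' := Cv.mono hs le_rfl ih
    rw [e, Finset.range_add_one, Finset.filter_insert]
    split_ifs with hk
    · refine Cv.mono subset_rfl (le_of_eq ?_) (hb k _ _ ih')
      rw [Finset.card_insert_of_notMem (by simp)]
      ring
    · refine Cv.mono subset_rfl (le_of_eq ?_) (hg k _ _ ?_ ih')
      · ring
      · rintro _ ⟨y, hy, rfl⟩
        exact hy.2 k (by omega) hk

theorem cov_iter (t : Fin n → ℝ) (k : ℕ) (y : X n) :
    (act (dg t))^[k] y = act (dg ((k : ℝ) • t)) y := by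
  rw [act_iter, dg_nsmul]

theorem cov_end (hn : 0 < n) {μ : Measure (X n)} (hA : AI μ) {β : Fin n → ℕ} {τ : Fin n → ℝ}
    (h1 : ∀ p q, β p < β q → τ p + 1 ≤ τ q) {L l C : ℝ} (hL : 0 ≤ L) {m : ℕ}
    (hl : 2 * (m * L) ≤ l) {K B : Set (X n)}
    (hC : ∀ x ∈ K, ∀ η : ℝ, 0 < η → η ≤ 1 → μ (Tube β η x) ≤ ENNReal.ofReal (C * √η))
    (hC0 : 0 ≤ C) (hB : ∀ y ∈ B, (act (dg (-(L • τ))))^[m] y ∈ K) {N : ℝ}
    (h : Cv (covW τ l) (1 / (8 * n)) ((act (dg (-(L • τ))))^[2 * m] '' B) N) :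
    μ B ≤ ENNReal.ofReal (N * (C * Real.exp (-(m * L / 2)))) := by
  have hm : 0 ≤ (m : ℝ) * L := by positivity
  obtain ⟨F, hF, hc, hcov⟩ := Cv.centre hn (covW_wt τ (by linarith)) h
  set t : Fin n → ℝ := -(L • τ) with ht
  set a : G n := dg (((m : ℝ) * L) • τ) with ha
  have hback : ∀ y, act a ((act (dg t))^[2 * m] y) = (act (dg t))^[m] y := fun y => by
    rw [cov_iter, cov_iter, ← act_mul, ha, ← dg_add]
    congr 2
    funext i
    simp only [ht, Pi.add_apply, Pi.smul_apply, Pi.neg_apply, smul_eq_mul]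
    push_cast
    ring
  set η := Real.exp (-(m * L)) with hη
  have hsub : B ⊆ (act (dg t))^[m] ⁻¹' ⋃ x ∈ F, Tube β η (act a x) := by
    intro y hy
    obtain ⟨x, hx, g, hg, e⟩ := hcov _ (mem_image_of_mem _ hy)
    refine mem_iUnion₂.2 ⟨x, hx, a⁻¹ * g * a, fun p q => ?_, ?_⟩
    · have hr0 : (0 : ℝ) ≤ 1 / (2 * n) := by positivity
      have h3 := hg p q
      by_cases hpq : p = q
      · subst hpq
        rw [Matrix.sub_apply, ha, conj_dg]
        simpa [covW] using h3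
      · rw [Matrix.sub_apply, Matrix.one_apply_ne hpq, sub_zero] at h3 ⊢
        rw [ha, conj_dg, abs_mul, abs_of_pos (Real.exp_pos _)]
        refine (mul_le_mul_of_nonneg_right h3 (Real.exp_pos _).le).trans ?_
        rw [mul_assoc]
        refine mul_le_mul_of_nonneg_left ?_ hr0
        unfold covW
        rw [← Real.exp_add]
        simp only [Pi.smul_apply, smul_eq_mul]
        split_ifs with hb
        · rw [Real.exp_le_one_iff]
          rcases le_total (τ q - τ p) 0 with h0 | h0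
          · rw [max_eq_right h0]
            nlinarith
          · rw [max_eq_left h0]
            nlinarith
        · rw [hη, Real.exp_le_exp]
          rcases lt_or_gt_of_ne hb with h4 | h4
          · have h5 := h1 p q h4
            rw [max_eq_left (by linarith)]
            nlinarith
          · have h5 := h1 q p h4
            rw [max_eq_right (by linarith)]
            nlinarith
    · rw [← hback, e, act_conj]
  have hmp : MeasurePreserving (act (dg t))^[m] μ μ := (Stab.mp (hA t)).iterate m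
  have hs : √η = Real.exp (-(m * L / 2)) := by
    rw [hη, show -((m : ℝ) * L) = -(m * L / 2) + -(m * L / 2) by ring, Real.exp_add,
      Real.sqrt_mul_self (Real.exp_pos _).le]
  calc μ B ≤ μ ((act (dg t))^[m] ⁻¹' ⋃ x ∈ F, Tube β η (act a x)) := measure_mono hsub
    _ ≤ μ (⋃ x ∈ F, Tube β η (act a x)) := by
      have := Measure.le_map_apply hmp.measurable.aemeasurable
        (μ := μ) (⋃ x ∈ F, Tube β η (act a x))
      rwa [hmp.map_eq] at this
    _ ≤ ∑ x ∈ F, μ (Tube β η (act a x)) := measure_biUnion_finset_le _ _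
    _ ≤ ∑ _x ∈ F, ENNReal.ofReal (C * Real.exp (-(m * L / 2))) := by
      refine Finset.sum_le_sum fun x hx => ?_
      rw [← hs]
      refine hC _ ?_ η (Real.exp_pos _) (Real.exp_le_one_iff.2 (by linarith))
      obtain ⟨y, hy, rfl⟩ := hF hx
      rw [hback]
      exact hB y hy
    _ ≤ _ := by
      rw [Finset.sum_const, nsmul_eq_mul, ← ENNReal.ofReal_natCast,
        ← ENNReal.ofReal_mul (Nat.cast_nonneg _)]
      exact ENNReal.ofReal_le_ofReal (mul_le_mul_of_nonneg_right hc (by positivity))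

theorem cov_num {C0 L Γ N C : ℝ} {m j : ℕ} (hn : 0 < n) (hC0 : 0 ≤ C0) (hL : 0 ≤ L) (hΓ : 1 ≤ Γ)
    (hN : 0 ≤ N) (hC : 0 ≤ C) (h4 : 4 * C0 ≤ Real.exp (L / 8))
    (hj : (j : ℝ) ≤ 1 / (32 * n ^ 2 * Γ) * (2 * m : ℕ)) :
    N * (C0 * Real.exp (L / 16)) ^ (2 * m) * Real.exp (2 * n ^ 2 * (L * Γ)) ^ j *
      (C * Real.exp (-(m * L / 2))) ≤ N * C * (1 / 4) ^ (2 * m) := by
  have hn1 : (1 : ℝ) ≤ n := by exact_mod_cast hn
  have h1 : Real.exp (2 * n ^ 2 * (L * Γ)) ^ j ≤ Real.exp (L / 16) ^ (2 * m) := by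
    rw [← Real.exp_nat_mul, ← Real.exp_nat_mul, Real.exp_le_exp]
    refine (mul_le_mul_of_nonneg_right hj (by positivity)).trans (le_of_eq ?_)
    field_simp
    ring
  have h2 : Real.exp (-(m * L / 2)) = Real.exp (-(L / 4)) ^ (2 * m) := by
    rw [← Real.exp_nat_mul]
    congr 1
    push_cast
    ring
  have h3 : C0 * Real.exp (L / 16) * Real.exp (L / 16) * Real.exp (-(L / 4)) ≤ 1 / 4 := by
    have e : Real.exp (L / 8) * (Real.exp (L / 16) * Real.exp (L / 16) * Real.exp (-(L / 4))) = 1 := by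
      rw [← Real.exp_add, ← Real.exp_add, ← Real.exp_add, Real.exp_eq_one_iff]
      ring
    have hp : 0 ≤ Real.exp (L / 16) * Real.exp (L / 16) * Real.exp (-(L / 4)) := by positivity
    have := mul_le_mul_of_nonneg_right h4 hp
    linarith
  calc _ ≤ N * (C0 * Real.exp (L / 16)) ^ (2 * m) * Real.exp (L / 16) ^ (2 * m) *
        (C * Real.exp (-(m * L / 2))) := by gcongr
    _ = N * C * (C0 * Real.exp (L / 16) * Real.exp (L / 16) * Real.exp (-(L / 4))) ^ (2 * m) := by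
      rw [h2, mul_pow, mul_pow _ (Real.exp (-(L / 4)))]
      simp only [mul_pow]
      ring
    _ ≤ _ := by gcongr

theorem cov_cpt (hn : 0 < n) {μ : Measure (X n)} (hA : AI μ) {β : Fin n → ℕ} {τ : Fin n → ℝ}
    (h1 : ∀ p q, β p < β q → τ p + 1 ≤ τ q)
    (h2 : ∀ p q, β p = β q → |τ p - τ q| ≤ 1 / (32 * n ^ 2)) {Γ L : ℝ}
    (hΓ : ∀ p q, |τ p - τ q| ≤ Γ) (hΓ1 : 1 ≤ Γ) (hL : 0 ≤ L)
    (h4 : 4 * (33 * n : ℝ) ^ (n * n) ≤ Real.exp (L / 8)) {K : Set (X n)} (hK : IsCompact K)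
    (H : ∀ x ∈ K, ∀ g, act g x ∈ K → Nr (fun _ _ => 1) (1 / (2 * n)) g →
      (∀ p q, τ p < τ q → g.1 p q = 0) → ∀ p q, β q < β p → g.1 p q = 0)
    (hN : NC μ β) {Y : Set (X n)}
    (hY : ∀ x ∈ Y, ∀ M : ℕ, (cnt (act (dg (-(L • τ)))) Kᶜ x M : ℝ) ≤ 1 / (32 * n ^ 2 * Γ) * M) :
    μ (K ∩ Y) ≤ μ Kᶜ := by
  classical
  have hn1 : (1 : ℝ) ≤ n := by exact_mod_cast hn
  obtain ⟨η, hη, hlim⟩ := limn hK H (ε := 1 / (2 * n) * Real.exp (-(L * Γ))) (by positivity)
  obtain ⟨T, hT0, hT⟩ : ∃ T : ℝ, 0 ≤ T ∧ ∀ l, T ≤ l → ∀ p q, τ p < τ q → covW τ l p q ≤ η := by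
    have h : ∀ᶠ l : ℝ in atTop, ∀ p q, τ p < τ q → covW τ l p q ≤ η := by
      simp only [eventually_all]
      intro p q hpq
      have hd : 0 < max (τ q - τ p) 0 := lt_max_of_lt_left (by linarith)
      exact (Real.tendsto_exp_neg_atTop_nhds_zero.comp
        (tendsto_id.atTop_mul_const hd)).eventually_le_const hη
    obtain ⟨T, hT⟩ := eventually_atTop.1 h
    exact ⟨max T 0, le_max_right _ _, fun l hl => hT l ((le_max_left _ _).trans hl)⟩
  obtain ⟨C', hC'⟩ := hN K hK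
  set C := max C' 0
  have hC0 : 0 ≤ C := le_max_right _ _
  have hC : ∀ x ∈ K, ∀ η : ℝ, 0 < η → η ≤ 1 → μ (Tube β η x) ≤ ENNReal.ofReal (C * √η) :=
    fun x hx e h0 h1 => (hC' x hx e h0 h1).trans (ENNReal.ofReal_le_ofReal
      (mul_le_mul_of_nonneg_right (le_max_left _ _) (Real.sqrt_nonneg _)))
  set S := act (dg (-(L • τ))) with hS
  obtain ⟨N, hN0⟩ := Cv.init (covW_wt τ hT0) (r := 1 / (8 * n)) (by positivity) hK
  have hNn := hN0.cov_nonneg
  have hl : ∀ k : ℕ, 0 ≤ T + k * L := fun k => by positivity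
  have he : ∀ k : ℕ, T + ((k + 1 : ℕ) : ℝ) * L = T + k * L + L := fun k => by
    push_cast
    ring
  have hind := cov_ind (w := fun k : ℕ => covW τ (T + k * L)) (S := S) (K := K) (N := N)
    (r := 1 / (8 * n)) (c := (33 * n : ℝ) ^ (n * n) * Real.exp (L / 16))
    (d := Real.exp (2 * n ^ 2 * (L * Γ))) (by simpa using hN0)
    (fun k A M hAK h => by
      rw [he]
      exact cov_good hn h1 h2 hΓ (by linarith) hL (hl k) hlim
        (hT _ (le_add_of_nonneg_right (by positivity))) hAK h)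
    (fun k A M h => by
      rw [he]
      refine Cv.mono subset_rfl (mul_le_mul_of_nonneg_left ?_ h.cov_nonneg)
        (cov_bad hn τ hΓ (by linarith) hL (hl k) h)
      refine mul_le_mul_of_nonneg_right ?_ (Real.exp_pos _).le
      exact le_mul_of_one_le_right (by positivity) (Real.one_le_exp (by positivity)))
  have hmp : MeasurePreserving S μ μ := Stab.mp (hA _)
  have key : ∀ m : ℕ, μ (K ∩ Y) ≤ μ Kᶜ + ENNReal.ofReal (N * C * (1 / 2) ^ (2 * m)) := by
    intro m
    set I := (Finset.range (2 * m)).powerset.filter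
      fun P => (P.card : ℝ) ≤ 1 / (32 * n ^ 2 * Γ) * (2 * m : ℕ) with hI
    have hsub : K ∩ Y ⊆ S^[m] ⁻¹' Kᶜ ∪ ⋃ P ∈ I, (covA S K P (2 * m) ∩ S^[m] ⁻¹' K) := by
      rintro y ⟨hyK, hyY⟩
      by_cases hy : S^[m] y ∈ K
      · refine Or.inr (mem_iUnion₂.2 ⟨(Finset.range (2 * m)).filter fun k => S^[k] y ∈ Kᶜ,
          ?_, ⟨hyK, fun j hj hjP => ?_⟩, hy⟩)
        · rw [hI, Finset.mem_filter, Finset.mem_powerset]
          refine ⟨Finset.filter_subset _ _, le_trans (le_of_eq ?_) (hY y hyY (2 * m))⟩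
          unfold cnt
          congr
        · by_contra hc
          exact hjP (Finset.mem_filter.2 ⟨Finset.mem_range.2 hj, hc⟩)
      · exact Or.inl hy
    have hb : ∀ P ∈ I, μ (covA S K P (2 * m) ∩ S^[m] ⁻¹' K) ≤
        ENNReal.ofReal (N * C * (1 / 4) ^ (2 * m)) := by
      intro P hP
      have hP' := (Finset.mem_filter.1 hP).2
      refine (cov_end hn hA h1 hL (l := T + (2 * m : ℕ) * L) (by push_cast; linarith) hC hC0
        (fun y hy => hy.2) (Cv.mono (image_mono inter_subset_left) le_rfl (hind P (2 * m)))).trans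
        (ENNReal.ofReal_le_ofReal (cov_num hn (by positivity) hL hΓ1 hNn hC0 h4 ?_))
      refine le_trans ?_ hP'
      exact_mod_cast Finset.card_le_card fun k hk => (Finset.mem_filter.1 hk).2
    have hcard : (I.card : ℝ) ≤ 2 ^ (2 * m) := by
      have : I.card ≤ (Finset.range (2 * m)).powerset.card := Finset.card_filter_le _ _
      rw [Finset.card_powerset, Finset.card_range] at this
      exact_mod_cast this
    refine (measure_mono hsub).trans ((measure_union_le _ _).trans (add_le_add ?_ ?_))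
    · exact le_of_eq ((hmp.iterate m).measure_preimage hK.measurableSet.compl.nullMeasurableSet)
    · refine (measure_biUnion_finset_le _ _).trans ((Finset.sum_le_sum hb).trans ?_)
      rw [Finset.sum_const, nsmul_eq_mul, ← ENNReal.ofReal_natCast,
        ← ENNReal.ofReal_mul (Nat.cast_nonneg _)]
      refine ENNReal.ofReal_le_ofReal ((mul_le_mul_of_nonneg_right hcard (by positivity)).trans
        (le_of_eq ?_))
      rw [show (1 / 2 : ℝ) = 2 * (1 / 4) by norm_num, mul_pow]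
      ring
  have ht : Tendsto (fun m : ℕ => μ Kᶜ + ENNReal.ofReal (N * C * (1 / 2) ^ (2 * m))) atTop
      (𝓝 (μ Kᶜ + ENNReal.ofReal (N * C * 0))) := by
    refine tendsto_const_nhds.add (ENNReal.tendsto_ofReal (tendsto_const_nhds.mul ?_))
    simp only [pow_mul]
    exact tendsto_pow_atTop_nhds_zero_of_lt_one (by norm_num) (by norm_num)
  simpa using ge_of_tendsto' ht key

theorem cover (hn : 0 < n) (μ : Measure (X n)) [IsFiniteMeasure μ] (hA : AI μ) (β : Fin n → ℕ)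
    (τ : Fin n → ℝ) (h1 : ∀ p q, β p < β q → τ p + 1 ≤ τ q)
    (h2 : ∀ p q, β p = β q → |τ p - τ q| ≤ 1 / (32 * n ^ 2))
    (H : ∃ X1, μ X1ᶜ = 0 ∧ ∀ x ∈ X1, ∀ g, act g x ∈ X1 → Nr (fun _ _ => 1) (1 / (2 * n)) g →
      (∀ p q, τ p < τ q → g.1 p q = 0) → ∀ p q, β q < β p → g.1 p q = 0)
    (hN : NC μ β) : μ = 0 := by
  obtain ⟨X1, hX, H⟩ := H
  have hn1 : (1 : ℝ) ≤ n := by exact_mod_cast hn
  obtain ⟨Γ', hΓ'⟩ := (Set.finite_range fun p : Fin n × Fin n => |τ p.1 - τ p.2|).bddAbove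
  set Γ := max Γ' 1
  have hΓ1 : 1 ≤ Γ := le_max_right _ _
  have hΓ : ∀ p q, |τ p - τ q| ≤ Γ := fun p q =>
    (hΓ' ⟨(p, q), rfl⟩).trans (le_max_left _ _)
  set L : ℝ := 32 * (33 * n : ℝ) ^ (n * n) with hLd
  have hL : 0 ≤ L := by positivity
  have h4 : 4 * (33 * n : ℝ) ^ (n * n) ≤ Real.exp (L / 8) := by
    have := Real.add_one_le_exp (L / 8)
    linarith
  have hθ : 0 < 1 / (32 * n ^ 2 * Γ) := by positivity
  set θ := ENNReal.ofReal (1 / (32 * n ^ 2 * Γ)) with hθd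
  have key : ∀ δ : ℝ≥0∞, δ ≠ 0 → θ * μ univ ≤ (θ + θ + 1) * δ := by
    intro δ hδ
    obtain ⟨K, hK, hKX, hKδ⟩ := X.reg μ hX hδ
    obtain ⟨Y, -, hY1, hY2⟩ := maxin (Stab.mp (hA (-(L • τ)))) hK.measurableSet.compl hθ
    have h5 := cov_cpt hn hA h1 h2 hΓ hΓ1 hL h4 hK
      (fun x hx g hg => H x (hKX hx) g (hKX hg)) hN hY2
    have h6 : μ univ ≤ μ Kᶜ + μ (K ∩ Y) + μ Yᶜ := by
      refine le_trans (measure_mono fun y _ => ?_)
        ((measure_union_le _ _).trans (add_le_add (measure_union_le _ _) le_rfl))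
      by_cases a : y ∈ K <;> by_cases b : y ∈ Y <;> simp [a, b]
    calc θ * μ univ ≤ θ * (δ + δ + μ Yᶜ) := by
          gcongr
          exact h6.trans (add_le_add (add_le_add hKδ (h5.trans hKδ)) le_rfl)
      _ = θ * δ + θ * δ + θ * μ Yᶜ := by ring
      _ ≤ θ * δ + θ * δ + δ := by
          gcongr
          exact hY1.trans hKδ
      _ = (θ + θ + 1) * δ := by ring
  have hfin : θ + θ + 1 ≠ ∞ := by simp [hθd]
  have ht : Tendsto (fun k : ℕ => (θ + θ + 1) * (k : ℝ≥0∞)⁻¹) atTop (𝓝 ((θ + θ + 1) * 0)) :=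
    ENNReal.Tendsto.const_mul ENNReal.tendsto_inv_nat_nhds_zero (Or.inr hfin)
  have h0 := ge_of_tendsto' ht fun k => key _ (by simp)
  rw [mul_zero, nonpos_iff_eq_zero, mul_eq_zero] at h0
  rcases h0 with h0 | h0
  · exact absurd h0 (ENNReal.ofReal_pos.2 hθ).ne'
  · exact Measure.measure_univ_eq_zero.1 h0

end Vale.Agent.P007
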