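import Vale.Agent.P007B.Bas

/-! Weighted balls. -/

namespace Vale.Agent.P007

open Matrix MeasureTheory ProbabilityTheory Set Filter Topology
open scoped ENNReal

variable {n : ℕ}

variable {w w1 w' : Fin n → Fin n → ℝ} {r r' : ℝ} {g h : G n}

theorem Nr.mono (h1 : ∀ k l, r * w k l ≤ r' * w' k l) (hg : Nr w r g) : Nr w' r' g := fun k l => (hg k l).trans (h1 k l)

theorem covA_mul (g h : G n) : (g * h).1 = g.1 * h.1 := rfl

theorem covA_prod (hw : Wt w) {A B : Matrix (Fin n) (Fin n) ℝ} {a b : ℝ} (ha : 0 ≤ a) (hb : 0 ≤ b)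
    (hA : ∀ k l, |A k l| ≤ a * w k l) (hB : ∀ k l, |B k l| ≤ b * w k l) (k m : Fin n) :
    |(A * B) k m| ≤ n * a * b * w k m := by
  rw [Matrix.mul_apply]
  refine (Finset.abs_sum_le_sum_abs _ _).trans ((Finset.sum_le_card_nsmul _ _ (a * b * w k m)
    fun l _ => ?_).trans_eq ?_)
  · rw [abs_mul]
    calc |A k l| * |B l m| ≤ a * w k l * (b * w l m) :=
          mul_le_mul (hA k l) (hB l m) (abs_nonneg _) (mul_nonneg ha (hw.1 k l).le)
      _ = a * b * (w k l * w l m) := by ring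
      _ ≤ _ := mul_le_mul_of_nonneg_left (hw.2.2 k l m) (mul_nonneg ha hb)
  · rw [Finset.card_univ, Fintype.card_fin, nsmul_eq_mul]
    ring

theorem Nr.mul (hw : Wt w) (hr : 0 ≤ r) (hr' : 0 ≤ r') (hg : Nr w r g) (hh : Nr w r' h) :
    Nr w (r + r' + n * r * r') (g * h) := by
  intro k l
  have e : (g * h).1 - 1 = (g.1 - 1) + (h.1 - 1) + (g.1 - 1) * (h.1 - 1) := by
    rw [covA_mul]
    noncomm_ring
  have h3 := covA_prod hw hr hr' hg hh k l
  rw [e, Matrix.add_apply, Matrix.add_apply]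
  refine (abs_add_three _ _ _).trans ?_
  have := hg k l
  have := hh k l
  linarith

theorem Nr.inv (hw : Wt w) (hr : 0 ≤ r) (hn : n * r ≤ 1 / 2) (hg : Nr w r g) :
    Nr w (2 * r) g⁻¹ := by
  intro k l
  have : Nonempty (Fin n × Fin n) := ⟨(k, l)⟩
  obtain ⟨p, hp⟩ := Finite.exists_max fun p : Fin n × Fin n => |((g⁻¹).1 - 1) p.1 p.2| / w p.1 p.2
  set ρ := |((g⁻¹).1 - 1) p.1 p.2| / w p.1 p.2 with hρ
  have hρ0 : 0 ≤ ρ := div_nonneg (abs_nonneg _) (hw.1 _ _).le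
  have hb : ∀ k l, |((g⁻¹).1 - 1) k l| ≤ ρ * w k l := fun k l =>
    (div_le_iff₀ (hw.1 k l)).1 (hp (k, l))
  have e : (g⁻¹).1 - 1 = -(g.1 - 1) - (g.1 - 1) * ((g⁻¹).1 - 1) := by
    have h1 : g.1 * (g⁻¹).1 = 1 := congrArg Subtype.val (mul_inv_cancel g)
    rw [sub_mul, mul_sub, h1]
    noncomm_ring
  have h1 : ρ * w p.1 p.2 ≤ (r + n * r * ρ) * w p.1 p.2 := by
    rw [hρ, div_mul_cancel₀ _ (hw.1 _ _).ne', ← hρ]
    have h3 := covA_prod hw hr hρ0 hg hb p.1 p.2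
    have h4 := hg p.1 p.2
    have h5 := congrFun (congrFun e p.1) p.2
    rw [h5, Matrix.sub_apply, Matrix.neg_apply]
    refine (abs_sub _ _).trans ?_
    rw [abs_neg]
    linarith
  have h2 := le_of_mul_le_mul_right h1 (hw.1 _ _)
  have h3 : ρ ≤ 2 * r := by nlinarith
  exact (hb k l).trans (mul_le_mul_of_nonneg_right h3 (hw.1 k l).le)

theorem grid (hn : 0 < n) (hw : Wt w) (hr : 0 < r) {Λ : ℝ} (hΛ : 1 ≤ Λ) (S : Set (G n))
    (hS : ∀ g ∈ S, Nr w (Λ * r) g ∧ ∀ k l, |(g⁻¹).1 k l| ≤ Λ * w k l) :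
    ∃ F : Finset (G n), ↑F ⊆ S ∧ (F.card : ℝ) ≤ (2 * n * Λ ^ 2 + 1) ^ (n * n) ∧
      ∀ g ∈ S, ∃ h ∈ F, Nr w r (h⁻¹ * g) := by
  classical
  have hn' : (0 : ℝ) < n := by exact_mod_cast hn
  have hΛ0 : 0 < Λ := by linarith
  set δ := r / (n * Λ) with hδ
  have hδ0 : 0 < δ := by positivity
  let u : G n → Fin n × Fin n → ℝ := fun g p =>
    ((g.1 - 1) p.1 p.2 + Λ * r * w p.1 p.2) / (δ * w p.1 p.2)
  let cell : G n → Fin n × Fin n → ℕ := fun g p => ⌊u g p⌋₊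
  have hu0 : ∀ g ∈ S, ∀ p, 0 ≤ u g p := fun g hg p =>
    div_nonneg (by linarith [(abs_le.1 ((hS g hg).1 p.1 p.2)).1]) (mul_pos hδ0 (hw.1 _ _)).le
  have hu1 : ∀ g ∈ S, ∀ p, u g p ≤ 2 * n * Λ ^ 2 := fun g hg p => by
    rw [div_le_iff₀ (mul_pos hδ0 (hw.1 _ _))]
    have e : 2 * n * Λ ^ 2 * (δ * w p.1 p.2) = 2 * (Λ * r * w p.1 p.2) := by
      rw [hδ]
      field_simp
    linarith [(abs_le.1 ((hS g hg).1 p.1 p.2)).2]
  let T := (Fintype.piFinset fun _ : Fin n × Fin n => Finset.range (⌊2 * n * Λ ^ 2⌋₊ + 1)).filter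
    fun c => ∃ g ∈ S, cell g = c
  have hT : ∀ c ∈ T, ∃ g ∈ S, cell g = c := fun c hc => (Finset.mem_filter.1 hc).2
  choose! rep hrep hrep' using hT
  refine ⟨T.image rep, fun g hg => ?_, ?_, fun g hg => ?_⟩
  · obtain ⟨c, hc, rfl⟩ := Finset.mem_image.1 (Finset.mem_coe.1 hg)
    exact hrep c hc
  · have h1 : (T.image rep).card ≤ (⌊2 * n * Λ ^ 2⌋₊ + 1) ^ (n * n) := by
      refine Finset.card_image_le.trans ((Finset.card_filter_le _ _).trans_eq ?_)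
      simp
    calc ((T.image rep).card : ℝ) ≤ ((⌊2 * n * Λ ^ 2⌋₊ + 1 : ℕ) : ℝ) ^ (n * n) := by
          exact_mod_cast h1
      _ ≤ _ := by
          push_cast
          gcongr
          exact Nat.floor_le (by positivity)
  · have hc : cell g ∈ T := Finset.mem_filter.2 ⟨Fintype.mem_piFinset.2 fun p =>
      Finset.mem_range.2 (Nat.lt_succ_of_le (Nat.floor_le_floor (hu1 g hg p))), g, hg, rfl⟩
    refine ⟨rep (cell g), Finset.mem_image_of_mem _ hc, fun k l => ?_⟩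
    have hh := hrep _ hc
    have hh' := hrep' _ hc
    generalize rep (cell g) = h at hh hh'
    have hd : ∀ k l, |(g.1 - h.1) k l| ≤ δ * w k l := fun k l => by
      have h0 : 0 < δ * w k l := mul_pos hδ0 (hw.1 _ _)
      have h1 : ⌊u h (k, l)⌋₊ = ⌊u g (k, l)⌋₊ := congrFun hh' (k, l)
      have h2 := Nat.floor_le (hu0 g hg (k, l))
      have h3 := Nat.floor_le (hu0 h hh (k, l))
      have h4 := Nat.lt_floor_add_one (u g (k, l))
      have h5 := Nat.lt_floor_add_one (u h (k, l))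
      rw [h1] at h3 h5
      have e : (g.1 - h.1) k l = (u g (k, l) - u h (k, l)) * (δ * w k l) := by
        simp only [u, Matrix.sub_apply]
        rw [← sub_div, div_mul_cancel₀ _ h0.ne']
        ring
      rw [e, abs_mul, abs_of_pos h0]
      exact mul_le_of_le_one_left h0.le (abs_le.2 ⟨by linarith, by linarith⟩)
    have e : (h⁻¹ * g).1 - 1 = (h⁻¹).1 * (g.1 - h.1) := by
      have h1 : (h⁻¹).1 * h.1 = 1 := congrArg Subtype.val (inv_mul_cancel h)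
      rw [mul_sub, h1, covA_mul]
    rw [e]
    refine (covA_prod hw hΛ0.le hδ0.le (hS h hh).2 hd k l).trans_eq ?_
    rw [hδ]
    field_simp

end Vale.Agent.P007
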