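import Vale.Agent.P007B.CovA

/-! Covering numbers. -/

namespace Vale.Agent.P007

open Matrix MeasureTheory ProbabilityTheory Set Filter Topology
open scoped ENNReal

variable {n : ℕ}

variable {w w1 w' : Fin n → Fin n → ℝ} {r r' : ℝ} {g h : G n}

theorem Cv.mono {A B : Set (X n)} {N N' : ℝ} (hAB : A ⊆ B) (hN : N ≤ N') (h : Cv w r B N) :
    Cv w r A N' := by
  obtain ⟨F, h1, h2⟩ := h
  exact ⟨F, h1.trans hN, fun y hy => h2 y (hAB hy)⟩

theorem Cv.init (hw : Wt w) (hr : 0 < r) {K : Set (X n)} (hK : IsCompact K) :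
    ∃ N : ℝ, Cv w r K N := by
  have key : ∀ x ∈ K, {y | ∃ g, Nr w r g ∧ y = act g x} ∈ 𝓝 x := by
    intro x _
    obtain ⟨a, rfl⟩ := mk_open.surjective x
    have hq : IsOpenQuotientMap fun g : G n => mk (a * g) :=
      mk_open.comp (Homeomorph.mulLeft a).isOpenQuotientMap
    have h1 := hq.isOpenMap.image_mem_nhds (Nr.nhds hw.1 hr)
    rw [mul_one] at h1
    refine mem_of_superset h1 ?_
    rintro y ⟨g, hg, rfl⟩
    exact ⟨g, hg, rfl⟩
  obtain ⟨F, -, hF⟩ := hK.elim_nhds_subcover _ key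
  refine ⟨F.card, F, le_rfl, fun y hy => ?_⟩
  simpa only [mem_iUnion, mem_ofPred_eq, exists_prop] using hF hy

/-- moving the centres into the set -/
theorem Cv.centre (hn : 0 < n) (hw : Wt w) {A : Set (X n)} {N : ℝ}
    (h : Cv w (1 / (8 * n)) A N) : ∃ F : Finset (X n), ↑F ⊆ A ∧ (F.card : ℝ) ≤ N ∧
      ∀ y ∈ A, ∃ x ∈ F, ∃ g, Nr w (1 / (2 * n)) g ∧ y = act g x := by
  classical
  obtain ⟨F, h1, h2⟩ := h
  have hn' : (0 : ℝ) < n := by exact_mod_cast hn
  have key : ∀ x : X n, ∃ k : G n, (∃ g, Nr w (1 / (8 * n)) g ∧ act g x ∈ A) →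
      Nr w (1 / (8 * n)) k ∧ act k x ∈ A := by
    intro x
    by_cases hx : ∃ g, Nr w (1 / (8 * n)) g ∧ act g x ∈ A
    · obtain ⟨g, hg⟩ := hx
      exact ⟨g, fun _ => hg⟩
    · exact ⟨1, fun h => absurd h hx⟩
  choose k hk using key
  refine ⟨(F.filter fun x => ∃ g, Nr w (1 / (8 * n)) g ∧ act g x ∈ A).image fun x => act (k x) x,
    ?_, ?_, fun y hy => ?_⟩
  · intro y hy
    obtain ⟨x, hx, rfl⟩ := Finset.mem_image.1 hy
    exact (hk x (Finset.mem_filter.1 hx).2).2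
  · refine le_trans ?_ h1
    exact_mod_cast Finset.card_image_le.trans (Finset.card_filter_le _ _)
  · obtain ⟨x, hx, g, hg, rfl⟩ := h2 y hy
    have h3 := hk x ⟨g, hg, hy⟩
    refine ⟨_, Finset.mem_image.2 ⟨x, Finset.mem_filter.2 ⟨hx, g, hg, hy⟩, rfl⟩,
      (k x)⁻¹ * g, ?_, by rw [← act_mul, mul_inv_cancel_left]⟩
    have h0 : (0 : ℝ) ≤ 1 / (8 * n) := by positivity
    have h4 : (n : ℝ) * (1 / (8 * n)) = 1 / 8 := by field_simp
    refine Nr.mono (fun p q => mul_le_mul_of_nonneg_right ?_ (hw.1 p q).le)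
      (Nr.mul hw (by positivity) h0 (Nr.inv hw h0 (by rw [h4]; norm_num) h3.1) hg)
    have h5 : (1 : ℝ) / (2 * n) = 4 * (1 / (8 * n)) := by field_simp; norm_num
    rw [h5, mul_left_comm (n : ℝ) 2, h4]
    linarith

theorem Cv.step (hn : 0 < n) (hw : Wt w) (hw1 : Wt w1) (hw' : Wt w') (t : Fin n → ℝ) {Λ : ℝ}
    (hΛ : 1 ≤ Λ) (hs : ∀ p q, w1 p q * Real.exp (t q - t p) ≤ Λ * w' p q) {A : Set (X n)}
    (hA : ∀ x ∈ A, ∀ g, act g x ∈ A → Nr w (1 / (2 * n)) g → Nr w1 (1 / (2 * n)) g) {N : ℝ}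
    (h : Cv w (1 / (8 * n)) A N) :
    Cv w' (1 / (8 * n)) (act (dg t) '' A) (N * (32 * n * Λ ^ 2 + 1) ^ (n * n)) := by
  classical
  obtain ⟨F, hFA, h1, h2⟩ := h.centre hn hw
  have hn1 : (1 : ℝ) ≤ n := by exact_mod_cast hn
  have hn' : (0 : ℝ) < n := by linarith
  have h0 : (0 : ℝ) < 1 / (8 * n) := by positivity
  have key : ∀ x ∈ A, ∃ E : Finset (G n), (E.card : ℝ) ≤ (32 * n * Λ ^ 2 + 1) ^ (n * n) ∧
      ∀ g, act g x ∈ A → Nr w (1 / (2 * n)) g →
        ∃ k ∈ E, Nr w' (1 / (8 * n)) (k⁻¹ * ((dg t)⁻¹ * g * dg t)) := by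
    intro x hx
    obtain ⟨E, -, e1, e2⟩ := grid hn hw' h0 (Λ := 4 * Λ) (by linarith)
      {k | ∃ g, act g x ∈ A ∧ Nr w (1 / (2 * n)) g ∧ k = (dg t)⁻¹ * g * dg t} (by
        rintro k ⟨g, g1, g2, rfl⟩
        have g3 := hA x hx g g1 g2
        have g4 := Nr.inv hw1 (by positivity) (by field_simp; exact le_rfl) g3
        constructor
        · intro p q
          have e : ((dg t)⁻¹ * g * dg t).1 p q - (1 : Matrix (Fin n) (Fin n) ℝ) p q =
              (g.1 - 1) p q * Real.exp (t q - t p) := by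
            rw [conj_dg, Matrix.sub_apply, sub_mul]
            by_cases hpq : p = q
            · subst hpq; simp
            · simp [hpq]
          rw [Matrix.sub_apply, e, abs_mul, abs_of_pos (Real.exp_pos _)]
          calc _ ≤ 1 / (2 * n) * w1 p q * Real.exp (t q - t p) := by gcongr; exact g3 p q
            _ = 1 / (2 * n) * (w1 p q * Real.exp (t q - t p)) := mul_assoc _ _ _
            _ ≤ 1 / (2 * n) * (Λ * w' p q) := mul_le_mul_of_nonneg_left (hs p q) (by positivity)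
            _ = _ := by field_simp; ring
        · intro p q
          have e : ((dg t)⁻¹ * g * dg t)⁻¹ = (dg t)⁻¹ * g⁻¹ * dg t := by group
          have e2 : |(g⁻¹).1 p q| ≤ 2 * w1 p q := by
            have a1 := g4 p q
            have a2 : 2 * (1 / (2 * n)) * w1 p q ≤ 1 * w1 p q := by
              gcongr
              · exact (hw1.1 p q).le
              · field_simp; exact hn1
            have a3 : |(1 : Matrix (Fin n) (Fin n) ℝ) p q| ≤ w1 p q := by
              by_cases hpq : p = q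
              · subst hpq; simp [hw1.2.1]
              · simp [hpq, (hw1.1 p q).le]
            rw [Matrix.sub_apply] at a1
            have a4 := abs_sub_abs_le_abs_sub ((g⁻¹).1 p q) ((1 : Matrix (Fin n) (Fin n) ℝ) p q)
            linarith
          rw [e, conj_dg, abs_mul, abs_of_pos (Real.exp_pos _)]
          have a5 := hs p q
          have a6 := mul_pos (lt_of_lt_of_le one_pos hΛ) (hw'.1 p q)
          calc _ ≤ 2 * w1 p q * Real.exp (t q - t p) := by gcongr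
            _ ≤ _ := by linarith)
    refine ⟨E, e1.trans (le_of_eq (by ring)), fun g g1 g2 => e2 _ ⟨g, g1, g2, rfl⟩⟩
  choose! E hE1 hE2 using key
  refine ⟨F.biUnion fun x => (E x).image fun k => act k (act (dg t) x), ?_, ?_⟩
  · have c1 : (F.biUnion fun x => (E x).image fun k => act k (act (dg t) x)).card ≤
        ∑ x ∈ F, (E x).card :=
      Finset.card_biUnion_le.trans (Finset.sum_le_sum fun x _ => Finset.card_image_le)
    have c2 : ((∑ x ∈ F, (E x).card : ℕ) : ℝ) ≤ F.card * (32 * n * Λ ^ 2 + 1) ^ (n * n) := by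
      rw [Nat.cast_sum, ← nsmul_eq_mul]
      exact Finset.sum_le_card_nsmul _ _ _ fun x hx => hE1 x (hFA hx)
    refine le_trans (by exact_mod_cast c1) (c2.trans ?_)
    gcongr
  · rintro _ ⟨y, hy, rfl⟩
    obtain ⟨x, hx, g, hg, rfl⟩ := h2 y hy
    obtain ⟨k, hk, hk'⟩ := hE2 x (hFA hx) g hy hg
    refine ⟨_, Finset.mem_biUnion.2 ⟨x, hx, Finset.mem_image.2 ⟨k, hk, rfl⟩⟩, _, hk', ?_⟩
    rw [act_conj, ← act_mul k, mul_inv_cancel_left]

end Vale.Agent.P007
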