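import Vale.Agent.P007B.Sl

/-! Definitions for the measure rigidity part. -/

namespace Vale.Agent.P007

open Matrix MeasureTheory ProbabilityTheory Set Filter Topology
open scoped ENNReal

noncomputable section

variable {n : ℕ}

instance G.meas (n : ℕ) : MeasurableSpace (G n) := borel (G n)

instance G.borel (n : ℕ) : BorelSpace (G n) := ⟨rfl⟩

/-- the diagonal element `diag (e^{t_i - mean t})` -/
def dg (t : Fin n → ℝ) : G n :=
  ⟨diagonal fun i => Real.exp (t i - (∑ j, t j) / n), by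
    rw [det_diagonal, ← Real.exp_sum, Finset.sum_sub_distrib, Finset.sum_const, Finset.card_univ,
      Fintype.card_fin, nsmul_eq_mul]
    rcases Nat.eq_zero_or_pos n with rfl | h
    · simp
    · have h0 : (n : ℝ) ≠ 0 := by exact_mod_cast h.ne'
      rw [mul_div_cancel₀ _ h0, sub_self, Real.exp_zero]⟩

/-- the transvection `1 + s E_{ij}` (the identity if `i = j`) -/
def tv (i j : Fin n) (s : ℝ) : G n :=
  ⟨1 + single i j (if i = j then 0 else s), by
    by_cases h : i = j
    · simp [h]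
    · simpa [h, transvection] using det_transvection_of_ne i j h s⟩

theorem act_mul (a b : G n) (x : X n) : act (a * b) x = act b (act a x) := by
  obtain ⟨g, rfl⟩ := mk_open.surjective x
  simp only [act_mk, mul_assoc]

theorem act_one (x : X n) : act 1 x = x := by
  obtain ⟨g, rfl⟩ := mk_open.surjective x
  simp only [act_mk, mul_one]

/-- the stabiliser of a measure -/
def Stab (μ : Measure (X n)) : Subgroup (G n) where
  carrier := {g | μ.map (act g) = μ}
  mul_mem' {a b} ha hb := by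
    have e : act (a * b) = act b ∘ act a := funext (act_mul a b)
    change μ.map _ = μ
    rw [e, ← Measure.map_map (act_cont b).measurable (act_cont a).measurable, ha, hb]
  one_mem' := by
    have e : act (1 : G n) = id := funext act_one
    change μ.map _ = μ
    rw [e, Measure.map_id]
  inv_mem' {a} ha := by
    have e : act a⁻¹ ∘ act a = id := funext fun x => by
      simp only [Function.comp, ← act_mul, mul_inv_cancel, act_one, id]
    change μ.map _ = μ
    conv_lhs => rw [← (show μ.map (act a) = μ from ha)]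
    rw [Measure.map_map (act_cont _).measurable (act_cont a).measurable, e, Measure.map_id]

/-- measurable sets of full measure -/
def Co (μ : Measure (X n)) (Y : Set (X n)) : Prop := MeasurableSet Y ∧ μ Yᶜ = 0

/-- invariance under the diagonal group -/
def AI (μ : Measure (X n)) : Prop := ∀ t, dg t ∈ Stab μ

/-- invariance under a root group -/
def Inv (μ : Measure (X n)) (i j : Fin n) : Prop := ∀ s, tv i j s ∈ Stab μ

/-- transversality to a root group -/
def Tr (μ : Measure (X n)) (i j : Fin n) : Prop :=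
  ∃ Y, Co μ Y ∧ ∀ x ∈ Y, ∀ s, act (tv i j s) x ∈ Y → s = 0

/-- the slab estimate -/
def SG (μ : Measure (X n)) : Prop :=
  ∀ R : ℝ, ∃ C : ℝ, ∀ c η : ℝ, 0 ≤ c → 0 < η → η ≤ 1 → μ (Sl n R c η) ≤ ENNReal.ofReal (C * √η)

/-- no lattice vector lies in a coordinate hyperplane -/
def NH (x : X n) : Prop := ∀ v ∈ lat x, v ≠ 0 → ∀ j, v j ≠ 0

open Classical in
/-- number of visits to `N` before time `M` -/
def cnt {Ω : Type*} (T : Ω → Ω) (N : Set Ω) (x : Ω) (M : ℕ) : ℕ :=
  ((Finset.range M).filter fun k => T^[k] x ∈ N).card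

/-- a system of leaf measures for a flow `u` and a measure `ρ` -/
structure LS {Y : Type} [MeasurableSpace Y] (u : ℝ → Y → Y) (ρ : Measure Y) where
  /-- the leaf measures -/
  m : Kernel Y ℝ
  sf : IsSFiniteKernel m
  /-- the transverse measure -/
  lam : Measure Y
  lsf : SFinite lam
  cons : ∀ y r, m (u r y) = (m y).map (· - r)
  dis : ∀ F : Y → ℝ≥0∞, Measurable F → ∫⁻ y, F y ∂ρ = ∫⁻ y, ∫⁻ r, F (u r y) ∂(m y) ∂lam

/-- a measurable flow with a measurable time coordinate -/
structure Fl {Y : Type} [MeasurableSpace Y] (u : ℝ → Y → Y) (τ : Y → ℝ) : Prop where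
  meas : Measurable fun p : Y × ℝ => u p.2 p.1
  zero : ∀ y, u 0 y = y
  add : ∀ a b y, u a (u b y) = u (a + b) y
  tmeas : Measurable τ
  time : ∀ r y, τ (u r y) = τ y + r

/-- measurable sections of `mk` -/
structure IsSec (σ : X n → G n) : Prop where
  meas : Measurable σ
  mk_sec : ∀ x, mk (σ x) = x

/-- the lift of a measure on `X n` to `G n` -/
def lift (σ : X n → G n) (μ : Measure (X n)) : Measure (G n) :=
  Measure.sum fun γ : Gam n => μ.map fun x => (γ : G n) * σ x

/-- leafwise measures along the root group `(i, j)` -/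
structure LW (μ : Measure (X n)) (i j : Fin n) where
  /-- the leafwise measures -/
  ν : Kernel (X n) ℝ
  sf : IsSFiniteKernel ν
  /-- the good set -/
  X' : Set (X n)
  co : Co μ X'
  norm : ∀ x ∈ X', ν x (Icc (-1) 1) = 1
  fin : ∀ x ∈ X', ∀ a b : ℝ, ν x (Icc a b) ≠ ∞
  cons : ∀ x ∈ X', ∀ s, act (tv i j s) x ∈ X' →
    ν x (Icc (s - 1) (s + 1)) • ν (act (tv i j s) x) = (ν x).map (· - s)
  equiv : ∀ t, ∀ᵐ x ∂μ, ∃ c : ℝ≥0∞, c ≠ 0 ∧ c ≠ ∞ ∧
    ν (act (dg t) x) = c • (ν x).map (· * Real.exp (t j - t i))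
  mt : ∀ F : X n → ℝ → ℝ≥0∞, Measurable (Function.uncurry F) →
    ∫⁻ x, ∫⁻ s, F x s ∂(ν x) ∂μ =
      ∫⁻ x, ∫⁻ s, F (act (tv i j s) x) (-s) / ν x (Icc (s - 1) (s + 1)) ∂(ν x) ∂μ

variable {μ : Measure (X n)} {i j : Fin n}

/-- points with trivial leafwise measure -/
def LW.T (L : LW μ i j) : Set (X n) := {x | L.ν x {0}ᶜ = 0}

/-- points with invariant leafwise measure -/
def LW.Z (L : LW μ i j) : Set (X n) := {x | L.ν x = (2 : ℝ≥0∞)⁻¹ • (volume : Measure ℝ)}

/-- coordinates of the leafwise measure -/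
def LW.fm (L : LW μ i j) (x : X n) : ℚ × ℚ → ℝ≥0∞ := fun q => L.ν x (Ioo q.1 q.2)

/-- measures proportional to a translate -/
def Sym (m : Measure ℝ) : Prop := ∃ s : ℝ, s ≠ 0 ∧ ∃ c : ℝ≥0∞, m.map (· - s) = c • m

/-- weighted neighbourhoods of the identity -/
def Nr (w : Fin n → Fin n → ℝ) (r : ℝ) (g : G n) : Prop := ∀ k l, |(g.1 - 1) k l| ≤ r * w k l

/-- admissible weights -/
def Wt (w : Fin n → Fin n → ℝ) : Prop :=
  (∀ k l, 0 < w k l) ∧ (∀ k, w k k = 1) ∧ ∀ k l m, w k l * w l m ≤ w k m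

/-- `A` is covered by at most `N` weighted balls -/
def Cv (w : Fin n → Fin n → ℝ) (r : ℝ) (A : Set (X n)) (N : ℝ) : Prop :=
  ∃ F : Finset (X n), (F.card : ℝ) ≤ N ∧ ∀ y ∈ A, ∃ x ∈ F, ∃ g, Nr w r g ∧ y = act g x

/-- tubes that are thin across the blocks of `β` -/
def Tube (β : Fin n → ℕ) (η : ℝ) (x : X n) : Set (X n) :=
  {y | ∃ g, Nr (fun p q => if β p = β q then 1 else η) (1 / (2 * n)) g ∧ y = act g x}

/-- tubes have small measure -/
def NC (μ : Measure (X n)) (β : Fin n → ℕ) : Prop :=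
  ∀ K, IsCompact K → ∃ C : ℝ, ∀ x ∈ K, ∀ η : ℝ, 0 < η → η ≤ 1 →
    μ (Tube β η x) ≤ ENNReal.ofReal (C * √η)

/-- the conclusion of the transversality lemma -/
def TT (μ : Measure (X n)) (Y : Set (X n)) : Prop :=
  ∀ x ∈ Y, ∀ g : G n, act g x ∈ Y → (∀ k, 0 < g.1 k k) → ∀ (t : Fin n → ℤ) (p q : Fin n), p ≠ q →
    Tr μ p q → t p = t q → (∀ k l, k ≠ l → (k, l) ≠ (p, q) → t k ≤ t l → g.1 k l = 0) →
    g.1 p q = 0

/-- `E` is a limit of multiples of endomorphisms of the lattice of `g` that commute with `C` -/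
def Lm (g : G n) (C E : Matrix (Fin n) (Fin n) ℝ) : Prop :=
  ∃ (γ : ℕ → Matrix (Fin n) (Fin n) ℤ) (c : ℕ → ℝ),
    (∀ r, Commute ((g⁻¹).1 * (γ r).map (Int.castRingHom ℝ) * g.1) C) ∧
    Tendsto (fun r => c r • ((g⁻¹).1 * (γ r).map (Int.castRingHom ℝ) * g.1)) atTop (𝓝 E)

/-- the direction contracting the root `(a, b)` -/
def ta (a b : Fin n) : Fin n → ℝ := Pi.single a 1 - Pi.single b 1

/-- the sheared displacement -/
def sh (a b : Fin n) (g : G n) (m : ℕ) (s : ℝ) : G n :=
  tv a b (-s) * ((dg ((m : ℝ) • ta a b))⁻¹ * g * dg ((m : ℝ) • ta a b)) * tv a b s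

/-- the special positions for the root `(a, b)` -/
def Sp (a b k l : Fin n) : Prop := k ≠ l ∧ (k = a ∨ l = b)

/-- the projection onto a block -/
def eB (B : Finset (Fin n)) : Matrix (Fin n) (Fin n) ℝ := diagonal fun i => if i ∈ B then 1 else 0

end

end Vale.Agent.P007
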