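import Vale.Agent.P007B.DisE

/-! Disintegration along a flow: uniqueness. -/

namespace Vale.Agent.P007

open Matrix MeasureTheory ProbabilityTheory Set Filter Topology
open scoped ENNReal

variable {n : ℕ}

variable {Y : Type} [MeasurableSpace Y] {u : ℝ → Y → Y} {τ : Y → ℝ} {ρ : Measure Y}

theorem disa_key (h : Fl u τ) (L : LS u ρ) {φ : Y → ℝ≥0∞} (hφ : Measurable φ)
    (h0 : ∀ y, φ y ≠ 0) (h1 : ∫⁻ y, φ y ∂ρ ≠ ∞) {P : Measure (Y × ℝ)} [SFinite P]
    (hP : P = (ρ.withDensity φ).map fun y => (u (-τ y) y, τ y)) :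
    ∃ (H : Y → ℝ≥0∞) (κ : Kernel Y ℝ), IsFiniteKernel κ ∧ (∀ᵐ y ∂ρ, H y ≠ 0 ∧ H y ≠ ∞) ∧
      (∀ y (g : ℝ → ℝ≥0∞), Measurable g → ∫⁻ s, g s ∂κ (u (-τ y) y) =
        (H y)⁻¹ * ∫⁻ s, φ (u s y) * g (s + τ y) ∂L.m y) ∧ P = P.fst ⊗ₘ κ := by
  have := L.sf
  have mu : ∀ y, Measurable fun s => φ (u s y) := fun y =>
    hφ.comp (h.meas.comp measurable_prodMk_left)
  have mφ : Measurable (Function.uncurry fun y s => φ (u s y)) := hφ.comp h.meas
  set H : Y → ℝ≥0∞ := fun y => ∫⁻ s, φ (u s y) ∂L.m y with hH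
  have mH : Measurable H := mφ.lintegral_kernel_prod_right
  have tr : ∀ y r (g : ℝ → ℝ≥0∞), Measurable g → ∫⁻ s, φ (u s (u r y)) * g s ∂L.m (u r y) =
      ∫⁻ s, φ (u s y) * g (s - r) ∂L.m y := fun y r g hg => by
    rw [L.cons, lintegral_map ((mu _).fun_mul hg) (measurable_sub_const r)]
    simp only [h.add, sub_add_cancel]
  have Hinv : ∀ r y, H (u r y) = H y := fun r y => by
    simpa only [mul_one] using tr y r (fun _ => 1) measurable_const
  have md : Measurable (Function.uncurry fun y s => (H y)⁻¹ * φ (u s y)) :=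
    (mH.inv.comp measurable_fst).mul mφ
  set κ := Kernel.withDensity L.m fun y s => (H y)⁻¹ * φ (u s y) with hκ
  have k0 : ∀ y (g : ℝ → ℝ≥0∞), Measurable g → ∫⁻ s, g s ∂κ y =
      (H y)⁻¹ * ∫⁻ s, φ (u s y) * g s ∂L.m y := fun y g hg => by
    rw [hκ, Kernel.withDensity_apply _ md, lintegral_withDensity_eq_lintegral_mul _
      ((mu y).const_mul _) hg, ← lintegral_const_mul _ ((mu y).fun_mul hg)]
    simp only [Pi.mul_apply, mul_assoc]
  have k1 : ∀ y (g : ℝ → ℝ≥0∞), Measurable g → ∫⁻ s, g s ∂κ (u (-τ y) y) =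
      (H y)⁻¹ * ∫⁻ s, φ (u s y) * g (s + τ y) ∂L.m y := fun y g hg => by
    rw [k0 _ g hg, Hinv, tr y _ g hg]
    simp only [sub_neg_eq_add]
  have kf : IsFiniteKernel κ := ⟨1, ENNReal.one_lt_top, fun y => by
    rw [← lintegral_one, k0 y _ measurable_const]
    simp only [mul_one]
    exact ENNReal.inv_mul_le_one _⟩
  have Hf : ∀ᵐ y ∂L.lam, H y < ∞ := ae_lt_top mH (by rw [← L.dis φ hφ]; exact h1)
  have mπ : Measurable fun y => (u (-τ y) y, τ y) :=
    (h.meas.comp (measurable_id.prodMk h.tmeas.neg)).prodMk h.tmeas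
  have πinv : ∀ r y, u (-τ (u r y)) (u r y) = u (-τ y) y := fun r y => by
    rw [h.add, h.time]; congr 1; ring
  have iP : ∀ g : Y × ℝ → ℝ≥0∞, Measurable g → ∫⁻ p, g p ∂P =
      ∫⁻ y, ∫⁻ s, φ (u s y) * g (u (-τ y) y, s + τ y) ∂L.m y ∂L.lam := fun g hg => by
    have mg : Measurable fun y => g (u (-τ y) y, τ y) := hg.comp mπ
    rw [hP, lintegral_map hg mπ, lintegral_withDensity_eq_lintegral_mul _ hφ mg,
      L.dis _ (hφ.mul mg)]
    simp only [Pi.mul_apply, πinv]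
    simp only [h.time, add_comm]
  refine ⟨H, κ, kf, ?_, k1, ?_⟩
  · have a1 : ρ {y | H y = ∞} = 0 :=
      L.ae_of_lam h (mH (measurableSet_singleton _)) (fun r y hy => (Hinv r y).symm.trans hy)
        (by simpa only [ae_iff, not_lt, top_le_iff] using Hf)
    have mN : MeasurableSet {y | H y = 0} := mH (measurableSet_singleton _)
    have a2 : ∫⁻ y, {y | H y = 0}.indicator φ y ∂ρ = 0 := by
      rw [L.dis _ (hφ.indicator mN), ← lintegral_zero (μ := L.lam)]
      refine lintegral_congr fun y => ?_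
      by_cases hy : H y = 0
      · refine le_antisymm ((lintegral_mono fun r => indicator_le_self _ _ _).trans hy.le) zero_le
      · have : ∀ r, {y | H y = 0}.indicator φ (u r y) = 0 := fun r =>
          indicator_of_notMem (s := {y | H y = 0}) (fun hr => hy ((Hinv r y).symm.trans hr)) _
        simp only [this, lintegral_zero]
    have a3 := (lintegral_eq_zero_iff (hφ.indicator mN)).1 a2
    filter_upwards [a3, measure_eq_zero_iff_ae_notMem.1 a1] with y b1 b2
    refine ⟨fun hy => h0 y ?_, b2⟩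
    rwa [indicator_of_mem (show y ∈ {y | H y = 0} from hy)] at b1
  · refine Measure.ext_of_lintegral _ fun g hg => ?_
    have mg : Measurable fun w => ∫⁻ r, g (w, r) ∂κ w := hg.lintegral_kernel_prod_right'
    rw [Measure.lintegral_compProd hg, Measure.fst, lintegral_map mg measurable_fst, iP g hg,
      iP (fun p => ∫⁻ r, g (p.1, r) ∂κ p.1) (mg.comp measurable_fst)]
    refine lintegral_congr_ae ?_
    filter_upwards [Hf] with y hy
    rw [lintegral_mul_const _ (mu y),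
      k1 y (fun r => g (u (-τ y) y, r)) (hg.comp measurable_prodMk_left)]
    change _ = H y * _
    by_cases hy0 : H y = 0
    · rw [hy0, zero_mul, ← lintegral_zero (μ := L.m y)]
      refine lintegral_congr_ae ?_
      filter_upwards [(lintegral_eq_zero_iff (mu y)).1 hy0] with s hs
      rw [show φ (u s y) = 0 from hs, zero_mul]
    · rw [← mul_assoc, ENNReal.mul_inv_cancel hy0 hy.ne, one_mul]

theorem LS.unique (h : Fl u τ) [SigmaFinite ρ] (L L' : LS u ρ) :
    ∀ᵐ y ∂ρ, ∃ c : ℝ≥0∞, c ≠ 0 ∧ c ≠ ∞ ∧ L'.m y = c • L.m y := by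
  obtain ⟨f, f0, fm, f1⟩ := exists_pos_lintegral_lt_of_sigmaFinite ρ one_ne_zero
  have hφ : Measurable fun y => (f y : ℝ≥0∞) := fm.coe_nnreal_ennreal
  have h0 : ∀ y, (f y : ℝ≥0∞) ≠ 0 := fun y => ENNReal.coe_ne_zero.2 (f0 y).ne'
  have h1 : ∫⁻ y, (f y : ℝ≥0∞) ∂ρ ≠ ∞ := (f1.trans ENNReal.one_lt_top).ne
  have := isFiniteMeasure_withDensity h1
  have mu : ∀ y, Measurable fun s => u s y := fun y => h.meas.comp measurable_prodMk_left
  have mπ : Measurable fun y => (u (-τ y) y, τ y) :=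
    (h.meas.comp (measurable_id.prodMk h.tmeas.neg)).prodMk h.tmeas
  obtain ⟨H, κ, kf, a1, a2, a3⟩ := disa_key h L hφ h0 h1 rfl
  obtain ⟨H', κ', kf', b1, b2, b3⟩ := disa_key h L' hφ h0 h1 rfl
  have e1 := Kernel.ae_eq_of_compProd_eq (a3.symm.trans b3)
  rw [Measure.fst, Measure.map_map measurable_fst mπ] at e1
  have e2 := (withDensity_absolutelyContinuous' hφ.aemeasurable (ae_of_all _ h0)).ae_le
    (ae_of_ae_map (measurable_fst.comp mπ).aemeasurable e1)
  filter_upwards [a1, b1, e2] with y c1 c2 c3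
  refine ⟨H' y * (H y)⁻¹, mul_ne_zero c2.1 (ENNReal.inv_ne_zero.2 c1.2),
    ENNReal.mul_ne_top c2.2 (ENNReal.inv_ne_top.2 c1.1), Measure.ext fun A hA => ?_⟩
  have mg : Measurable fun s : ℝ =>
      A.indicator (fun r => (f (u r y) : ℝ≥0∞)⁻¹) (s - τ y) :=
    ((hφ.comp (mu y)).inv.indicator hA).comp (measurable_sub_const _)
  have e3 : ∀ m : Measure ℝ, ∫⁻ s, (f (u s y) : ℝ≥0∞) *
      A.indicator (fun r => (f (u r y) : ℝ≥0∞)⁻¹) (s + τ y - τ y) ∂m = m A := fun m => by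
    rw [← lintegral_indicator_one hA]
    refine lintegral_congr fun s => ?_
    rw [add_sub_cancel_right]
    by_cases hs : s ∈ A
    · rw [indicator_of_mem hs, indicator_of_mem hs, ENNReal.mul_inv_cancel (h0 _) ENNReal.coe_ne_top]
      rfl
    · rw [indicator_of_notMem hs, indicator_of_notMem hs, mul_zero]
  have e4 := a2 y _ mg
  have e5 := b2 y _ mg
  rw [e3] at e4 e5
  have e6 : κ (u (-τ y) y) = κ' (u (-τ y) y) := c3
  rw [Measure.smul_apply, smul_eq_mul, mul_assoc, ← e4, e6, e5, ← mul_assoc,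
    ENNReal.mul_inv_cancel c2.1 c2.2, one_mul]

end Vale.Agent.P007
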