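import Vale.Agent.P007B.DisA

/-! Disintegration along a flow: mass transport, finiteness, equivariance. -/

namespace Vale.Agent.P007

open Matrix MeasureTheory ProbabilityTheory Set Filter Topology
open scoped ENNReal

variable {n : ℕ}

variable {Y : Type} [MeasurableSpace Y] {u : ℝ → Y → Y} {τ : Y → ℝ} {ρ : Measure Y}

theorem DisB.mu (h : Fl u τ) (z : Y) : Measurable fun r => u r z :=
  h.meas.comp (measurable_const.prodMk measurable_id)

theorem LS.mt (h : Fl u τ) (L : LS u ρ) {F : Y → ℝ → ℝ≥0∞} (hF : Measurable (Function.uncurry F)) :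
    ∫⁻ y, ∫⁻ r, F y r ∂(L.m y) ∂ρ = ∫⁻ y, ∫⁻ r, F (u r y) (-r) ∂(L.m y) ∂ρ := by
  have := L.sf
  have hF2 : Measurable (Function.uncurry fun y r => F (u r y) (-r)) :=
    hF.comp (h.meas.prodMk measurable_snd.neg)
  rw [L.dis _ hF.lintegral_kernel_prod_right, L.dis _ hF2.lintegral_kernel_prod_right]
  refine lintegral_congr fun z => ?_
  have hz : Measurable fun r => u r z := DisB.mu h z
  have e1 : ∀ a, ∫⁻ r, F (u a z) r ∂(L.m (u a z)) = ∫⁻ b, F (u a z) (b - a) ∂(L.m z) := by
    intro a
    rw [L.cons, lintegral_map hF.of_uncurry_left (measurable_sub_const a)]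
  have e2 : ∀ a, ∫⁻ r, F (u r (u a z)) (-r) ∂(L.m (u a z)) =
      ∫⁻ b, F (u b z) (a - b) ∂(L.m z) := by
    intro a
    rw [L.cons, lintegral_map hF2.of_uncurry_left (measurable_sub_const a)]
    simp only [h.add, sub_add_cancel, neg_sub]
  simp only [e1, e2]
  refine lintegral_lintegral_swap (Measurable.aemeasurable ?_)
  exact hF.comp ((hz.comp measurable_fst).prodMk (measurable_snd.sub measurable_fst))

theorem LS.fin (h : Fl u τ) (L : LS u ρ) {A : Set Y} (hA : MeasurableSet A) (h1 : ρ A ≠ ∞) :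
    ∀ᵐ y ∂ρ, L.m y {r | u r y ∈ A} ≠ ∞ := by
  have := L.sf
  have hm : Measurable fun y => L.m y {r | u r y ∈ A} :=
    Kernel.measurable_kernel_prodMk_left (κ := L.m) (h.meas hA)
  have h2 : ∫⁻ y, L.m y {r | u r y ∈ A} ∂L.lam = ρ A := by
    rw [← lintegral_indicator_one hA, L.dis _ (measurable_one.indicator hA)]
    refine lintegral_congr fun y => ?_
    rw [← lintegral_indicator_one (show MeasurableSet {r | u r y ∈ A} from DisB.mu h y hA)]
    rfl
  have h3 : ∀ᵐ y ∂L.lam, L.m y {r | u r y ∈ A} < ∞ := ae_lt_top hm (h2 ▸ h1)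
  have h4 : ρ {y | L.m y {r | u r y ∈ A} = ∞} = 0 := by
    refine L.ae_of_lam h (hm (measurableSet_singleton ∞)) ?_ ?_
    · intro r y hy
      simp only [mem_ofPred_eq] at hy ⊢
      rw [L.cons, Measure.map_apply (measurable_sub_const r)
        (show MeasurableSet {s | u s (u r y) ∈ A} from DisB.mu h _ hA)] at hy
      simpa only [preimage_ofPred_eq, h.add, sub_add_cancel] using hy
    · rw [ae_iff] at h3
      simpa only [not_lt, top_le_iff] using h3
  rw [ae_iff]
  simpa only [ne_eq, not_not] using h4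

theorem LS.pos (h : Fl u τ) (L : LS u ρ) : ∀ᵐ y ∂ρ, L.m y (Icc (-1) 1) ≠ 0 := by
  have hN : MeasurableSet {y | L.m y (Icc (-1) 1) = 0} :=
    L.m.measurable_coe measurableSet_Icc (measurableSet_singleton 0)
  rw [ae_iff]
  simp only [ne_eq, not_not]
  rw [← lintegral_indicator_one hN, L.dis _ (measurable_one.indicator hN)]
  refine (lintegral_congr fun z => ?_).trans lintegral_zero
  have e : ∫⁻ r, {y | L.m y (Icc (-1) 1) = 0}.indicator 1 (u r z) ∂(L.m z) =
      L.m z {r | L.m (u r z) (Icc (-1) 1) = 0} := by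
    rw [← lintegral_indicator_one
      (show MeasurableSet {r | L.m (u r z) (Icc (-1) 1) = 0} from DisB.mu h z hN)]
    rfl
  rw [e]
  refine measure_null_of_locally_null _ fun r hr => ?_
  refine ⟨Icc (r - 1) (r + 1),
    mem_nhdsWithin_of_mem_nhds (Icc_mem_nhds (by linarith) (by linarith)), ?_⟩
  simp only [mem_ofPred_eq] at hr
  rw [L.cons, Measure.map_apply (measurable_sub_const r) measurableSet_Icc] at hr
  rw [← hr]
  congr 1
  ext s
  simp only [mem_Icc, mem_preimage]
  constructor <;> rintro ⟨a, b⟩ <;> constructor <;> linarith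

theorem LS.equiv (h : Fl u τ) [SigmaFinite ρ] (L : LS u ρ) (Φ : Y ≃ᵐ Y) (hΦ : ρ.map Φ = ρ)
    {l : ℝ} (hl : l ≠ 0) (hu : ∀ r y, Φ (u r y) = u (r * l) (Φ y)) :
    ∀ᵐ y ∂ρ, ∃ c : ℝ≥0∞, c ≠ 0 ∧ c ≠ ∞ ∧ L.m (Φ y) = c • (L.m y).map (· * l) := by
  have := L.sf
  have := L.lsf
  have hd : Measurable fun r : ℝ => r / l := measurable_div_const l
  have hk : ∀ y, ((L.m.comap Φ Φ.measurable).map (· / l)) y = (L.m (Φ y)).map (· / l) :=
    fun y => by rw [Kernel.map_apply _ hd, Kernel.comap_apply]
  have hs : ρ.map Φ.symm = ρ := by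
    conv_lhs => rw [← hΦ]
    exact Φ.map_symm_map
  let L' : LS u ρ :=
    { m := (L.m.comap Φ Φ.measurable).map (· / l)
      sf := inferInstance
      lam := L.lam.map Φ.symm
      lsf := inferInstance
      cons := fun y r => by
        rw [hk, hk, hu, L.cons, Measure.map_map hd (measurable_sub_const _),
          Measure.map_map (measurable_sub_const _) hd]
        congr 1
        funext b
        simp only [Function.comp]
        field_simp
      dis := fun F hF => by
        conv_lhs => rw [← hs]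
        rw [lintegral_map hF Φ.symm.measurable,
          L.dis (fun a => F (Φ.symm a)) (hF.comp Φ.symm.measurable),
          lintegral_map_equiv]
        refine lintegral_congr fun z => ?_
        rw [hk, lintegral_map (f := fun r => F (u r (Φ.symm z))) (hF.comp (DisB.mu h _)) hd,
          Φ.apply_symm_apply]
        refine lintegral_congr fun b => ?_
        congr 1
        apply Φ.injective
        rw [hu, Φ.apply_symm_apply, Φ.apply_symm_apply, div_mul_cancel₀ _ hl] }
  filter_upwards [LS.unique h L L'] with y ⟨c, h0, h1, e⟩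
  refine ⟨c, h0, h1, ?_⟩
  have e' : (L.m (Φ y)).map (· / l) = c • L.m y := (hk y).symm.trans e
  rw [← Measure.map_smul, ← e', Measure.map_map (measurable_mul_const l) hd]
  have : ((fun x : ℝ => x * l) ∘ fun r : ℝ => r / l) = id :=
    funext fun b => div_mul_cancel₀ _ hl
  rw [this, Measure.map_id]

end Vale.Agent.P007
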