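import Vale.Agent.P007B.DefE

/-! Disintegration along a flow: existence. -/

namespace Vale.Agent.P007

open Matrix MeasureTheory ProbabilityTheory Set Filter Topology
open scoped ENNReal

variable {n : ℕ}

variable {Y : Type} [MeasurableSpace Y] {u : ℝ → Y → Y} {τ : Y → ℝ} {ρ : Measure Y}

theorem LS.exists (h : Fl u τ) (ρ : Measure Y) [SigmaFinite ρ] : Nonempty (LS u ρ) := by
  obtain ⟨φ, hφ0, hφm, hφi⟩ := exists_pos_lintegral_lt_of_sigmaFinite ρ (ε := 1) one_ne_zero
  have hφ : Measurable fun y => (φ y : ℝ≥0∞) := hφm.coe_nnreal_ennreal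
  have hφne : ∀ y, (φ y : ℝ≥0∞) ≠ 0 := fun y => by exact_mod_cast (hφ0 y).ne'
  obtain ⟨π, hπ⟩ : ∃ π : Y → Y, π = fun y => u (-τ y) y := ⟨_, rfl⟩
  have hπm : Measurable π := by
    rw [hπ]
    exact h.meas.comp (measurable_id.prodMk h.tmeas.neg)
  have hπu : ∀ r y, π (u r y) = π y := fun r y => by
    simp only [hπ, h.add, h.time]
    refine congrArg (fun a => u a y) ?_
    ring
  have huπ : ∀ y, u (τ y) (π y) = y := fun y => by
    simp only [hπ, h.add, add_neg_cancel, h.zero]
  have hτπ : ∀ y, τ (π y) = 0 := fun y => by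
    simp only [hπ, h.time, add_neg_cancel]
  have hπ0 : ∀ y, τ y = 0 → π y = y := fun y hy => by
    simp only [hπ, hy, neg_zero, h.zero]
  have hfin : IsFiniteMeasure (ρ.withDensity fun y => (φ y : ℝ≥0∞)) :=
    isFiniteMeasure_withDensity (hφi.trans ENNReal.one_lt_top).ne
  have hpm : Measurable fun y => (π y, τ y) := hπm.prodMk h.tmeas
  obtain ⟨P, hP⟩ : ∃ P : Measure (Y × ℝ),
      P = (ρ.withDensity fun y => (φ y : ℝ≥0∞)).map fun y => (π y, τ y) := ⟨_, rfl⟩
  have : IsFiniteMeasure P := by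
    rw [hP]
    infer_instance
  have hw : Measurable fun p : Y × ℝ => (φ (u p.2 p.1) : ℝ≥0∞)⁻¹ := (hφ.comp h.meas).inv
  have hw' : Measurable (Function.uncurry fun (y : Y) (r : ℝ) => (φ (u r (π y)) : ℝ≥0∞)⁻¹) :=
    hw.comp ((hπm.comp measurable_fst).prodMk measurable_snd)
  obtain ⟨k, hk⟩ : ∃ k : Kernel Y ℝ, k = (P.condKernel.comap π hπm).withDensity
      fun y r => (φ (u r (π y)) : ℝ≥0∞)⁻¹ := ⟨_, rfl⟩
  have : IsSFiniteKernel k := by
    rw [hk]
    exact Kernel.IsSFiniteKernel.withDensity _ fun y r => ENNReal.inv_ne_top.2 (hφne _)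
  have hka : ∀ y, k y = (P.condKernel (π y)).withDensity
      fun r => (φ (u r (π y)) : ℝ≥0∞)⁻¹ := fun y => by
    rw [hk, Kernel.withDensity_apply _ hw', Kernel.comap_apply]
  have hs : Measurable fun p : Y × ℝ => p.2 - τ p.1 :=
    measurable_snd.sub (h.tmeas.comp measurable_fst)
  have hm : ∀ y, ((Kernel.id ×ₖ k).map fun p : Y × ℝ => p.2 - τ p.1) y =
      (k y).map (· - τ y) := fun y => by
    rw [Kernel.map_apply _ hs, Kernel.prod_apply, Kernel.id_apply, Measure.dirac_prod,
      Measure.map_map hs measurable_prodMk_left]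
    rfl
  refine ⟨⟨(Kernel.id ×ₖ k).map fun p : Y × ℝ => p.2 - τ p.1, inferInstance, P.fst,
    inferInstance, fun y r => ?_, fun F hF => ?_⟩⟩
  · rw [hm, hm, Measure.map_map (measurable_sub_const r) (measurable_sub_const _), hka, hka, hπu,
      h.time]
    refine congrArg (fun f => Measure.map f _) (funext fun x => ?_)
    simp only [Function.comp]
    ring
  · have hG : Measurable fun p : Y × ℝ => (φ (u p.2 p.1) : ℝ≥0∞)⁻¹ * F (u p.2 p.1) :=
      hw.mul (hF.comp h.meas)
    have e1 : ∫⁻ y, F y ∂ρ = ∫⁻ p, (φ (u p.2 p.1) : ℝ≥0∞)⁻¹ * F (u p.2 p.1) ∂P := by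
      rw [hP, lintegral_map hG hpm]
      simp only [huπ]
      refine Eq.trans ?_ (lintegral_withDensity_eq_lintegral_mul _ hφ (hφ.inv.mul hF)).symm
      refine lintegral_congr fun y => ?_
      simp only [Pi.mul_apply, Pi.inv_apply]
      rw [← mul_assoc, ENNReal.mul_inv_cancel (hφne y) ENNReal.coe_ne_top, one_mul]
    have e2 : ∀ᵐ z ∂P.fst, τ z = 0 := by
      have e : P.fst = (ρ.withDensity fun y => (φ y : ℝ≥0∞)).map π := by
        rw [hP, Measure.fst, Measure.map_map measurable_fst hpm]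
        rfl
      rw [e]
      exact (ae_map_iff hπm.aemeasurable (h.tmeas (measurableSet_singleton 0))).2
        (Eventually.of_forall hτπ)
    rw [e1]
    conv_lhs => rw [← P.disintegrate P.condKernel]
    rw [Measure.lintegral_compProd hG]
    refine lintegral_congr_ae (e2.mono fun z hz => ?_)
    have hz1 : Measurable fun r : ℝ => u r z := h.meas.comp measurable_prodMk_left
    simp only [hm, hz, sub_zero, Measure.map_id', hka, hπ0 z hz]
    exact (lintegral_withDensity_eq_lintegral_mul _ (hφ.comp hz1).inv (hF.comp hz1)).symm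

/-- a flow invariant property that holds for the transverse measure holds for `ρ` -/
theorem LS.ae_of_lam (h : Fl u τ) (L : LS u ρ) {N : Set Y} (hN : MeasurableSet N)
    (hi : ∀ r y, u r y ∈ N → y ∈ N) (h0 : L.lam N = 0) : ρ N = 0 := by
  have _ := h
  rw [← lintegral_indicator_one hN, L.dis _ (measurable_one.indicator hN)]
  have h1 : ∀ᵐ y ∂L.lam, y ∉ N := measure_eq_zero_iff_ae_notMem.1 h0
  rw [lintegral_congr_ae (g := fun _ => 0) (h1.mono fun y hy => ?_), lintegral_zero]
  have e : (fun r => N.indicator (1 : Y → ℝ≥0∞) (u r y)) = fun _ => 0 :=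
    funext fun r => indicator_of_notMem (fun hr => hy (hi r y hr)) _
  simp only [e, lintegral_zero]

end Vale.Agent.P007
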