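import Vale.Agent.P007B.Bas
import Vale.Agent.P007.Field

/-! Tightness and auxiliary facts. -/

namespace Vale.Agent.P007

open Matrix MeasureTheory ProbabilityTheory Set Filter Topology
open scoped ENNReal

variable {n : ℕ}

open scoped CompactlySupported

theorem tight (hn : 0 < n) (μ : ℕ → Measure (X n)) [∀ i, IsProbabilityMeasure (μ i)]
    (hS : ∃ C : ℝ, ∀ η : ℝ, 0 < η → η ≤ 1 →
      ∀ᶠ i in atTop, μ i (Sl n 1 0 η) ≤ ENNReal.ofReal (C * √η))
    (hM : ∀ ε : ℝ, 0 < ε → IsCompact {x : X n | ∀ v ∈ lat x, v ≠ 0 → ∃ j, ε ≤ |v j|})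
    {ε : ℝ≥0∞} (hε : ε ≠ 0) : ∃ K, IsCompact K ∧ ∀ᶠ i in atTop, μ i Kᶜ ≤ ε := by
  obtain ⟨C, hC⟩ := hS
  have h1 : Tendsto (fun r : ℝ => ENNReal.ofReal (C * √(r ^ n))) (𝓝[>] 0) (𝓝 0) := by
    have h2 : Continuous fun r : ℝ => ENNReal.ofReal (C * √(r ^ n)) :=
      ENNReal.continuous_ofReal.comp (by fun_prop)
    have h3 := h2.tendsto 0
    simp only [zero_pow hn.ne', Real.sqrt_zero, mul_zero, ENNReal.ofReal_zero] at h3
    exact h3.mono_left nhdsWithin_le_nhds
  obtain ⟨r, h2, h3, h4⟩ := ((h1.eventually (ge_mem_nhds (pos_iff_ne_zero.2 hε))).and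
    (Ioo_mem_nhdsGT one_pos)).exists
  refine ⟨_, hM r h3, (hC (r ^ n) (by positivity) (pow_le_one₀ h3.le h4.le)).mono fun i hi =>
    (measure_mono ?_).trans (hi.trans h2)⟩
  intro x hx
  simp only [mem_compl_iff, mem_ofPred_eq, not_forall, not_exists, not_le] at hx
  obtain ⟨v, hv, h0, h5⟩ := hx
  refine ⟨v, hv, h0, fun j => (h5 j).trans h4, ?_⟩
  rw [sub_zero, abs_abs, Finset.abs_prod]
  by_cases h6 : ∃ j, v j = 0
  · obtain ⟨j, hj⟩ := h6
    rw [Finset.prod_eq_zero (Finset.mem_univ j) (by simp [hj])]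
    positivity
  · push Not at h6
    have : Nonempty (Fin n) := ⟨⟨0, hn⟩⟩
    simpa using Finset.prod_lt_prod_of_nonempty (s := Finset.univ) (f := fun j => |v j|)
      (g := fun _ => r) (fun j _ => abs_pos.2 (h6 j)) (fun j _ => h5 j) Finset.univ_nonempty

theorem ai_of_tor {m : ℕ} {μ : Measure (X (m + 1))} (h : ∀ u, μ.map (act (tor u)) = μ) :
    AI μ := by
  intro t
  have e : dg t = tor fun i => t i.castSucc - (∑ j, t j) / (m + 1 : ℕ) := by
    refine Subtype.ext (congrArg Matrix.diagonal (funext fun j => congrArg Real.exp ?_))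
    refine Fin.lastCases ?_ (fun i => ?_) j
    · simp only [Fin.snoc_last, Finset.sum_sub_distrib, Finset.sum_const, Finset.card_univ,
        Fintype.card_fin, nsmul_eq_mul, Fin.sum_univ_castSucc]
      push_cast
      field_simp
      ring
    · simp only [Fin.snoc_castSucc]
  rw [e]
  exact h _

/-- totally real fields of given degree with large discriminant -/
theorem exists_seq (h2 : 2 ≤ n) : ∃ (K : ℕ → Type) (_ : ∀ i, Field (K i))
    (_ : ∀ i, NumberField (K i)) (o : ∀ i, Order (K i) n),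
      (∀ i, Nonempty (Fin n ≃ (K i →+* ℝ))) ∧ Tendsto (fun i => |(o i).disc|) atTop atTop := by
  have key : ∀ B : ℕ, ∃ (K : Type) (_ : Field K) (_ : NumberField K), Module.finrank ℚ K = n ∧
      NumberField.IsTotallyReal K ∧ (B : ℤ) ≤ |NumberField.discr K| := fun B => by
    obtain ⟨p, hp, hB, E, _, _, -, e2, e3, e4⟩ := exists_cyc (k := n) (by omega) B
    refine ⟨E, inferInstance, inferInstance, e2, e3, ?_⟩
    have h1 : (p : ℤ) ∣ NumberField.discr E := by
      by_contra hn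
      have h2 : IsCoprime (NumberField.discr E) ((p : ℤ) ^ (p - 2)) :=
        (((Nat.prime_iff_prime_int.1 hp).coprime_iff_not_dvd.2 hn).symm).pow_right
      have h3 := Int.isUnit_iff_abs_eq.1 (h2.isUnit_of_dvd' dvd_rfl e4)
      linarith [NumberField.abs_discr_gt_two (K := E) (by omega)]
    have h4 := Int.le_of_dvd (abs_pos.2 (NumberField.discr_ne_zero E)) ((dvd_abs _ _).2 h1)
    omega
  choose K i1 i2 k1 k2 k3 using key
  choose o o1 o2 using fun i => exists_max (K i) (k1 i)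
  refine ⟨K, i1, i2, o, fun i => exists_emb (K i) (k1 i), ?_⟩
  refine tendsto_atTop_mono (fun i => ?_) tendsto_natCast_atTop_atTop
  rw [o2]
  exact_mod_cast k3 i

end Vale.Agent.P007
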