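import Vale.Agent.P007B.Lift

/-! Uniqueness of the invariant probability measure. -/

namespace Vale.Agent.P007

open Matrix MeasureTheory ProbabilityTheory Set Filter Topology
open scoped ENNReal

variable {n : ℕ}

variable {σ : X n → G n} {μ : Measure (X n)}

/-- uniqueness of the invariant probability measure -/
theorem haar_unique {ν ν' : Measure (X n)} (h : IsHaarProb ν) (h' : IsHaarProb ν') : ν = ν' := by
  obtain ⟨σ, hσ⟩ := exists_sec n
  have key : ∀ m : Measure (X n), IsHaarProb m → ∃ c : ℝ≥0∞,
      lift σ m = c • (Measure.haar : Measure (G n)).inv := fun m hm => by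
    have := hm.1
    have := lift_fin (μ := m) hσ
    have : (lift σ m).IsMulRightInvariant := ⟨fun a => lift_right hσ (hm.2 a)⟩
    have e := congrArg Measure.inv (Measure.isMulLeftInvariant_eq_smul (lift σ m).inv .haar)
    rw [Measure.inv_inv] at e
    refine ⟨(lift σ m).inv.haarScalarFactor .haar, e.trans ?_⟩
    rw [Measure.inv, Measure.map_smul]
    rfl
  have k2 : ∀ (m : Measure (X n)) (c : ℝ≥0∞), lift σ m = c • (Measure.haar : Measure (G n)).inv →
      ∀ A, MeasurableSet A → m A = c * ∫⁻ g in {h : G n | σ (mk h) = h},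
        A.indicator 1 (mk g) ∂(Measure.haar : Measure (G n)).inv := fun m c hc A hA => by
    have e := lintegral_fd (μ := m) hσ (F := fun g => A.indicator 1 (mk g))
      ((measurable_one.indicator hA).comp mk_meas)
    simp only [hσ.mk_sec, lintegral_indicator_one hA] at e
    rw [← e, hc, Measure.restrict_smul, lintegral_smul_measure, smul_eq_mul]
  obtain ⟨c, hc⟩ := key ν h
  obtain ⟨c', hc'⟩ := key ν' h'
  have e1 := k2 ν c hc univ .univ
  have e2 := k2 ν' c' hc' univ .univ
  rw [h.1.measure_univ] at e1
  rw [h'.1.measure_univ] at e2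
  have e : c = c' := (ENNReal.eq_inv_of_mul_eq_one_left e1.symm).trans
    (ENNReal.eq_inv_of_mul_eq_one_left e2.symm).symm
  ext A hA
  rw [k2 ν c hc A hA, k2 ν' c' hc' A hA, e]

end Vale.Agent.P007
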