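import Vale.Agent.P007B.Rig
import Vale.Agent.P007B.FinA
import Vale.Agent.P007B.UH

/-! Limits of invariant measures. -/

namespace Vale.Agent.P007

open Matrix MeasureTheory ProbabilityTheory Set Filter Topology
open scoped ENNReal

variable {n : ℕ}

open scoped CompactlySupported

theorem equi (hn : n.Prime) (h3 : 3 ≤ n) (μ : ℕ → Measure (X n))
    [∀ i, IsProbabilityMeasure (μ i)] (hA : ∀ i, AI (μ i))
    (hS : ∀ R : ℝ, ∃ C : ℝ, ∀ c η : ℝ, 0 ≤ c → 0 < η → η ≤ 1 →
      ∀ᶠ i in atTop, μ i (Sl n R c η) ≤ ENNReal.ofReal (C * √η))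
    (hM : ∀ ε : ℝ, 0 < ε → IsCompact {x : X n | ∀ v ∈ lat x, v ≠ 0 → ∃ j, ε ≤ |v j|}) :
    ∃ ν, IsHaarProb ν ∧ ∀ f : C_c(X n, ℝ),
      Tendsto (fun i => ∫ x, f x ∂μ i) atTop (𝓝 (∫ x, f x ∂ν)) := by
  let P : ℕ → ProbabilityMeasure (X n) := fun i => ⟨μ i, inferInstance⟩
  have ht : IsTightMeasureSet
      {((m : ProbabilityMeasure (X n)) : Measure (X n)) | m ∈ range P} := by
    rw [isTightMeasureSet_iff_exists_isCompact_measure_compl_le]
    intro ε hε
    obtain ⟨C, hC⟩ := hS 1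
    obtain ⟨K, hK, h1⟩ := tight (by omega) μ ⟨C, fun η a b => hC 0 η le_rfl a b⟩ hM hε.ne'
    obtain ⟨N, hN⟩ := eventually_atTop.1 h1
    choose L hL using fun i => X.reg (μ i) (A := univ) (by simp) hε.ne'
    refine ⟨K ∪ ⋃ i ∈ Finset.range N, L i,
      hK.union ((Finset.range N).isCompact_biUnion fun i _ => (hL i).1), ?_⟩
    rintro _ ⟨_, ⟨i, rfl⟩, rfl⟩
    change μ i _ ≤ ε
    rcases le_or_gt N i with h | h
    · exact (measure_mono (compl_subset_compl.2 subset_union_left)).trans (hN i h)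
    · refine (measure_mono (compl_subset_compl.2 fun x hx => Or.inr ?_)).trans (hL i).2.2
      exact mem_iUnion₂.2 ⟨i, Finset.mem_range.2 h, hx⟩
  have hc := isCompact_closure_of_isTightMeasureSet ht
  have key : ∀ U : Ultrafilter ℕ, (U : Filter ℕ) ≤ atTop →
      ∃ ν : ProbabilityMeasure (X n), Tendsto P U (𝓝 ν) ∧ IsHaarProb (ν : Measure (X n)) := by
    intro U hU
    obtain ⟨ν, -, hν : Tendsto _ _ _⟩ := hc.ultrafilter_le_nhds (U.map P)
      (le_principal_iff.2 (mem_map.2 (univ_mem' fun i => subset_closure (mem_range_self i))))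
    refine ⟨ν, hν, inferInstance, fun a => rig hn h3 (fun t => ?_) (fun R => ?_) a⟩
    · have h1 := ProbabilityMeasure.tendsto_map_of_tendsto_of_continuous P ν hν (act_cont (dg t))
      have h2 : (fun i => (P i).map (act_cont (dg t)).measurable.aemeasurable) = P :=
        funext fun i => Subtype.ext (hA i t)
      rw [h2] at h1
      exact congrArg ProbabilityMeasure.toMeasure (tendsto_nhds_unique h1 hν)
    · obtain ⟨C, hC⟩ := hS R
      refine ⟨C, fun c η a b d => ?_⟩
      refine (ProbabilityMeasure.le_liminf_measure_open_of_tendsto hν (Sl_open R c η)).trans ?_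
      exact liminf_le_of_frequently_le' ((hC c η a b d).filter_mono hU).frequently
  obtain ⟨ν, -, hν⟩ := key (Ultrafilter.of atTop) (Ultrafilter.of_le _)
  refine ⟨ν, hν, fun f => ?_⟩
  have hl : Tendsto P atTop (𝓝 ν) := by
    rw [tendsto_iff_ultrafilter]
    intro U hU
    obtain ⟨ν', h1, h2⟩ := key U hU
    rwa [show ν = ν' from Subtype.ext (haar_unique hν h2)]
  exact ProbabilityMeasure.tendsto_iff_forall_integral_tendsto.1 hl f.toBoundedContinuousFunction

end Vale.Agent.P007
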