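import Vale.Agent.P007B.Bas

/-! Generation of block groups. -/

namespace Vale.Agent.P007

open Matrix MeasureTheory ProbabilityTheory Set Filter Topology
open scoped ENNReal

variable {n : ℕ}

/-- block shape -/
def GenB (B : Finset (Fin n)) (g : G n) : Prop :=
  (∀ k l, k ≠ l → k ∉ B ∨ l ∉ B → g.1 k l = 0) ∧ ∀ k ∉ B, 0 < g.1 k k

lemma gen_right (H : Subgroup (G n)) (a : Fin n) (s : Fin n → ℝ) (g : G n) (S : Finset (Fin n))
    (ha : a ∉ S) (hS : ∀ b ∈ S, ∀ r, tv a b r ∈ H) :
    ∃ h ∈ H, ∀ k l, (g * h).1 k l = g.1 k l + if l ∈ S then s l * g.1 k a else 0 := by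
  induction S using Finset.induction_on with
  | empty => exact ⟨1, one_mem _, fun k l => by simp⟩
  | insert b S hb ih =>
    rw [Finset.mem_insert, not_or] at ha
    obtain ⟨h, hH, e⟩ := ih ha.2 fun c hc => hS c (Finset.mem_insert_of_mem hc)
    refine ⟨h * tv a b (s b), mul_mem hH (hS b (Finset.mem_insert_self _ _) _), fun k l => ?_⟩
    rw [← mul_assoc, mul_tv_apply ha.1, e, e, if_neg ha.2, add_zero]
    by_cases hl : l = b
    · subst hl; simp [hb]
    · simp [hl]

lemma gen_left (H : Subgroup (G n)) (a : Fin n) (s : Fin n → ℝ) (g : G n) (S : Finset (Fin n))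
    (ha : a ∉ S) (hS : ∀ b ∈ S, ∀ r, tv b a r ∈ H) :
    ∃ h ∈ H, ∀ k l, (h * g).1 k l = g.1 k l + if k ∈ S then s k * g.1 a l else 0 := by
  induction S using Finset.induction_on with
  | empty => exact ⟨1, one_mem _, fun k l => by simp⟩
  | insert b S hb ih =>
    rw [Finset.mem_insert, not_or] at ha
    obtain ⟨h, hH, e⟩ := ih ha.2 fun c hc => hS c (Finset.mem_insert_of_mem hc)
    refine ⟨tv b a (s b) * h, mul_mem (hS b (Finset.mem_insert_self _ _) _) hH, fun k l => ?_⟩
    rw [mul_assoc, tv_mul_apply (Ne.symm ha.1), e, e, if_neg ha.2, add_zero]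
    by_cases hl : k = b
    · subst hl; simp [hb]
    · simp [hl]

lemma GenB.right {B S : Finset (Fin n)} {g g' : G n} (h : GenB B g) {a : Fin n} (ha : a ∈ B)
    (hS : S ⊆ B) {s : Fin n → ℝ}
    (e : ∀ k l, g'.1 k l = g.1 k l + if l ∈ S then s l * g.1 k a else 0) : GenB B g' := by
  refine ⟨fun k l hkl hB => ?_, fun k hk => ?_⟩
  · rw [e, h.1 k l hkl hB, zero_add]
    split_ifs with hl
    · have hk : k ∉ B := hB.resolve_right fun h' => h' (hS hl)
      rw [h.1 k a (fun h' => hk (h' ▸ ha)) (Or.inl hk), mul_zero]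
    · rfl
  · rw [e, if_neg fun h' => hk (hS h'), add_zero]; exact h.2 k hk

lemma GenB.left {B S : Finset (Fin n)} {g g' : G n} (h : GenB B g) {a : Fin n} (ha : a ∈ B)
    (hS : S ⊆ B) {s : Fin n → ℝ}
    (e : ∀ k l, g'.1 k l = g.1 k l + if k ∈ S then s k * g.1 a l else 0) : GenB B g' := by
  refine ⟨fun k l hkl hB => ?_, fun k hk => ?_⟩
  · rw [e, h.1 k l hkl hB, zero_add]
    split_ifs with hl
    · have hk : l ∉ B := hB.resolve_left fun h' => h' (hS hl)
      rw [h.1 a l (fun h' => hk (h' ▸ ha)) (Or.inr hk), mul_zero]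
    · rfl
  · rw [e, if_neg fun h' => hk (hS h'), add_zero]; exact h.2 k hk

lemma gen_clear (H : Subgroup (G n)) {B : Finset (Fin n)}
    (hI : ∀ a ∈ B, ∀ b ∈ B, a ≠ b → ∀ s, tv a b s ∈ H) {a : Fin n} (ha : a ∈ B)
    (ih : ∀ g, GenB (B.erase a) g → g ∈ H) {g : G n} (h : GenB B g) (hp : 0 < g.1 a a) :
    g ∈ H := by
  have hn := Finset.notMem_erase a B
  obtain ⟨h1, m1, e1⟩ := gen_right H a (fun l => -(g.1 a l / g.1 a a)) g _ hn fun b hb =>
    hI a ha b (Finset.mem_of_mem_erase hb) (Finset.ne_of_mem_erase hb).symm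
  have b1 := h.right ha (B.erase_subset a) e1
  have p1 : (g * h1).1 a a = g.1 a a := by rw [e1, if_neg hn, add_zero]
  have r1 : ∀ l, l ≠ a → (g * h1).1 a l = 0 := fun l hl => by
    by_cases hB : l ∈ B
    · rw [e1, if_pos (Finset.mem_erase.2 ⟨hl, hB⟩)]; field_simp; ring
    · exact b1.1 a l hl.symm (Or.inr hB)
  obtain ⟨h2, m2, e2⟩ := gen_left H a (fun l => -((g * h1).1 l a / g.1 a a)) (g * h1) _ hn
    fun b hb => hI b (Finset.mem_of_mem_erase hb) a ha (Finset.ne_of_mem_erase hb)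
  have b2 := b1.left ha (B.erase_subset a) e2
  have : h2 * (g * h1) ∈ H := by
    refine ih _ ⟨fun k l hkl hB => ?_, fun k hk => ?_⟩
    · by_cases hk : k = a
      · subst hk
        rw [e2, if_neg hn, add_zero, r1 l hkl.symm]
      by_cases hl : l = a
      · subst hl
        by_cases hB' : k ∈ B
        · rw [e2, if_pos (Finset.mem_erase.2 ⟨hk, hB'⟩), p1]; field_simp; ring
        · exact b2.1 k l hkl (Or.inl hB')
      exact b2.1 k l hkl (hB.imp (fun h' h'' => h' (Finset.mem_erase.2 ⟨hk, h''⟩))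
        fun h' h'' => h' (Finset.mem_erase.2 ⟨hl, h''⟩))
    · by_cases hka : k = a
      · subst hka
        rw [e2, if_neg hn, add_zero, p1]; exact hp
      · exact b2.2 k fun h' => hk (Finset.mem_erase.2 ⟨hka, h'⟩)
  exact (H.mul_mem_cancel_right m1).1 ((H.mul_mem_cancel_left m2).1 this)

lemma gen_step (H : Subgroup (G n)) {B : Finset (Fin n)}
    (hI : ∀ a ∈ B, ∀ b ∈ B, a ≠ b → ∀ s, tv a b s ∈ H) {a : Fin n} (ha : a ∈ B)
    (ih : ∀ g, GenB (B.erase a) g → g ∈ H) {g : G n} (h : GenB B g) {b : Fin n} (hb : b ∈ B)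
    (hab : b ≠ a) (hp : g.1 a b ≠ 0) : g ∈ H := by
  obtain ⟨h1, m1, e1⟩ := gen_right H b (fun _ => (1 - g.1 a a) / g.1 a b) g {a} (by simpa)
    fun c hc => by rw [Finset.mem_singleton.1 hc]; exact hI b hb a ha hab
  refine (H.mul_mem_cancel_right m1).1 (gen_clear H hI ha ih
    (h.right hb (Finset.singleton_subset_iff.2 ha) e1) ?_)
  rw [e1, if_pos (Finset.mem_singleton_self a), div_mul_cancel₀ _ hp]
  linarith

lemma gen_row (g : G n) (a : Fin n) : ∃ l, g.1 a l ≠ 0 := by
  by_contra h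
  push Not at h
  have := det_eq_zero_of_row_eq_zero a h
  rw [g.2] at this
  exact one_ne_zero this

lemma gen_aux (H : Subgroup (G n)) (hA : ∀ t, dg t ∈ H) (B : Finset (Fin n)) :
    (∀ a ∈ B, ∀ b ∈ B, a ≠ b → ∀ s, tv a b s ∈ H) → ∀ g, GenB B g → g ∈ H := by
  induction B using Finset.strongInduction with
  | H B ih =>
    intro hI g h
    rcases B.eq_empty_or_nonempty with rfl | ⟨a, ha⟩
    · obtain ⟨t, rfl⟩ := exists_dg (fun k l hkl => h.1 k l hkl (Or.inl (by simp)))
        fun k => h.2 k (by simp)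
      exact hA t
    have ih' := ih _ (Finset.erase_ssubset ha) fun c hc d hd =>
      hI c (Finset.mem_of_mem_erase hc) d (Finset.mem_of_mem_erase hd)
    by_cases hb : ∃ b ∈ B, b ≠ a
    · obtain ⟨b, hb, hab⟩ := hb
      by_cases hp : g.1 a b = 0
      · obtain ⟨l, hl⟩ := gen_row g a
        by_cases hla : l = a
        · subst hla
          obtain ⟨h1, m1, e1⟩ := gen_right H l (fun _ => 1) g {b} (by simpa using hab.symm)
            fun c hc => by rw [Finset.mem_singleton.1 hc]; exact hI l ha b hb hab.symm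
          refine (H.mul_mem_cancel_right m1).1 (gen_step H hI ha ih'
            (h.right ha (Finset.singleton_subset_iff.2 hb) e1) hb hab ?_)
          rwa [e1, if_pos (Finset.mem_singleton_self b), hp, zero_add, one_mul]
        · have hB : l ∈ B := by
            by_contra hB
            exact hl (h.1 a l (Ne.symm hla) (Or.inr hB))
          exact gen_step H hI ha ih' h hB hla hl
      · exact gen_step H hI ha ih' h hb hab hp
    · push Not at hb
      refine gen_clear H hI ha ih' h ?_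
      have e : g.1 = diagonal fun k => g.1 k k := by
        ext k l
        by_cases hkl : k = l
        · subst hkl; simp
        · rw [diagonal_apply_ne _ hkl]
          refine h.1 k l hkl ?_
          by_contra hc
          push Not at hc
          exact hkl ((hb k hc.1).trans (hb l hc.2).symm)
      have hd := g.2
      rw [e, det_diagonal, ← Finset.mul_prod_erase _ _ (Finset.mem_univ a)] at hd
      have hq : 0 < ∏ k ∈ Finset.univ.erase a, g.1 k k := Finset.prod_pos fun k hk =>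
        h.2 k fun hB => Finset.ne_of_mem_erase hk (hb k hB)
      exact (mul_pos_iff_of_pos_right hq).1 (by rw [hd]; exact one_pos)

theorem gen (H : Subgroup (G n)) (hA : ∀ t, dg t ∈ H) (B : Finset (Fin n))
    (hI : ∀ a ∈ B, ∀ b ∈ B, a ≠ b → ∀ s, tv a b s ∈ H) {g : G n}
    (h0 : ∀ k l, k ≠ l → k ∉ B ∨ l ∉ B → g.1 k l = 0) (h1 : ∀ k ∉ B, 0 < g.1 k k) : g ∈ H :=
  gen_aux H hA B hI g ⟨h0, h1⟩

end Vale.Agent.P007
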