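import Vale.Agent.P007B.DefE

/-! The combinatorics of the graph of roots. -/

namespace Vale.Agent.P007

open Matrix MeasureTheory ProbabilityTheory Set Filter Topology
open scoped ENNReal

variable {n : ℕ}

theorem graph (e h : Fin n → Fin n → Prop) (he : ∀ i j, i ≠ j → h i j → e i j)
    (hR : ∀ i j k, i ≠ j → j ≠ k → i ≠ k → e i j → e j k → h i k)
    (hC : ∀ ρ : Fin n → ℕ, Function.Injective ρ → ∃ p q, ρ q < ρ p ∧ e p q)
    (hS : ∀ (S : Finset (Fin n)), ∀ a ∈ S, ∀ b ∉ S, h a b → ∃ p ∉ S, ∃ q ∈ S, e p q) :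
    ∃ B : Finset (Fin n), 2 ≤ B.card ∧ (∀ p ∈ B, ∀ q ∉ B, ¬e p q ∧ ¬e q p) ∧
      ((∀ a ∈ B, ∀ b ∈ B, a ≠ b → h a b) ∨ ∃ a b, a ≠ b ∧ B = {a, b} ∧ e a b ∧ e b a) := by
  classical
  have tr : ∀ i j k, i ≠ j → j ≠ k → i ≠ k → e i j → e j k → e i k := fun i j k a b c d f =>
    he i k c (hR i j k a b c d f)
  obtain ⟨a, b, hab, h1, h2⟩ : ∃ a b, a ≠ b ∧ e a b ∧ e b a := by
    by_contra hc
    push Not at hc
    let f : Fin n → ℕ := fun p => (Finset.univ.filter fun k => k ≠ p ∧ e k p).card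
    obtain ⟨p, q, h1, h2⟩ := hC (fun p => f p * n + p) fun p q (hpq : f p * n + p = f q * n + q) =>
      Fin.ext (by simpa [Nat.mod_eq_of_lt p.2, Nat.mod_eq_of_lt q.2] using congrArg (· % n) hpq)
    have hpq : p ≠ q := by
      rintro rfl
      exact h1.false
    have h3 : f p < f q := by
      refine Finset.card_lt_card ⟨fun k hk => ?_, fun hs => ?_⟩
      · simp only [Finset.mem_filter, Finset.mem_univ, true_and] at hk ⊢
        have kq : k ≠ q := by
          rintro rfl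
          exact hc p k hpq h2 hk.2
        exact ⟨kq, tr k p q hk.1 hpq kq hk.2 h2⟩
      · simpa using hs (show p ∈ _ by simp [hpq, h2])
    have h4 : (f p + 1) * n ≤ f q * n := Nat.mul_le_mul_right n h3
    have h5 := p.2
    simp only [add_mul, one_mul] at h4
    omega
  let B : Finset (Fin n) := Finset.univ.filter fun c => c = a ∨ (c ≠ a ∧ e a c ∧ e c a)
  have hB : ∀ c, c ∈ B ↔ c = a ∨ (c ≠ a ∧ e a c ∧ e c a) := fun c => by simp [B]
  have ha : a ∈ B := (hB a).2 (Or.inl rfl)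
  have hb : b ∈ B := (hB b).2 (Or.inr ⟨hab.symm, h1, h2⟩)
  have hin : ∀ p ∈ B, ∀ q ∈ B, p ≠ q → e p q := fun p hp q hq hpq => by
    rcases (hB p).1 hp with rfl | ⟨p1, p2, p3⟩ <;> rcases (hB q).1 hq with rfl | ⟨q1, q2, q3⟩
    · exact (hpq rfl).elim
    · exact q2
    · exact p3
    · exact tr p a q p1 q1.symm hpq p3 q2
  have hoth : ∀ p ∈ B, ∃ p' ∈ B, p' ≠ p := fun p _ => by
    by_cases h : p = a
    · exact ⟨b, hb, h ▸ hab.symm⟩
    · exact ⟨a, ha, Ne.symm h⟩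
  have hup : ∀ p ∈ B, ∀ p' ∈ B, ∀ q ∉ B, e p q → e p' q := fun p hp p' hp' q hq h3 => by
    by_cases h : p' = p
    · exact h ▸ h3
    · exact tr p' p q h (fun e => hq (e ▸ hp)) (fun e => hq (e ▸ hp')) (hin _ hp' _ hp h) h3
  have hdn : ∀ p ∈ B, ∀ p' ∈ B, ∀ q ∉ B, e q p → e q p' := fun p hp p' hp' q hq h3 => by
    by_cases h : p = p'
    · exact h ▸ h3
    · exact tr q p p' (fun e => hq (e ▸ hp)) h (fun e => hq (e ▸ hp')) h3 (hin _ hp _ hp' h)
  have hno : ∀ p ∈ B, ∀ q ∉ B, e p q → ¬e q p := fun p hp q hq h3 h4 =>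
    hq ((hB q).2 (Or.inr ⟨fun e => hq (e ▸ ha), hup p hp a ha q hq h3, hdn p hp a ha q hq h4⟩))
  refine ⟨B, Finset.one_lt_card.2 ⟨a, ha, b, hb, hab⟩, fun p hp q hq => ⟨fun h3 => ?_, fun h3 => ?_⟩,
    ?_⟩
  · obtain ⟨p', hp', hne⟩ := hoth p hp
    have pq : p' ≠ q := fun e => hq (e ▸ hp')
    obtain ⟨u, hu, v, hv, h4⟩ := hS (Finset.univ.filter fun d => d ≠ q ∧ ¬e q d) p'
      (by simp [pq, hno p' hp' q hq (hup p hp p' hp' q hq h3)]) q (by simp)
      (hR p' p q hne (fun e => hq (e ▸ hp)) pq (hin _ hp' _ hp hne) h3)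
    simp only [Finset.mem_filter, Finset.mem_univ, true_and, not_and, not_not] at hu hv
    by_cases h5 : u = q
    · exact hv.2 (h5 ▸ h4)
    · exact hv.2 (tr q u v (Ne.symm h5) (fun e => hv.2 (e ▸ hu h5)) hv.1.symm (hu h5) h4)
  · obtain ⟨p', hp', hne⟩ := hoth p hp
    have pq : q ≠ p' := fun e => hq (e ▸ hp')
    obtain ⟨u, hu, v, hv, h4⟩ := hS (Finset.univ.filter fun d => d ∉ B ∧ ¬e a d) q
      (by simpa [hq] using fun h => hno a ha q hq h (hdn p hp a ha q hq h3)) p' (by simp [hp'])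
      (hR q p p' (fun e => hq (e ▸ hp)) hne.symm pq h3 (hin _ hp _ hp' hne.symm))
    simp only [Finset.mem_filter, Finset.mem_univ, true_and, not_and, not_not] at hu hv
    by_cases h5 : u ∈ B
    · exact hv.2 (hup u h5 a ha v hv.1 h4)
    · exact hv.2 (tr a u v (fun e => h5 (e ▸ ha)) (fun e => hv.2 (e ▸ hu h5))
        (fun e => hv.1 (e ▸ ha)) (hu h5) h4)
  · by_cases h3 : ∃ c ∈ B, c ≠ a ∧ c ≠ b
    · obtain ⟨c, hc, ca, cb⟩ := h3
      refine Or.inl fun p hp q hq hpq => ?_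
      obtain ⟨d, hd, dp, dq⟩ : ∃ d ∈ B, d ≠ p ∧ d ≠ q := by
        by_contra h4
        push Not at h4
        have := h4 a ha
        have := h4 b hb
        have := h4 c hc
        grind
      exact hR p d q dp.symm dq hpq (hin _ hp _ hd dp.symm) (hin _ hd _ hq dq)
    · refine Or.inr ⟨a, b, hab, ?_, h1, h2⟩
      push Not at h3
      ext c
      simp only [Finset.mem_insert, Finset.mem_singleton]
      refine ⟨fun hc => ?_, ?_⟩
      · by_cases h4 : c = a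
        · exact Or.inl h4
        · exact Or.inr (h3 c hc h4)
      · rintro (rfl | rfl) <;> assumption

end Vale.Agent.P007
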