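import Vale.Agent.P007B.MaxE

/-! The Hopf argument and saturation. -/

namespace Vale.Agent.P007

open Matrix MeasureTheory ProbabilityTheory Set Filter Topology
open scoped ENNReal

variable {n : ℕ}

private theorem act_dg_tv (p q : Fin n) (s : ℝ) (t : Fin n → ℝ) (x : X n) :
    act (tv p q s * dg t) x = act (tv p q (s * Real.exp (t q - t p))) (act (dg t) x) := by
  rw [tv_mul_dg, act_mul]

theorem hopf (μ : Measure (X n)) [IsFiniteMeasure μ] (hA : AI μ) (t : Fin n → ℝ) {Y : Type}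
    [TopologicalSpace Y] [SecondCountableTopology Y] [T2Space Y] [MeasurableSpace Y]
    [OpensMeasurableSpace Y] {f : X n → Y} (hf : Measurable f)
    (hi : ∀ᵐ x ∂μ, f (act (dg t) x) = f x) : ∃ X1, Co μ X1 ∧ ∀ x ∈ X1, ∀ p q s, t q < t p →
      act (tv p q s) x ∈ X1 → f (act (tv p q s) x) = f x := by
  have hT : MeasurePreserving (act (dg t)) μ μ := Stab.mp (hA t)
  have h1 : ∀ᵐ x ∂μ, ∀ k : ℕ, f ((act (dg t))^[k] x) = f x := by
    have h2 : ∀ᵐ x ∂μ, ∀ k : ℕ, f (act (dg t) ((act (dg t))^[k] x)) = f ((act (dg t))^[k] x) :=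
      ae_all_iff.2 fun k => (hT.iterate k).quasiMeasurePreserving.ae hi
    refine h2.mono fun x hx k => ?_
    induction k with
    | zero => rfl
    | succ k ih => rw [Function.iterate_succ_apply', hx, ih]
  obtain ⟨X0, h0, h0'⟩ := Co.of_ae h1
  obtain ⟨X2, h2, h2'⟩ := lim2 μ hT hf (A := univ) (by simp)
  refine ⟨X0 ∩ X2, h0.inter h2, fun x hx p q s hpq hy => ?_⟩
  obtain ⟨k, hk, z, -, z', -, l1, l2, l3, l4⟩ := h2' x hx.2 _ hy.2
  simp only [h0' x hx.1] at l3
  simp only [h0' _ hy.1] at l4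
  have e3 : f x = f z := tendsto_nhds_unique tendsto_const_nhds l3
  have e4 : f (act (tv p q s) x) = f z' := tendsto_nhds_unique tendsto_const_nhds l4
  have e : ∀ m : ℕ, (act (dg t))^[m] (act (tv p q s) x) =
      act (tv p q (s * Real.exp (m * (t q - t p)))) ((act (dg t))^[m] x) := fun m => by
    rw [act_iter, act_iter, ← dg_nsmul, ← act_mul, act_dg_tv]
    simp only [Pi.smul_apply, smul_eq_mul, mul_sub]
  have l5 : Tendsto (fun r => s * Real.exp (k r * (t q - t p))) atTop (𝓝 0) := by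
    have l6 : Tendsto (fun r => (k r : ℝ) * (t q - t p)) atTop atBot :=
      (tendsto_natCast_atTop_atTop.comp hk.tendsto_atTop).atTop_mul_const_of_neg (sub_neg.2 hpq)
    simpa using (Real.tendsto_exp_atBot.comp l6).const_mul s
  have l7 : Tendsto (fun r => tv p q (s * Real.exp (k r * (t q - t p)))) atTop (𝓝 1) := by
    have := ((tv_cont p q).tendsto 0).comp l5
    rwa [tv_zero] at this
  have l8 := (act_cont2.tendsto (z, 1)).comp (l1.prodMk_nhds l7)
  simp only [act_one] at l8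
  simp only [e] at l2
  have ez : z' = z := tendsto_nhds_unique l2 l8
  rw [e3, e4, ez]

/-- saturation under the diagonal group -/
theorem Tr.sat {μ : Measure (X n)} [IsFiniteMeasure μ] (hA : AI μ) {p q : Fin n}
    (h : Tr μ p q) : ∃ Y, Co μ Y ∧ ∀ x ∈ Y, ∀ s t, act (tv p q s * dg t) x ∈ Y → s = 0 := by
  obtain ⟨Y0, h0, h0'⟩ := h
  have h1 : ∀ᵐ x ∂μ, ∀ᵐ t : Fin n → ℝ, act (dg t) x ∈ Y0 :=
    (Measure.ae_ae_comm (p := fun (x : X n) (t : Fin n → ℝ) => act (dg t) x ∈ Y0)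
      (act_dg_meas h0.1)).2
      (Eventually.of_forall fun t => (Stab.mp (hA t)).quasiMeasurePreserving.ae h0.ae)
  obtain ⟨Y, hY, hY'⟩ := Co.of_ae h1
  refine ⟨Y, hY, fun x hx s t hy => ?_⟩
  have h2 : ∀ᵐ t' : Fin n → ℝ, act (dg (t + t')) x ∈ Y0 :=
    (measurePreserving_add_left volume t).quasiMeasurePreserving.ae (hY' x hx)
  obtain ⟨t', a1, a2⟩ := (h2.and (hY' _ hy)).exists
  rw [← act_mul, mul_assoc, ← dg_add, act_dg_tv] at a2
  exact (mul_eq_zero.1 (h0' _ a1 _ a2)).resolve_right (Real.exp_pos _).ne'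

end Vale.Agent.P007
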