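import Vale.Agent.P007B.Rec

/-! Returns produce limits of endomorphisms. -/

namespace Vale.Agent.P007

open Matrix MeasureTheory ProbabilityTheory Set Filter Topology
open scoped ENNReal

variable {n : ℕ}

theorem ret (μ : Measure (X n)) [IsFiniteMeasure μ] {b : G n} (hb : b ∈ Stab μ) {Y : Set (X n)}
    (hY : MeasurableSet Y) {C E : Matrix (Fin n) (Fin n) ℝ} (hbC : Commute b.1 C) (c : ℕ → ℝ)
    (hE : Tendsto (fun k => c k • (b ^ k).1) atTop (𝓝 E)) {P : X n → X n → Prop}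
    (hP : ∀ᵐ x ∂μ, ∀ k : ℕ, P x (act (b ^ k) x))
    (hl : ∀ᶠ g in 𝓝 (1 : G n), ∀ x ∈ Y, act g x ∈ Y → P x (act g x) → Commute g.1 C) :
    ∀ᵐ x ∂μ, x ∈ Y → ∀ g, mk g = x → Lm g C E := by
  filter_upwards [recur_set μ (Stab.mp hb) hY, hP] with x h1 h2 hx g hg
  obtain ⟨k, hk, h3, h4⟩ := h1 hx
  simp only [act_iter] at h3 h4
  obtain ⟨d, hd, h5⟩ := lift_seq h3
  obtain ⟨N, hN⟩ := eventually_atTop.1 (hd.eventually hl)
  have h6 : ∀ r, ∃ γ : Matrix (Fin n) (Fin n) ℤ,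
      (g⁻¹).1 * γ.map (Int.castRingHom ℝ) * g.1 = (b ^ k r * (d r)⁻¹).1 := fun r => by
    have h7 := h5 r
    rw [← hg, act_mk, act_mk, mk_eq_iff] at h7
    obtain ⟨⟨_, γ, rfl⟩, h8⟩ := h7
    refine ⟨γ.1, ?_⟩
    have e : b ^ k r * (d r)⁻¹ = g⁻¹ * SpecialLinearGroup.map (Int.castRingHom ℝ) γ * g := by
      rw [mul_inv_eq_iff_eq_mul, mul_assoc, mul_assoc, eq_inv_mul_iff_mul_eq]
      exact h8
    rw [e]
    rfl
  choose γ hγ using h6
  refine ⟨fun r => γ (r + N), fun r => c (k (r + N)), fun r => ?_, ?_⟩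
  · rw [hγ]
    refine (hbC.pow_left _).mul_left ?_
    have h7 := hN (r + N) (by simp) x hx (h5 _ ▸ h4 _) (h5 _ ▸ h2 _)
    have e1 : (d (r + N))⁻¹.1 * (d (r + N)).1 = 1 :=
      congrArg Subtype.val (inv_mul_cancel (d (r + N)))
    have e2 : (d (r + N)).1 * (d (r + N))⁻¹.1 = 1 :=
      congrArg Subtype.val (mul_inv_cancel (d (r + N)))
    calc (d (r + N))⁻¹.1 * C = (d (r + N))⁻¹.1 * (C * (d (r + N)).1) * (d (r + N))⁻¹.1 := by
          rw [Matrix.mul_assoc, Matrix.mul_assoc, e2, Matrix.mul_one]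
      _ = _ := by rw [← h7.eq, ← Matrix.mul_assoc, e1, Matrix.one_mul]
  · simp only [hγ]
    have h7 : Tendsto (fun r => ((d r)⁻¹).1) atTop (𝓝 1) := by
      have h8 := (av_inv.tendsto _).comp hd
      rw [inv_one] at h8
      exact h8
    have h8 := ((hE.comp hk.tendsto_atTop).mul h7).comp (tendsto_add_atTop_nat N)
    rw [mul_one] at h8
    exact h8.congr fun r => Matrix.smul_mul _ _ _

theorem lim_dg (i : Fin n) : ∃ c : ℕ → ℝ,
    Tendsto (fun k => c k • (dg (Pi.single i (1 : ℝ)) ^ k : G n).1) atTop (𝓝 (single i i 1)) := by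
  refine ⟨fun k => Real.exp (-(k - k / n)), tendsto_pi_nhds.2 fun p => tendsto_pi_nhds.2 fun q => ?_⟩
  have e : ∀ k : ℕ, (Real.exp (-(k - k / n)) • (dg (Pi.single i (1 : ℝ)) ^ k : G n).1) p q =
      if p = q then Real.exp (-(k * (1 - (Pi.single i (1 : ℝ) : Fin n → ℝ) p))) else 0 := fun k => by
    rw [← dg_nsmul]
    simp only [dg, Matrix.smul_apply, diagonal_apply, Pi.smul_apply, smul_eq_mul, mul_ite, mul_zero,
      ← Real.exp_add, ← Finset.mul_sum, Finset.sum_pi_single', Finset.mem_univ, if_true]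
    congr 2
    ring
  simp only [e]
  by_cases h : p = q
  · subst h
    by_cases hp : p = i
    · subst hp
      simp
    · have h1 := Real.tendsto_exp_neg_atTop_nhds_zero.comp tendsto_natCast_atTop_atTop
      simp only [if_true, Pi.single_eq_of_ne hp, sub_zero, mul_one, single_apply, Ne.symm hp,
        and_self, if_false]
      exact h1
  · have h1 : ¬(i = p ∧ i = q) := fun h1 => h (h1.1.symm.trans h1.2)
    simp [h, h1]

theorem lim_tv {i j : Fin n} (h : i ≠ j) : ∃ c : ℕ → ℝ,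
    Tendsto (fun k => c k • (tv i j 1 ^ k : G n).1) atTop (𝓝 (single i j 1)) := by
  refine ⟨fun k => (k : ℝ)⁻¹, ?_⟩
  have h1 : Tendsto (fun k : ℕ => (k : ℝ)⁻¹ • (1 : Matrix (Fin n) (Fin n) ℝ) + single i j 1) atTop
      (𝓝 ((0 : ℝ) • 1 + single i j 1)) :=
    (tendsto_inv_atTop_nhds_zero_nat.smul_const _).add_const _
  rw [zero_smul, zero_add] at h1
  refine h1.congr' ((eventually_gt_atTop 0).mono fun k hk => ?_)
  have h2 : (k : ℝ) ≠ 0 := by positivity
  simp only [tv_pow, tv_apply h, smul_add, smul_single, smul_eq_mul, inv_mul_cancel₀ h2]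

end Vale.Agent.P007
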