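import Vale.Agent.P007B.LEc
import Vale.Agent.P007B.Ret
import Vale.Agent.P007B.AR

/-! The low entropy argument. -/

namespace Vale.Agent.P007

open Matrix MeasureTheory ProbabilityTheory Set Filter Topology
open scoped ENNReal

variable {n : ℕ}

variable {μ : Measure (X n)}

theorem le_zero (hn : n.Prime) (h3 : 3 ≤ n) [IsFiniteMeasure μ] (hA : AI μ)
    (hN : ∀ᵐ x ∂μ, NH x) {a b : Fin n} (hab : a ≠ b) (L : LW μ a b)
    (hT : ∀ j, j ≠ a → j ≠ b → Tr μ a j ∧ Tr μ j b) (h1 : ∀ᵐ x ∂μ, x ∉ L.T)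
    (h2 : ∀ᵐ x ∂μ, x ∉ L.Z) : μ = 0 := by
  by_contra h0
  have hu : μ univ ≠ 0 := by simpa using h0
  obtain ⟨Y, hY, hδ, hl⟩ := le_loc hA hab L hT h1 h2 (δ := μ univ / 2)
    (ENNReal.div_pos hu (by simp)).ne'
  obtain ⟨i, hia, hib⟩ : ∃ i : Fin n, i ≠ a ∧ i ≠ b := by
    by_contra hc
    push Not at hc
    have h4 : (Finset.univ : Finset (Fin n)) ⊆ {a, b} := fun i _ => by
      by_cases hi : i = a
      · simp [hi]
      · simp [hc i hi]
    have h5 := (Finset.card_le_card h4).trans Finset.card_le_two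
    simp at h5
    omega
  obtain ⟨c, hc⟩ := lim_dg i
  have hC : Commute (dg (Pi.single i (1 : ℝ)) : G n).1 (single a b 1) := by
    change Matrix.diagonal _ * _ = _ * Matrix.diagonal _
    ext k l
    rw [diagonal_mul, mul_diagonal, single_apply]
    split_ifs with h
    · rw [← h.1, ← h.2]
      simp [hia.symm, hib.symm]
    · simp
  have hP : ∀ᵐ x ∂μ, ∀ k : ℕ, L.ν x = L.ν (act (dg (Pi.single i (1 : ℝ)) ^ k) x) := by
    refine ae_all_iff.2 fun k => ?_
    rw [← dg_nsmul]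
    exact (L.fix hA (by simp [hia.symm, hib.symm])).mono fun x hx => hx.symm
  have h6 := ret μ (hA _) hY hC c hc (P := fun x y => L.ν x = L.ν y) hP hl
  have h7 : ∀ᵐ x ∂μ, x ∉ Y := by
    filter_upwards [h6, hN] with x hx hx' hxY
    obtain ⟨g, rfl⟩ := mk_open.surjective x
    refine (ar hn hx' (fun r hr => ?_) (hx hxY g rfl)).2 (single_mul_single_of_ne _ _ _ _ hab.symm _)
    have h8 := congrFun (congrFun hr a) b
    simp [hab] at h8
  have h8 : μ Y = 0 := measure_eq_zero_iff_ae_notMem.2 h7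
  have h9 : μ univ ≤ μ univ / 2 := by
    calc μ univ ≤ μ Y + μ Yᶜ := by rw [← union_compl_self Y]; exact measure_union_le _ _
      _ ≤ _ := by rw [h8, zero_add]; exact hδ
  exact (ENNReal.half_lt_self hu (measure_ne_top _ _)).not_ge h9

end Vale.Agent.P007
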