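import Vale.Agent.P007B.Bas

/-! Recurrence. -/

namespace Vale.Agent.P007

open Matrix MeasureTheory ProbabilityTheory Set Filter Topology
open scoped ENNReal

variable {n : ℕ}

variable {Y : Type} [TopologicalSpace Y] [SecondCountableTopology Y] [MeasurableSpace Y]
  [OpensMeasurableSpace Y]

theorem recur (μ : Measure (X n)) [IsFiniteMeasure μ] {T : X n → X n}
    (hT : MeasurePreserving T μ μ) {f : X n → Y} (hf : Measurable f) :
    ∀ᵐ x ∂μ, ∃ k : ℕ → ℕ, StrictMono k ∧ Tendsto (fun r => T^[k r] x) atTop (𝓝 x) ∧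
      Tendsto (fun r => f (T^[k r] x)) atTop (𝓝 (f x)) := by
  have hm : Measurable fun x => (x, f x) := measurable_id.prodMk hf
  have h1 : ∀ᵐ x ∂μ, ∀ W ∈ TopologicalSpace.countableBasis (X n × Y), (x, f x) ∈ W →
      ∃ᶠ k in atTop, (T^[k] x, f (T^[k] x)) ∈ W :=
    (ae_ball_iff (TopologicalSpace.countable_countableBasis _)).2 fun W hW =>
      hT.conservative.ae_mem_imp_frequently_image_mem
        (hm (TopologicalSpace.isOpen_of_mem_countableBasis hW).measurableSet).nullMeasurableSet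
  filter_upwards [h1] with x hx
  have h2 : MapClusterPt (x, f x) atTop fun k => (T^[k] x, f (T^[k] x)) := by
    refine mapClusterPt_iff_frequently.2 fun U hU => ?_
    obtain ⟨W, hW, h3, h4⟩ := (TopologicalSpace.isBasis_countableBasis _).mem_nhds_iff.1 hU
    exact (hx W hW h3).mono fun k hk => h4 hk
  obtain ⟨k, hk, h3⟩ := h2.tendsto_subseq
  exact ⟨k, hk, (continuous_fst.tendsto _).comp h3, (continuous_snd.tendsto _).comp h3⟩

theorem recur_set (μ : Measure (X n)) [IsFiniteMeasure μ] {T : X n → X n}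
    (hT : MeasurePreserving T μ μ) {A : Set (X n)} (hA : MeasurableSet A) :
    ∀ᵐ x ∂μ, x ∈ A → ∃ k : ℕ → ℕ, StrictMono k ∧ Tendsto (fun r => T^[k r] x) atTop (𝓝 x) ∧
      ∀ r, T^[k r] x ∈ A := by
  filter_upwards [recur μ hT (f := A.indicator (1 : X n → ℝ)) (measurable_one.indicator hA)]
    with x ⟨k, hk, h1, h2⟩ hx
  rw [indicator_of_mem hx] at h2
  obtain ⟨N, hN⟩ := eventually_atTop.1 (h2.eventually (lt_mem_nhds one_pos))
  refine ⟨fun r => k (r + N), fun a b h => hk (by simpa using h),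
    h1.comp (tendsto_add_atTop_nat N), fun r => ?_⟩
  by_contra hc
  have h3 := hN (r + N) (by simp)
  simp [hc] at h3

end Vale.Agent.P007
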