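import Vale.Agent.P007B.MaxA
import Vale.Agent.P007B.Rec

/-! Lusin sets and simultaneous returns. -/

namespace Vale.Agent.P007

open Matrix MeasureTheory ProbabilityTheory Set Filter Topology
open scoped ENNReal

variable {n : ℕ}

variable {Y : Type} [TopologicalSpace Y] [SecondCountableTopology Y] [MeasurableSpace Y]
  [OpensMeasurableSpace Y]

theorem two_cpt (μ : Measure (X n)) [IsFiniteMeasure μ] {B : Set (X n)} (hB : MeasurableSet B)
    {δ : ℝ≥0∞} (hδ : δ ≠ 0) : ∃ C C', IsCompact C ∧ IsCompact C' ∧ C ⊆ B ∧ C' ⊆ Bᶜ ∧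
      μ (C ∪ C')ᶜ ≤ δ := by
  have h2 : δ / 2 ≠ 0 := ENNReal.div_ne_zero.2 ⟨hδ, by simp⟩
  obtain ⟨C, hC, hCB, hμ⟩ := X.reg (μ.restrict B) (A := B)
    (by rw [Measure.restrict_apply hB.compl]; simp) h2
  obtain ⟨C', hC', hCB', hμ'⟩ := X.reg (μ.restrict Bᶜ) (A := Bᶜ)
    (by rw [Measure.restrict_apply hB.compl.compl]; simp) h2
  refine ⟨C, C', hC, hC', hCB, hCB', ?_⟩
  rw [Measure.restrict_apply hC.measurableSet.compl] at hμ
  rw [Measure.restrict_apply hC'.measurableSet.compl] at hμ'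
  calc μ (C ∪ C')ᶜ ≤ μ (Cᶜ ∩ B ∪ C'ᶜ ∩ Bᶜ) := by
        refine measure_mono fun x hx => ?_
        rw [compl_union] at hx
        by_cases h : x ∈ B
        · exact Or.inl ⟨hx.1, h⟩
        · exact Or.inr ⟨hx.2, h⟩
    _ ≤ δ / 2 + δ / 2 := (measure_union_le _ _).trans (add_le_add hμ hμ')
    _ = δ := ENNReal.add_halves δ

theorem lusin (μ : Measure (X n)) [IsFiniteMeasure μ] {f : X n → Y} (hf : Measurable f)
    {A : Set (X n)} (hA : μ Aᶜ = 0) {δ : ℝ≥0∞} (hδ : δ ≠ 0) :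
    ∃ K, IsCompact K ∧ K ⊆ A ∧ μ Kᶜ ≤ δ ∧ ContinuousOn f K := by
  have h2 : δ / 2 ≠ 0 := ENNReal.div_ne_zero.2 ⟨hδ, by simp⟩
  obtain ⟨K0, hK0, hKA, hμ0⟩ := X.reg μ hA h2
  have : Countable (TopologicalSpace.countableBasis Y) :=
    (TopologicalSpace.countable_countableBasis Y).to_subtype
  obtain ⟨ε, hε, hs⟩ := ENNReal.exists_pos_sum_of_countable' h2 (TopologicalSpace.countableBasis Y)
  have hb := TopologicalSpace.isBasis_countableBasis Y
  choose C C' hC hC' hCB hCB' hμ using fun b : TopologicalSpace.countableBasis Y =>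
    two_cpt μ (B := f ⁻¹' b.1) (hf (hb.isOpen b.2).measurableSet) (hε b).ne'
  refine ⟨K0 ∩ ⋂ b, (C b ∪ C' b), hK0.inter_right (isClosed_iInter fun b =>
    ((hC b).union (hC' b)).isClosed), inter_subset_left.trans hKA, ?_, ?_⟩
  · rw [compl_inter, compl_iInter]
    calc μ (K0ᶜ ∪ ⋃ b, (C b ∪ C' b)ᶜ) ≤ δ / 2 + δ / 2 := by
          refine (measure_union_le _ _).trans (add_le_add hμ0 ?_)
          exact (measure_iUnion_le _).trans ((ENNReal.tsum_le_tsum hμ).trans hs.le)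
      _ = δ := ENNReal.add_halves δ
  · intro x hx
    rw [ContinuousWithinAt, hb.nhds_hasBasis.tendsto_right_iff]
    rintro U ⟨hU, hxU⟩
    have hx' : x ∈ (C' ⟨U, hU⟩)ᶜ := fun h => hCB' ⟨U, hU⟩ h hxU
    filter_upwards [self_mem_nhdsWithin,
      mem_nhdsWithin_of_mem_nhds ((hC' ⟨U, hU⟩).isClosed.isOpen_compl.mem_nhds hx')] with y hy hy'
    rcases mem_iInter.1 hy.2 ⟨U, hU⟩ with h | h
    · exact hCB _ h
    · exact absurd h hy'

theorem common_times {Ω : Type*} {T : Ω → Ω} {K : Set Ω} {x y : Ω}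
    (hx : ∀ M : ℕ, (cnt T Kᶜ x M : ℝ) ≤ 1 / 3 * M) (hy : ∀ M : ℕ, (cnt T Kᶜ y M : ℝ) ≤ 1 / 3 * M) :
    ∃ᶠ k in atTop, T^[k] x ∈ K ∧ T^[k] y ∈ K := by
  classical
  rw [frequently_atTop]
  intro a
  by_contra h
  push Not at h
  have hs : Finset.range (3 * a + 3) ⊆ Finset.range a ∪
      (((Finset.range (3 * a + 3)).filter fun k => T^[k] x ∈ Kᶜ) ∪
        (Finset.range (3 * a + 3)).filter fun k => T^[k] y ∈ Kᶜ) := by
    intro k hk
    simp only [Finset.mem_union, Finset.mem_filter]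
    by_cases hka : k < a
    · exact Or.inl (Finset.mem_range.2 hka)
    · by_cases h1 : T^[k] x ∈ K
      · exact Or.inr (Or.inr ⟨hk, h k (not_lt.1 hka) h1⟩)
      · exact Or.inr (Or.inl ⟨hk, h1⟩)
  have h1 := (Finset.card_le_card hs).trans ((Finset.card_union_le _ _).trans
    (add_le_add le_rfl (Finset.card_union_le _ _)))
  rw [Finset.card_range, Finset.card_range] at h1
  have h2 : ((3 * a + 3 : ℕ) : ℝ) ≤ a + (cnt T Kᶜ x (3 * a + 3) + cnt T Kᶜ y (3 * a + 3)) := by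
    have h5 : 3 * a + 3 ≤ a + (cnt T Kᶜ x (3 * a + 3) + cnt T Kᶜ y (3 * a + 3)) := by
      refine h1.trans (le_of_eq ?_)
      unfold cnt
      congr
    exact_mod_cast h5
  have h3 := hx (3 * a + 3)
  have h4 := hy (3 * a + 3)
  push_cast at h2 h3 h4
  linarith

/-- simultaneous returns of two typical points -/
theorem lim2 (μ : Measure (X n)) [IsFiniteMeasure μ] {T : X n → X n}
    (hT : MeasurePreserving T μ μ) {f : X n → Y} (hf : Measurable f) {A : Set (X n)}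
    (hA : μ Aᶜ = 0) : ∃ X1, Co μ X1 ∧ ∀ x ∈ X1, ∀ y ∈ X1, ∃ k : ℕ → ℕ, StrictMono k ∧
      ∃ z ∈ A, ∃ z' ∈ A, Tendsto (fun r => T^[k r] x) atTop (𝓝 z) ∧
        Tendsto (fun r => T^[k r] y) atTop (𝓝 z') ∧
        Tendsto (fun r => f (T^[k r] x)) atTop (𝓝 (f z)) ∧
        Tendsto (fun r => f (T^[k r] y)) atTop (𝓝 (f z')) := by
  obtain ⟨ε, hε, hs⟩ := ENNReal.exists_pos_sum_of_countable' (ε := 1) one_ne_zero ℕ
  choose K hK hKA hμ hc using fun j : ℕ => lusin μ hf hA (hε j).ne'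
  choose W hW hμW hcnt using fun j : ℕ =>
    maxin hT (hK j).measurableSet.compl (ε := 1 / 3) (by norm_num)
  have h3 : ENNReal.ofReal (1 / 3) ≠ 0 := by simp
  have hsum : ∑' j, μ (W j)ᶜ ≠ ∞ := by
    intro h
    have h1 : ENNReal.ofReal (1 / 3) * ∑' j, μ (W j)ᶜ ≤ 1 := by
      rw [← ENNReal.tsum_mul_left]
      exact (ENNReal.tsum_le_tsum fun j => (hμW j).trans (hμ j)).trans hs.le
    rw [h, ENNReal.mul_top h3] at h1
    simp at h1
  obtain ⟨X1, hX1, hev⟩ := Co.of_ae (ae_eventually_notMem hsum)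
  refine ⟨X1, hX1, fun x hx y hy => ?_⟩
  obtain ⟨j, hjx, hjy⟩ := ((hev x hx).and (hev y hy)).exists
  obtain ⟨φ, hφ, hφK⟩ := extraction_of_frequently_atTop
    (common_times (hcnt j x (not_not.1 hjx)) (hcnt j y (not_not.1 hjy)))
  obtain ⟨⟨z, z'⟩, hz, ψ, hψ, hlim⟩ := ((hK j).prod (hK j)).tendsto_subseq
    (x := fun r => (T^[φ r] x, T^[φ r] y)) fun r => hφK r
  have h1 : Tendsto (fun r => T^[φ (ψ r)] x) atTop (𝓝 z) := (continuous_fst.tendsto _).comp hlim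
  have h2 : Tendsto (fun r => T^[φ (ψ r)] y) atTop (𝓝 z') := (continuous_snd.tendsto _).comp hlim
  refine ⟨φ ∘ ψ, hφ.comp hψ, z, hKA j hz.1, z', hKA j hz.2, h1, h2, ?_, ?_⟩
  · exact (hc j z hz.1).tendsto.comp (tendsto_nhdsWithin_iff.2
      ⟨h1, Eventually.of_forall fun r => (hφK _).1⟩)
  · exact (hc j z' hz.2).tendsto.comp (tendsto_nhdsWithin_iff.2
      ⟨h2, Eventually.of_forall fun r => (hφK _).2⟩)

end Vale.Agent.P007
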