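import Vale.Agent.P007B.LMax
import Vale.Agent.P007B.MaxE

/-! Choosing the shearing time. -/

namespace Vale.Agent.P007

open Matrix MeasureTheory ProbabilityTheory Set Filter Topology
open scoped ENNReal

variable {n : ℕ}

theorem lea_rho (μ : Measure (X n)) [IsFiniteMeasure μ] (hA : AI μ) {a b : Fin n} (hab : a ≠ b)
    (L : LW μ a b) (hT : ∀ᵐ x ∂μ, x ∉ L.T) {δ : ℝ≥0∞} (hδ : δ ≠ 0) :
    ∃ ρ : ℝ, 0 < ρ ∧ ρ ≤ 1 ∧ ∃ N, MeasurableSet N ∧ μ N ≤ δ ∧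
      ∀ x ∈ L.X', x ∉ N → L.ν x (Icc (-ρ) ρ) ≤ 4⁻¹ := by
  set I : ℕ → Set ℝ := fun k => Icc (-(1 / ((k : ℝ) + 1))) (1 / ((k : ℝ) + 1)) with hI
  have hIa : Antitone I := fun k k' h => by
    have : 1 / ((k' : ℝ) + 1) ≤ 1 / ((k : ℝ) + 1) := Nat.one_div_le_one_div h
    exact Icc_subset_Icc (neg_le_neg this) this
  have hI0 : ⋂ k, I k ⊆ {0} := fun s hs => by
    rw [mem_iInter] at hs
    refine abs_nonpos_iff.1 (ge_of_tendsto' tendsto_one_div_add_atTop_nhds_zero_nat fun k => ?_)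
    exact abs_le.2 (hs k)
  set A : ℕ → Set (X n) := fun k => {x | 4⁻¹ < L.ν x (I k)} ∩ L.X' with hAdef
  have hAm : ∀ k, MeasurableSet (A k) := fun k =>
    (measurableSet_lt measurable_const (L.ν.measurable_coe measurableSet_Icc)).inter L.co.1
  have hAa : Antitone A := fun k k' h x hx => ⟨hx.1.trans_le (measure_mono (hIa h)), hx.2⟩
  have h0 : μ (⋂ k, A k) = 0 := by
    refine measure_mono_null (fun x hx => ?_) (ae_iff.1 ((L.atom hA hab).and hT))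
    rintro ⟨h1, h2⟩
    rw [mem_iInter] at hx
    have h3 := hIa.measure_iInter (μ := L.ν x) (fun _ => measurableSet_Icc.nullMeasurableSet)
      ⟨0, L.fin x (hx 0).2 _ _⟩
    have h4 : (4⁻¹ : ℝ≥0∞) ≤ L.ν x (⋂ k, I k) := h3 ▸ le_iInf fun k => (hx k).1.le
    rw [measure_mono_null hI0 (h1 h2)] at h4
    simp at h4
  have h1 := tendsto_measure_iInter_atTop (μ := μ) (fun k => (hAm k).nullMeasurableSet) hAa
    ⟨0, measure_ne_top _ _⟩
  rw [h0] at h1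
  obtain ⟨k, hk⟩ := (h1.eventually (ge_mem_nhds (pos_iff_ne_zero.2 hδ))).exists
  refine ⟨1 / ((k : ℝ) + 1), by positivity, ?_, A k, hAm k, hk, fun x hx hn => ?_⟩
  · rw [div_le_one (by positivity)]
    linarith [(Nat.cast_nonneg k : (0 : ℝ) ≤ k)]
  · exact not_lt.1 fun h => hn ⟨h, hx⟩

theorem lea_count {Ω : Type*} (T : Ω → Ω) (N₁ N₂ : Set Ω) (x y : Ω)
    (h1 : ∀ M : ℕ, (cnt T N₁ x M : ℝ) ≤ 1 / 100 * M) (h2 : ∀ M : ℕ, (cnt T N₁ y M : ℝ) ≤ 1 / 100 * M)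
    (h3 : ∀ M : ℕ, (cnt T N₂ x M : ℝ) ≤ 1 / 100 * M) (M : ℕ) (l : ℕ → ℕ) (Bad : Finset ℕ)
    (hB : 2 * Bad.card < M) (hl : ∀ m < M, m + l m < 3 * M)
    (hv : ∀ v, ((Finset.range M).filter fun m => m + l m = v).card ≤ 2) :
    ∃ m < M, m ∉ Bad ∧ T^[m] x ∉ N₁ ∧ T^[m] y ∉ N₁ ∧ T^[m + l m] x ∉ N₂ := by
  classical
  by_contra hn
  push Not at hn
  have hs : Finset.range M ⊆ Bad ∪ ((Finset.range M).filter fun k => T^[k] x ∈ N₁) ∪
      ((Finset.range M).filter fun k => T^[k] y ∈ N₁) ∪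
      ((Finset.range M).filter fun k => T^[k + l k] x ∈ N₂) := by
    intro m hm
    have := hn m (Finset.mem_range.1 hm)
    simp only [Finset.mem_union, Finset.mem_filter]
    tauto
  have h4 : ((Finset.range M).filter fun k => T^[k + l k] x ∈ N₂).card ≤ 2 * cnt T N₂ x (3 * M) := by
    refine Finset.card_le_mul_card_image_of_maps_to (f := fun k => k + l k) (fun m hm => ?_) 2
      fun v _ => le_trans (Finset.card_le_card fun m hm => ?_) (hv v)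
    · rw [Finset.mem_filter] at hm ⊢
      exact ⟨Finset.mem_range.2 (hl m (Finset.mem_range.1 hm.1)), hm.2⟩
    · simp only [Finset.mem_filter] at hm ⊢
      exact ⟨hm.1.1, hm.2⟩
  have h5 : M ≤ Bad.card + cnt T N₁ x M + cnt T N₁ y M + 2 * cnt T N₂ x (3 * M) := by
    have := Finset.card_le_card hs
    rw [Finset.card_range] at this
    refine this.trans ((Finset.card_union_le _ _).trans (add_le_add
      ((Finset.card_union_le _ _).trans (add_le_add ((Finset.card_union_le _ _).trans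
        (add_le_add le_rfl (le_of_eq ?_))) (le_of_eq ?_))) h4))
    · unfold cnt
      congr
    · unfold cnt
      congr
  have h6 : (M : ℝ) ≤ Bad.card + cnt T N₁ x M + cnt T N₁ y M + 2 * cnt T N₂ x (3 * M) := by
    exact_mod_cast h5
  have h7 : 2 * (Bad.card : ℝ) < M := by exact_mod_cast hB
  have h8 := h3 (3 * M)
  push_cast at h8
  have h9 : (0 : ℝ) ≤ Bad.card := Nat.cast_nonneg _
  linarith [h1 M, h2 M]

theorem lea_pre (r t : ℝ) :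
    (fun s => s * Real.exp (-t)) ⁻¹' Icc (-r) r = Icc (-(r * Real.exp t)) (r * Real.exp t) := by
  ext s
  simp only [mem_preimage, mem_Icc, Real.exp_neg, ← div_eq_mul_inv]
  rw [le_div_iff₀ (Real.exp_pos t), div_le_iff₀ (Real.exp_pos t), neg_mul]

theorem lea_pick (m : Measure ℝ) {R : ℝ} {B₁ B₂ B₃ : Set ℝ} (h0 : m (Icc (-R) R) ≠ 0)
    (hf : m (Icc (-R) R) ≠ ∞) (h1 : m (B₁ ∩ Icc (-R) R) ≤ 4⁻¹ * m (Icc (-R) R))
    (h2 : m (B₂ ∩ Icc (-R) R) ≤ 4⁻¹ * m (Icc (-R) R)) (h3 : m B₃ ≤ 4⁻¹ * m (Icc (-R) R)) :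
    ∃ s ∈ Icc (-R) R, s ∉ B₁ ∧ s ∉ B₂ ∧ s ∉ B₃ := by
  by_contra hn
  push Not at hn
  have hs : Icc (-R) R ⊆ B₁ ∩ Icc (-R) R ∪ B₂ ∩ Icc (-R) R ∪ B₃ := fun s hs => by
    have := hn s hs
    simp only [mem_union, mem_inter_iff]
    tauto
  have h4 := (measure_mono (μ := m) hs).trans ((measure_union_le _ _).trans
    (add_le_add ((measure_union_le _ _).trans (add_le_add h1 h2)) h3))
  rw [← add_mul, ← add_mul] at h4
  have h5 : (4⁻¹ + 4⁻¹ + 4⁻¹ : ℝ≥0∞) < 1 := by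
    rw [← ENNReal.toReal_lt_toReal (by finiteness) (by finiteness), ENNReal.toReal_add
      (by finiteness) (by finiteness), ENNReal.toReal_add (by finiteness) (by finiteness)]
    norm_num
  have h6 := ENNReal.mul_lt_mul_left h0 hf h5
  rw [one_mul] at h6
  exact absurd h4 (not_le.2 h6)

theorem lea_cons {μ : Measure (X n)} {a b : Fin n} (L : LW μ a b) {x y : X n} (hx : x ∈ L.X')
    (hy : y ∈ L.X') (h : L.ν x = L.ν y) {s : ℝ} (hx' : act (tv a b s) x ∈ L.X')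
    (hy' : act (tv a b s) y ∈ L.X') : L.ν (act (tv a b s) x) = L.ν (act (tv a b s) y) := by
  have h1 := L.cons x hx s hx'
  have h2 := L.cons y hy s hy'
  rw [← h, ← h1] at h2
  have h0 : L.ν x (Icc (s - 1) (s + 1)) ≠ 0 := by
    intro h0
    rw [h0, zero_smul, eq_comm, Measure.map_eq_zero_iff (by fun_prop)] at h1
    have := L.norm x hx
    rw [h1] at this
    simp at this
  have h3 := congrArg (fun ν : Measure ℝ => (L.ν x (Icc (s - 1) (s + 1)))⁻¹ • ν) h2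
  simpa only [smul_smul, ENNReal.inv_mul_cancel h0 (L.fin x hx _ _), one_smul] using h3.symm

theorem lea : ∃ C : ℝ≥0∞, C ≠ ∞ ∧ ∀ (n : ℕ) (μ : Measure (X n)) [IsFiniteMeasure μ], AI μ →
    ∀ (a b : Fin n), a ≠ b → ∀ L : LW μ a b, (∀ᵐ x ∂μ, x ∉ L.T) →
    ∀ K : Set (X n), MeasurableSet K → ∀ δ : ℝ≥0∞, δ ≠ 0 → μ Kᶜ ≤ δ →
    ∃ ρ : ℝ, 0 < ρ ∧ ρ ≤ 1 ∧ ∃ Y, MeasurableSet Y ∧ μ Yᶜ ≤ C * δ ∧
      ∀ x ∈ Y, ∀ y ∈ Y, L.ν x = L.ν y → ∀ (M : ℕ) (l : ℕ → ℕ) (Bad : Finset ℕ),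
        2 * Bad.card < M → (∀ m < M, m + l m < 3 * M) →
        (∀ v, ((Finset.range M).filter fun m => m + l m = v).card ≤ 2) →
        ∃ m < M, m ∉ Bad ∧ ∃ s : ℝ, ρ * Real.exp (2 * l m) ≤ |s| ∧ |s| ≤ Real.exp (2 * l m) ∧
          act (tv a b s) (act (dg ((m : ℝ) • ta a b)) x) ∈ K ∧
          act (tv a b s) (act (dg ((m : ℝ) • ta a b)) y) ∈ K ∧
          L.ν (act (tv a b s) (act (dg ((m : ℝ) • ta a b)) x)) =
            L.ν (act (tv a b s) (act (dg ((m : ℝ) • ta a b)) y)) := by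
  obtain ⟨C, hC, hmax⟩ := lmax
  refine ⟨100 * (4 * C) + 100, by finiteness, ?_⟩
  intro n μ _ hA a b hab L hT K hK δ hδ hKδ
  obtain ⟨ρ, hρ0, hρ1, N₂, hN₂, hN₂δ, hρ⟩ := lea_rho μ hA hab L hT hδ
  obtain ⟨K₁, hK₁, hK₁δ, hK₁'⟩ := hmax n μ a b L (K ∩ L.X')ᶜ 4⁻¹ (hK.inter L.co.1).compl
  set T := act (dg (ta a b)) with hTdef
  have hTm : MeasurePreserving T μ μ := Stab.mp (hA _)
  have hit : ∀ (m : ℕ) (x : X n), act (dg ((m : ℝ) • ta a b)) x = T^[m] x := fun m x => by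
    rw [hTdef, act_iter, dg_nsmul]
  obtain ⟨Y₁, hY₁, hY₁δ, hY₁'⟩ := maxin hTm hK₁.compl (ε := 1 / 100) (by norm_num)
  obtain ⟨Y₂, hY₂, hY₂δ, hY₂'⟩ := maxin hTm hN₂ (ε := 1 / 100) (by norm_num)
  have hP : ∀ᵐ x ∂μ, x ∈ L.X' ∧ ∀ l : ℕ, ∃ c : ℝ≥0∞, c ≠ 0 ∧ c ≠ ∞ ∧
      L.ν (T^[l] x) = c • (L.ν x).map (· * Real.exp (-(2 * l))) := by
    refine L.co.ae.and (ae_all_iff.2 fun l => ?_)
    have h := L.equiv ((l : ℝ) • ta a b)
    have e : ((l : ℝ) • ta a b) b - ((l : ℝ) • ta a b) a = -(2 * l) := by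
      simp [ta, hab, hab.symm]
      ring
    simpa only [hit, e] using h
  obtain ⟨X₀, hX₀, hX₀'⟩ := Co.of_ae (ae_all_iff.2 fun m : ℕ =>
    (hTm.iterate m).quasiMeasurePreserving.ae hP)
  refine ⟨ρ, hρ0, hρ1, Y₁ ∩ Y₂ ∩ X₀, (hY₁.inter hY₂).inter hX₀.1, ?_, ?_⟩
  · have e100 : ∀ {u v : ℝ≥0∞}, ENNReal.ofReal (1 / 100) * u ≤ v → u ≤ 100 * v := fun {u v} h => by
      have e : (100 : ℝ≥0∞) * ENNReal.ofReal (1 / 100) = 1 := by
        rw [← ENNReal.ofReal_ofNat, ← ENNReal.ofReal_mul (by norm_num)]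
        norm_num
      calc u = 100 * (ENNReal.ofReal (1 / 100) * u) := by rw [← mul_assoc, e, one_mul]
        _ ≤ 100 * v := by gcongr
    have h1 : μ (K ∩ L.X')ᶜ ≤ δ := by
      rw [compl_inter]
      refine (measure_union_le _ _).trans ?_
      rwa [L.co.2, add_zero]
    have h2 : μ K₁ᶜ ≤ 4 * C * δ := by
      calc μ K₁ᶜ = 4 * (4⁻¹ * μ K₁ᶜ) := by
            rw [← mul_assoc, ENNReal.mul_inv_cancel (by norm_num) (by norm_num), one_mul]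
        _ ≤ 4 * (C * δ) := mul_le_mul_right (hK₁δ.trans (mul_le_mul_right h1 _)) _
        _ = _ := (mul_assoc _ _ _).symm
    rw [compl_inter, compl_inter]
    refine (measure_union_le _ _).trans ?_
    rw [hX₀.2, add_zero, add_mul, mul_assoc]
    refine (measure_union_le _ _).trans (add_le_add ((e100 hY₁δ).trans ?_) ((e100 hY₂δ).trans ?_))
    · gcongr
    · gcongr
  rintro x ⟨⟨hx1, hx2⟩, hx0⟩ y ⟨⟨hy1, -⟩, hy0⟩ hxy M l Bad hB hl hv
  obtain ⟨m, hm, hmB, g1, g2, g3⟩ := lea_count T K₁ᶜ N₂ x y (hY₁' x hx1) (hY₁' y hy1) (hY₂' x hx2)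
    M l Bad hB hl hv
  refine ⟨m, hm, hmB, ?_⟩
  rw [hit, hit]
  have hxm := (hX₀' x hx0 m).1
  have hym := (hX₀' y hy0 m).1
  have heq : L.ν (T^[m] x) = L.ν (T^[m] y) := by
    obtain ⟨c, -, -, hc⟩ := (hX₀' x hx0 0).2 m
    obtain ⟨c', -, -, hc'⟩ := (hX₀' y hy0 0).2 m
    simp only [Function.iterate_zero, id] at hc hc'
    have n1 := L.norm _ hxm
    have n2 := L.norm _ hym
    rw [← hxy] at hc'
    rw [hc, Measure.smul_apply, smul_eq_mul] at n1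
    rw [hc', Measure.smul_apply, smul_eq_mul] at n2
    rw [hc, hc', ENNReal.eq_inv_of_mul_eq_one_left n1, ENNReal.eq_inv_of_mul_eq_one_left n2]
  obtain ⟨c, hc0, hc1, hc⟩ := (hX₀' x hx0 m).2 (l m)
  rw [← Function.iterate_add_apply, add_comm] at hc
  have n1 := L.norm _ (hX₀' x hx0 (m + l m)).1
  have n2 := hρ _ (hX₀' x hx0 (m + l m)).1 g3
  rw [hc, Measure.smul_apply, smul_eq_mul, Measure.map_apply (by fun_prop) measurableSet_Icc,
    lea_pre] at n1 n2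
  rw [one_mul] at n1
  obtain ⟨s, hs, s1, s2, s3⟩ := lea_pick (L.ν (T^[m] x)) (R := Real.exp (2 * l m))
    (B₃ := Icc (-(ρ * Real.exp (2 * l m))) (ρ * Real.exp (2 * l m)))
    (fun h => by simp [h] at n1) (L.fin _ hxm _ _) (hK₁' _ (not_not.1 g1) (l m))
    (heq ▸ hK₁' _ (not_not.1 g2) (l m)) (by
      rw [← ENNReal.mul_le_mul_iff_right hc0 hc1, mul_left_comm, n1, mul_one]
      exact n2)
  have s1' : act (tv a b s) (T^[m] x) ∈ K ∩ L.X' := not_not.1 s1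
  have s2' : act (tv a b s) (T^[m] y) ∈ K ∩ L.X' := not_not.1 s2
  exact ⟨s, (not_le.1 fun h => s3 (abs_le.1 h)).le, abs_le.2 hs, s1'.1, s2'.1,
    lea_cons L hxm hym heq s1'.2 s2'.2⟩

end Vale.Agent.P007
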