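import Vale.Agent.P007B.TTx

/-! Special entries vanish. -/

namespace Vale.Agent.P007

open Matrix MeasureTheory ProbabilityTheory Set Filter Topology
open scoped ENNReal

variable {n : ℕ}

variable {μ : Measure (X n)}

/-- special entries other than `(a, b)` vanish -/
theorem TT.sp {Y : Set (X n)} (h : TT μ Y) {a b : Fin n} (hab : a ≠ b) {x : X n} (hx : x ∈ Y)
    {g : G n} (hg : act g x ∈ Y) (h0 : ∀ k l, ¬Sp a b k l → (g.1 - 1) k l = 0)
    (hT : ∀ j, j ≠ a → j ≠ b → (g.1 a j ≠ 0 → Tr μ a j) ∧ (g.1 j b ≠ 0 → Tr μ j b)) :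
    g = tv a b (g.1 a b) := by
  have hd : ∀ k, g.1 k k = 1 := fun k => by
    have h1 := h0 k k fun h => h.1 rfl
    simpa [sub_eq_zero] using h1
  have ho : ∀ k l, k ≠ l → k ≠ a → l ≠ b → g.1 k l = 0 := fun k l h1 h2 h3 => by
    have h4 := h0 k l fun h => h.2.elim h2 h3
    simpa [h1] using h4
  have hp : ∀ k, 0 < g.1 k k := fun k => by rw [hd]; exact one_pos
  have h1 : ∀ j, j ≠ a → j ≠ b → g.1 a j = 0 := fun j ja jb => by
    by_contra hc
    refine hc (h x hx g hg hp (fun k => if k = a ∨ k = j then 2 else if k = b then 0 else 1) a j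
      ja.symm ((hT j ja jb).1 hc) (by simp) fun k l hkl hne ht => ho k l hkl ?_ ?_)
    · rintro rfl
      have : l ≠ j := fun e => hne (by rw [e])
      simp only [true_or, if_true, hkl.symm, this, or_self, if_false] at ht
      split_ifs at ht <;> omega
    · rintro rfl
      simp only [hab.symm, jb.symm, or_self, if_false, if_true, hkl] at ht
      split_ifs at ht <;> omega
  have h2 : ∀ j, j ≠ a → j ≠ b → g.1 j b = 0 := fun j ja jb => by
    by_contra hc
    refine hc (h x hx g hg hp (fun k => if k = b ∨ k = j then 0 else if k = a then 2 else 1) j b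
      jb ((hT j ja jb).2 hc) (by simp) fun k l hkl hne ht => ho k l hkl ?_ ?_)
    · rintro rfl
      simp only [hab, ja.symm, or_self, if_false, if_true, hkl.symm] at ht
      split_ifs at ht <;> omega
    · rintro rfl
      have : k ≠ j := fun e => hne (by rw [e])
      simp only [true_or, if_true, hkl, this, or_self, if_false] at ht
      split_ifs at ht <;> omega
  refine Subtype.ext ?_
  rw [tv_apply hab]
  ext k l
  rw [Matrix.add_apply, single_apply]
  by_cases hkl : k = l
  · subst hkl
    rw [hd, if_neg fun h => hab (h.1.trans h.2.symm)]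
    simp
  · rw [one_apply_ne hkl, zero_add]
    split_ifs with h3
    · rw [h3.1, h3.2]
    · by_cases ka : k = a
      · subst ka
        exact h1 l (Ne.symm hkl) fun e => h3 ⟨rfl, e.symm⟩
      · by_cases lb : l = b
        · subst lb
          exact h2 k ka hkl
        · exact ho k l hkl ka lb

end Vale.Agent.P007
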