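import Vale.Agent.P007B.Bas

/-! The deterministic shearing computation. -/

namespace Vale.Agent.P007

open Matrix MeasureTheory ProbabilityTheory Set Filter Topology
open scoped ENNReal

variable {n : ℕ}

theorem act_sh (a b : Fin n) (g : G n) (m : ℕ) (s : ℝ) (x : X n) :
    act (tv a b s) (act (dg ((m : ℝ) • ta a b)) (act g x)) =
      act (sh a b g m s) (act (tv a b s) (act (dg ((m : ℝ) • ta a b)) x)) := by
  simp only [← act_mul, sh, tv_neg]
  congr 1
  group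

theorem led_card {S : Finset ℕ} {J : ℕ} (h : ∀ m ∈ S, ∀ m' ∈ S, m' < m + J) : S.card ≤ J := by
  rcases S.eq_empty_or_nonempty with rfl | hS
  · simp
  · have : S ⊆ Finset.Ico (S.min' hS) (S.min' hS + J) := fun m hm =>
      Finset.mem_Ico.2 ⟨S.min'_le m hm, h _ (S.min'_mem hS) m hm⟩
    simpa using Finset.card_le_card this

theorem led_real {θ : ℝ} {J : ℕ} (hJ : Real.exp (-J) ≤ θ ^ 2) {A D P η : ℝ} (hθ : 0 < θ)
    (hA : 0 ≤ A) (hD : 0 ≤ D) (hη : 0 < η) (h0 : 0 < max A D) (h1 : max A D ≤ η ^ 2) {M0 : ℕ}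
    (hM : η ≤ Real.exp (-M0)) :
    ∃ (M : ℕ) (l : ℕ → ℕ) (Bad : Finset ℕ), M0 ≤ M ∧ Bad.card ≤ J ∧ (∀ m < M, m + l m < 3 * M) ∧
      (∀ v, ((Finset.range M).filter fun m => m + l m = v).card ≤ 2) ∧
      ∀ m < M, max (A * Real.exp m) D ≤ η ∧ Real.exp (2 * l m) * max (A * Real.exp m) D ≤ 1 ∧
        Real.exp (-2) ≤ Real.exp (2 * l m) * max (A * Real.exp m) D ∧
        (m ∉ Bad → P * Real.exp m ≤ θ * D ∨ D ≤ θ * (P * Real.exp m)) := by
  classical
  set κ : ℕ → ℝ := fun m => max (A * Real.exp m) D with hκ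
  have k0 : κ 0 = max A D := by simp [hκ]
  have kmono : ∀ m, κ 0 ≤ κ m := fun m => by
    rw [k0]
    exact max_le_max (le_mul_of_one_le_right hA (Real.one_le_exp (Nat.cast_nonneg m))) le_rfl
  have kpos : ∀ m, 0 < κ m := fun m => (k0 ▸ h0 : 0 < κ 0).trans_le (kmono m)
  have kgr : ∀ m d : ℕ, κ (m + d) ≤ Real.exp d * κ m := fun m d => by
    have e1 : 1 ≤ Real.exp d := Real.one_le_exp (Nat.cast_nonneg d)
    refine max_le ?_ ((le_max_right _ _).trans (le_mul_of_one_le_left (kpos m).le e1))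
    calc A * Real.exp ((m + d : ℕ) : ℝ) = Real.exp d * (A * Real.exp m) := by
          rw [Nat.cast_add, Real.exp_add]; ring
      _ ≤ Real.exp d * κ m := mul_le_mul_of_nonneg_left (le_max_left _ _) (by positivity)
  set L : ℕ → ℝ := fun m => -Real.log (κ m) / 2 with hL
  have eL : ∀ m, Real.exp (2 * L m) * κ m = 1 := fun m => by
    have : 2 * L m = -Real.log (κ m) := by simp only [hL]; ring
    rw [this, Real.exp_neg, Real.exp_log (kpos m), inv_mul_cancel₀ (kpos m).ne']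
  have Lgr : ∀ m d : ℕ, L m - d / 2 ≤ L (m + d) := fun m d => by
    have := Real.log_le_log (kpos _) (kgr m d)
    rw [Real.log_mul (Real.exp_pos _).ne' (kpos m).ne', Real.log_exp] at this
    simp only [hL]; linarith
  have Lle : ∀ m, L m ≤ L 0 := fun m => by
    have := Real.log_le_log (kpos _) (kmono m)
    simp only [hL]; linarith
  have hlη : Real.log (κ 0) ≤ 2 * Real.log η := by
    have := Real.log_le_log (kpos 0) (k0 ▸ h1 : κ 0 ≤ η ^ 2)
    rwa [Real.log_pow, Nat.cast_ofNat] at this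
  have hη0 : Real.log η ≤ -M0 := by
    have := Real.log_le_log hη hM
    rwa [Real.log_exp] at this
  have L0 : (M0 : ℝ) ≤ L 0 := by simp only [hL]; linarith
  have hM0 : (0 : ℝ) ≤ M0 := Nat.cast_nonneg _
  have ksm : ∀ m < ⌊L 0⌋₊, Real.log (κ m) ≤ Real.log η := fun m hm => by
    have a1 : (m : ℝ) ≤ L 0 :=
      (Nat.cast_le.2 hm.le).trans (Nat.floor_le (hM0.trans L0))
    have a2 := Lgr 0 m
    rw [zero_add] at a2
    simp only [hL] at a1 a2
    linarith
  have Lnn : ∀ m < ⌊L 0⌋₊, 0 ≤ L m := fun m hm => by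
    have := ksm m hm
    simp only [hL]; linarith
  refine ⟨⌊L 0⌋₊, fun m => ⌊L m⌋₊, (Finset.range ⌊L 0⌋₊).filter fun m =>
    θ * D < P * Real.exp m ∧ θ * (P * Real.exp m) < D, Nat.le_floor L0, ?_, ?_, ?_, ?_⟩
  · refine led_card fun m hm m' hm' => ?_
    obtain ⟨-, a1, a2⟩ := Finset.mem_filter.1 hm
    obtain ⟨-, a3, a4⟩ := Finset.mem_filter.1 hm'
    by_contra hc
    have a5 : Real.exp m ≤ θ ^ 2 * Real.exp m' := by
      have : (m : ℝ) ≤ -J + m' := by
        have : ((m + J : ℕ) : ℝ) ≤ m' := Nat.cast_le.2 (not_lt.1 hc)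
        push_cast at this; linarith
      calc Real.exp m ≤ Real.exp (-J + m') := Real.exp_le_exp.2 this
        _ = Real.exp (-J) * Real.exp m' := Real.exp_add _ _
        _ ≤ _ := mul_le_mul_of_nonneg_right hJ (Real.exp_pos _).le
    have a6 : θ * (θ * (P * Real.exp m')) < P * Real.exp m :=
      (mul_lt_mul_of_pos_left a4 hθ).trans a1
    have hP : 0 < P := pos_of_mul_pos_left ((mul_nonneg hθ.le hD).trans_lt a1) (Real.exp_pos _).le
    nlinarith [mul_le_mul_of_nonneg_left a5 hP.le]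
  · intro m hm
    have : ⌊L m⌋₊ ≤ ⌊L 0⌋₊ := Nat.floor_le_floor (Lle m)
    change m + ⌊L m⌋₊ < _
    omega
  · intro v
    refine led_card fun m hm m' hm' => ?_
    obtain ⟨a1, a2⟩ := Finset.mem_filter.1 hm
    obtain ⟨a3, a4⟩ := Finset.mem_filter.1 hm'
    by_contra hc
    obtain ⟨d, rfl⟩ : ∃ d, m' = m + d := ⟨m' - m, by omega⟩
    have d2 : (2 : ℝ) ≤ d := by exact_mod_cast (by omega : 2 ≤ d)
    have b1 := Nat.lt_floor_add_one (L (m + d))
    have b2 := Nat.floor_le (Lnn m (Finset.mem_range.1 a1))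
    have b3 : ((m + ⌊L m⌋₊ : ℕ) : ℝ) = ((m + d + ⌊L (m + d)⌋₊ : ℕ) : ℝ) := by rw [a2, a4]
    have b4 := Lgr m d
    push_cast at b3
    linarith
  · intro m hm
    refine ⟨(Real.log_le_log_iff (kpos m) hη).1 (ksm m hm), ?_, ?_, fun hb => ?_⟩
    · rw [← eL m]
      refine mul_le_mul_of_nonneg_right (Real.exp_le_exp.2 ?_) (kpos m).le
      linarith [Nat.floor_le (Lnn m hm)]
    · calc Real.exp (-2) = Real.exp (-2) * (Real.exp (2 * L m) * κ m) := by rw [eL, mul_one]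
        _ = Real.exp (-2 + 2 * L m) * κ m := by rw [Real.exp_add, mul_assoc]
        _ ≤ _ := by
          refine mul_le_mul_of_nonneg_right (Real.exp_le_exp.2 ?_) (kpos m).le
          linarith [Nat.lt_floor_add_one (L m)]
    · by_contra hc
      rw [not_or, not_le, not_le] at hc
      exact hb (Finset.mem_filter.2 ⟨Finset.mem_range.2 hm, hc⟩)

theorem led_entry {a b : Fin n} (hab : a ≠ b) (g : G n) (m : ℕ) (s : ℝ) (k l : Fin n) :
    (sh a b g m s).1 k l =
      g.1 k l * Real.exp (m * (ta a b l - ta a b k)) -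
        (if k = a then s * (g.1 b l * Real.exp (m * (ta a b l - ta a b b))) else 0) +
        if l = b then s * (g.1 k a * Real.exp (m * (ta a b a - ta a b k)) -
          if k = a then s * (g.1 b a * Real.exp (m * (ta a b a - ta a b b))) else 0) else 0 := by
  simp only [sh, mul_tv_apply hab, tv_mul_apply hab, conj_dg, Pi.smul_apply, smul_eq_mul, mul_sub]
  split_ifs <;> ring

theorem led_ta {a b : Fin n} (hab : a ≠ b) :
    ta a b a = 1 ∧ ta a b b = -1 ∧ ∀ j, j ≠ a → j ≠ b → ta a b j = 0 := by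
  refine ⟨?_, ?_, fun j h1 h2 => ?_⟩
  · simp [ta, hab]
  · simp [ta, hab.symm]
  · simp [ta, h1, h2]

theorem led_comm {a b : Fin n} {g : Matrix (Fin n) (Fin n) ℝ} (h1 : g a a = g b b)
    (h2 : ∀ k, k ≠ a → g k a = 0) (h3 : ∀ l, l ≠ b → g b l = 0) : Commute g (single a b 1) := by
  ext k l
  by_cases hl : l = b <;> by_cases hk : k = a
  · subst hl hk; simp [h1]
  · subst hl
    rw [mul_single_apply_same, single_mul_apply_of_ne (h := hk), h2 k hk, zero_mul]
  · subst hk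
    rw [single_mul_apply_same, mul_single_apply_of_ne (hbj := hl), h3 l hl, mul_zero]
  · rw [single_mul_apply_of_ne (h := hk), mul_single_apply_of_ne (hbj := hl)]

theorem led_ents {a b : Fin n} (hab : a ≠ b) (g : G n) (m : ℕ) (s : ℝ) :
    ∃ E E' : ℝ, E = Real.exp m ∧ 0 < E' ∧ E' ≤ 1 ∧
      (sh a b g m s).1 a b = g.1 a b * E' ^ 2 + s * (g.1 a a - g.1 b b) - s ^ 2 * (g.1 b a * E ^ 2) ∧
      (sh a b g m s).1 a a = g.1 a a - s * (g.1 b a * E ^ 2) ∧
      (sh a b g m s).1 b b = g.1 b b + s * (g.1 b a * E ^ 2) ∧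
      (sh a b g m s).1 b a = g.1 b a * E ^ 2 ∧
      ∀ j, j ≠ a → j ≠ b → (sh a b g m s).1 a j = g.1 a j * E' - s * (g.1 b j * E) ∧
        (sh a b g m s).1 j b = g.1 j b * E' + s * (g.1 j a * E) ∧
        (sh a b g m s).1 b j = g.1 b j * E ∧ (sh a b g m s).1 j a = g.1 j a * E ∧
        ∀ k, k ≠ a → k ≠ b → (sh a b g m s).1 j k = g.1 j k := by
  obtain ⟨ta1, ta2, ta3⟩ := led_ta hab
  have e1 : Real.exp (m * (1 - -1)) = Real.exp m ^ 2 := by
    rw [sq, ← Real.exp_add]; congr 1; ring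
  have e2 : Real.exp (m * (-1 - 1)) = Real.exp (-m) ^ 2 := by
    rw [sq, ← Real.exp_add]; congr 1; ring
  refine ⟨_, Real.exp (-m), rfl, Real.exp_pos _,
    Real.exp_le_one_iff.2 (neg_nonpos.2 (Nat.cast_nonneg m)), ?_, ?_, ?_, ?_, fun j ja jb =>
      ⟨?_, ?_, ?_, ?_, fun k ka kb => ?_⟩⟩
  · rw [led_entry hab, if_pos rfl, if_pos rfl, if_pos rfl, ta1, ta2, e1, e2]
    simp only [sub_self, mul_zero, Real.exp_zero]; ring
  · rw [led_entry hab, if_pos rfl, if_neg hab, ta1, ta2, e1]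
    simp
  · rw [led_entry hab, if_neg hab.symm, if_pos rfl, if_neg hab.symm, ta1, ta2, e1]
    simp
  · rw [led_entry hab, if_neg hab.symm, if_neg hab, ta1, ta2, e1]
    simp
  · rw [led_entry hab, if_pos rfl, if_neg jb, ta1, ta2, ta3 j ja jb]
    simp
  · rw [led_entry hab, if_neg ja, if_pos rfl, if_neg ja, ta1, ta2, ta3 j ja jb]
    simp
  · rw [led_entry hab, if_neg hab.symm, if_neg jb, ta2, ta3 j ja jb]
    simp
  · rw [led_entry hab, if_neg ja, if_neg hab, ta1, ta3 j ja jb]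
    simp
  · rw [led_entry hab, if_neg ja, if_neg kb, ta3 j ja jb, ta3 k ka kb]
    simp

theorem led_ab {σ s y D p q : ℝ} (hσ : 0 < σ) (hσ1 : σ ≤ 1) (s0 : 0 ≤ s) (y0 : 0 ≤ y) (D0 : 0 ≤ D)
    (h2 : s * max y D ≤ 1) (h3 : σ ≤ s * max y D) (hb : y ≤ σ / 2 * D ∨ D ≤ σ / 2 * y)
    (hp : |p| = s * D) (hq : |q| = (s * y) ^ 2) : σ ^ 2 / 2 ≤ |p - q| := by
  rcases hb with hb | hb
  · rw [max_eq_right (by nlinarith)] at h2 h3
    have b1 := abs_sub_abs_le_abs_sub p q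
    have b2 : s * y ≤ σ / 2 := by nlinarith [mul_le_mul_of_nonneg_left hb s0]
    have b3 : (s * y) ^ 2 ≤ (σ / 2) ^ 2 := pow_le_pow_left₀ (by positivity) b2 2
    nlinarith
  · rw [max_eq_left (by nlinarith)] at h2 h3
    have b1 := abs_sub_abs_le_abs_sub q p
    rw [abs_sub_comm] at b1
    have b2 : s * D ≤ σ / 2 * (s * y) := by nlinarith [mul_le_mul_of_nonneg_left hb s0]
    nlinarith

theorem led_key {a b : Fin n} (hab : a ≠ b) (g : G n) (m : ℕ) {s η σ A κ : ℝ} (hσ : 0 < σ)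
    (hσ1 : σ ≤ 1) (hη : η ≤ σ ^ 2 / 4) (hg : ∀ k l, |(g.1 - 1) k l| ≤ η)
    (hκ : κ = max (A * Real.exp m) |g.1 a a - g.1 b b|) (h1 : κ ≤ η) (h2 : |s| * κ ≤ 1)
    (h3 : σ ≤ |s| * κ) (hP : √|g.1 b a| ≤ A)
    (hA : ∀ j, j ≠ a → j ≠ b → |g.1 b j| ≤ A ∧ |g.1 j a| ≤ A)
    (hA' : A = √|g.1 b a| ∨ ∃ j, j ≠ a ∧ j ≠ b ∧ (A = |g.1 b j| ∨ A = |g.1 j a|))
    (hB : √|g.1 b a| * Real.exp m ≤ σ / 2 * |g.1 a a - g.1 b b| ∨
      |g.1 a a - g.1 b b| ≤ σ / 2 * (√|g.1 b a| * Real.exp m)) :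
    (∀ k k', ¬Sp a b k k' → |((sh a b g m s).1 - 1) k k'| ≤ 2 * η) ∧
      (∀ k k', |(sh a b g m s).1 k k'| ≤ 4) ∧
      ∃ k k', Sp a b k k' ∧ σ ^ 2 / 4 ≤ |(sh a b g m s).1 k k'| := by
  obtain ⟨E, E', hE, hE0, hE1, eab, eaa, ebb, eba, ej⟩ := led_ents hab g m s
  rw [← hE] at hκ hB
  have Epos : 0 < E := hE ▸ Real.exp_pos _
  have hη0 : 0 ≤ η := (abs_nonneg _).trans (hg a a)
  have hσ2 : σ ^ 2 ≤ σ := by nlinarith
  have hη1 : η ≤ 1 / 4 := by linarith
  have k1 : A * E ≤ κ := hκ ▸ le_max_left _ _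
  have k2 : |g.1 a a - g.1 b b| ≤ κ := hκ ▸ le_max_right _ _
  have k0 : 0 ≤ κ := (abs_nonneg _).trans k2
  have s0 : 0 ≤ |s| := abs_nonneg s
  have off : ∀ k l, k ≠ l → |g.1 k l| ≤ η := fun k l h => by simpa [one_apply_ne h] using hg k l
  have dia : ∀ k, |g.1 k k - 1| ≤ η := fun k => by simpa using hg k k
  set y := √|g.1 b a| * E with hy
  have y0 : 0 ≤ y := by positivity
  have y1 : y ≤ κ := (mul_le_mul_of_nonneg_right hP Epos.le).trans k1
  have u1 : |g.1 b a * E ^ 2| = y ^ 2 := by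
    rw [hy, mul_pow, Real.sq_sqrt (abs_nonneg _), abs_mul, abs_of_nonneg (sq_nonneg E)]
  have sy : |s| * y ≤ 1 := (mul_le_mul_of_nonneg_left y1 s0).trans h2
  have u2 : |s * (g.1 b a * E ^ 2)| ≤ η := by
    rw [abs_mul, u1, sq, ← mul_assoc]
    exact (mul_le_of_le_one_left y0 sy).trans (y1.trans h1)
  have u3 : |s ^ 2 * (g.1 b a * E ^ 2)| = (|s| * y) ^ 2 := by
    rw [abs_mul, u1, abs_pow, mul_pow |s|]
  have v1 : ∀ {x : ℝ}, |x| ≤ A → |x * E| ≤ κ := fun h => by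
    rw [abs_mul, abs_of_pos Epos]
    exact (mul_le_mul_of_nonneg_right h Epos.le).trans k1
  have v2 : ∀ {x : ℝ}, |x| ≤ A → |s * (x * E)| ≤ 1 := fun h => by
    rw [abs_mul]
    exact (mul_le_mul_of_nonneg_left (v1 h) s0).trans h2
  have w1 : ∀ {x : ℝ}, |x| ≤ η → |x * E'| ≤ η := fun h => by
    rw [abs_mul, abs_of_pos hE0]
    exact (mul_le_of_le_one_right (abs_nonneg _) hE1).trans h
  have w2 : |g.1 a b * E' ^ 2| ≤ η := by
    rw [sq, ← mul_assoc]; exact w1 (w1 (off a b hab))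
  have x1 : |s * (g.1 a a - g.1 b b)| ≤ 1 := by
    rw [abs_mul]; exact (mul_le_mul_of_nonneg_left k2 s0).trans h2
  have N : ∀ k k', ¬Sp a b k k' → |((sh a b g m s).1 - 1) k k'| ≤ 2 * η := by
    intro k k' hk
    rw [Matrix.sub_apply]
    by_cases hkk : k = k'
    · subst hkk
      rw [one_apply_eq]
      have := abs_le.1 (dia k)
      have := abs_le.1 u2
      by_cases ha : k = a
      · subst ha; rw [eaa, abs_le]; constructor <;> linarith
      by_cases hb : k = b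
      · subst hb; rw [ebb, abs_le]; constructor <;> linarith
      rw [(ej k ha hb).2.2.2.2 k ha hb, abs_le]; constructor <;> linarith
    · rw [one_apply_ne hkk, sub_zero]
      have ha : k ≠ a := fun h => hk ⟨hkk, Or.inl h⟩
      have hb : k' ≠ b := fun h => hk ⟨hkk, Or.inr h⟩
      by_cases hb' : k = b <;> by_cases ha' : k' = a
      · subst hb' ha'
        have := mul_le_of_le_one_left y0 (show y ≤ 1 by linarith)
        rw [eba, u1, sq]; linarith
      · subst hb'; rw [(ej k' ha' hb).2.2.1]; linarith [v1 (hA k' ha' hb).1]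
      · subst ha'; rw [(ej k ha hb').2.2.2.1]; linarith [v1 (hA k ha hb').2]
      · rw [(ej k ha hb').2.2.2.2 k' ha' hb]; linarith [off k k' hkk]
  refine ⟨N, fun k k' => ?_, ?_⟩
  · by_cases hk : Sp a b k k'
    · obtain ⟨hkk, hk⟩ := hk
      by_cases ha : k = a <;> by_cases hb : k' = b
      · subst ha hb
        have := abs_le.1 w2
        have := abs_le.1 x1
        have := abs_le.1 (u3.le.trans (pow_le_one₀ (by positivity) sy))
        rw [eab, abs_le]; constructor <;> linarith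
      · subst ha
        have := abs_le.1 (w1 (off k k' hkk))
        have := abs_le.1 (v2 (hA k' (Ne.symm hkk) hb).1)
        rw [(ej k' (Ne.symm hkk) hb).1, abs_le]; constructor <;> linarith
      · subst hb
        have := abs_le.1 (w1 (off k k' hkk))
        have := abs_le.1 (v2 (hA k ha hkk).2)
        rw [(ej k ha hkk).2.1, abs_le]; constructor <;> linarith
      · exact absurd hk (not_or.2 ⟨ha, hb⟩)
    · have h4 := abs_le.1 (N k k' hk)
      rw [Matrix.sub_apply] at h4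
      have h5 : (0 : ℝ) ≤ (1 : Matrix (Fin n) (Fin n) ℝ) k k' ∧
          (1 : Matrix (Fin n) (Fin n) ℝ) k k' ≤ 1 := by
        rw [one_apply]; split_ifs <;> norm_num
      rw [abs_le]; constructor <;> linarith [h5.1, h5.2]
  · have tri : ∀ {p q c : ℝ}, |p| ≤ η → c ≤ |q| → c - η ≤ |p + q| := fun {p q c} hp hq => by
      have := abs_add_le (p + q) (-p)
      rw [abs_neg, add_neg_cancel_comm] at this
      linarith
    have AB : κ = max y |g.1 a a - g.1 b b| → ∃ k k', Sp a b k k' ∧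
        σ ^ 2 / 4 ≤ |(sh a b g m s).1 k k'| := fun hk => by
      refine ⟨a, b, ⟨hab, Or.inl rfl⟩, ?_⟩
      have h4 := led_ab hσ hσ1 s0 y0 (abs_nonneg _) (hk ▸ h2) (hk ▸ h3) hB (abs_mul _ _) u3
      have := tri w2 h4
      rw [eab, add_sub_assoc]
      linarith
    rcases le_total (A * E) |g.1 a a - g.1 b b| with hc | hc
    · refine AB ?_
      rw [hκ, max_eq_right hc, max_eq_right ((mul_le_mul_of_nonneg_right hP Epos.le).trans hc)]
    · have hk : κ = A * E := by rw [hκ, max_eq_left hc]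
      rcases hA' with h | ⟨j, ja, jb, h | h⟩
      · exact AB (by rw [hκ, h])
      · refine ⟨a, j, ⟨ja.symm, Or.inl rfl⟩, ?_⟩
        have h4 : σ ≤ |-(s * (g.1 b j * E))| := by
          rw [abs_neg, abs_mul, abs_mul, abs_of_pos Epos, ← h, ← hk]; exact h3
        have := tri (w1 (off a j ja.symm)) h4
        rw [(ej j ja jb).1, sub_eq_add_neg]
        linarith
      · refine ⟨j, b, ⟨jb, Or.inr rfl⟩, ?_⟩
        have h4 : σ ≤ |s * (g.1 j a * E)| := by
          rw [abs_mul, abs_mul, abs_of_pos Epos, ← h, ← hk]; exact h3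
        have := tri (w1 (off j b jb)) h4
        rw [(ej j ja jb).2.1]
        linarith

theorem led {a b : Fin n} (hab : a ≠ b) {ρ : ℝ} (h0 : 0 < ρ) (h1 : ρ ≤ 1) :
    ∃ (J : ℕ) (c : ℝ), 0 < c ∧ ∀ (M0 : ℕ) (ε : ℝ), 0 < ε → ∀ᶠ g in 𝓝 (1 : G n),
      ¬Commute g.1 (single a b 1) → ∃ (M : ℕ) (l : ℕ → ℕ) (Bad : Finset ℕ), M0 ≤ M ∧
        Bad.card ≤ J ∧ (∀ m < M, m + l m < 3 * M) ∧
        (∀ v, ((Finset.range M).filter fun m => m + l m = v).card ≤ 2) ∧
        ∀ m < M, m ∉ Bad → ∀ s : ℝ, ρ * Real.exp (2 * l m) ≤ |s| → |s| ≤ Real.exp (2 * l m) →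
          (∀ k k', ¬Sp a b k k' → |((sh a b g m s).1 - 1) k k'| ≤ ε) ∧
          (∀ k k', |(sh a b g m s).1 k k'| ≤ 4) ∧
          ∃ k k', Sp a b k k' ∧ c ≤ |(sh a b g m s).1 k k'| := by
  classical
  set σ := ρ * Real.exp (-2) with hσ
  have σ0 : 0 < σ := by positivity
  have σ1 : σ ≤ 1 := mul_le_one₀ h1 (Real.exp_pos _).le (Real.exp_le_one_iff.2 (by norm_num))
  obtain ⟨J, hJ⟩ : ∃ J : ℕ, Real.exp (-J) ≤ (σ / 2) ^ 2 := by
    obtain ⟨J, hJ⟩ := exists_nat_ge (-Real.log ((σ / 2) ^ 2))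
    exact ⟨J, (Real.exp_le_exp.2 (by linarith)).trans (Real.exp_log (by positivity)).le⟩
  refine ⟨J, σ ^ 2 / 4, by positivity, fun M0 ε hε => ?_⟩
  set η := min (min (ε / 2) (σ ^ 2 / 4)) (Real.exp (-M0)) with hη
  have η0 : 0 < η := by positivity
  have η1 : η ≤ ε / 2 := (min_le_left _ _).trans (min_le_left _ _)
  have η2 : η ≤ σ ^ 2 / 4 := (min_le_left _ _).trans (min_le_right _ _)
  have η3 : η ≤ 1 := by nlinarith
  have η4 : η ^ 4 ≤ η ^ 2 := pow_le_pow_of_le_one η0.le η3 (by norm_num)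
  have η5 : η ^ 2 ≤ η := by nlinarith
  have η6 : 0 < η ^ 4 := by positivity
  filter_upwards [Nr.nhds (n := n) (w := fun _ _ => 1) (fun _ _ => one_pos)
    (r := η ^ 4 / 2) (by positivity)] with g hg hc
  have hg' : ∀ k l, |(g.1 - 1) k l| ≤ η ^ 4 / 2 := fun k l => by simpa using hg k l
  have off : ∀ k l, k ≠ l → |g.1 k l| ≤ η ^ 4 / 2 := fun k l h => by
    simpa [one_apply_ne h] using hg' k l
  have dia : ∀ k, |g.1 k k - 1| ≤ η ^ 4 / 2 := fun k => by simpa using hg' k k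
  set f : Fin n → ℝ := fun j =>
    if j = a ∨ j = b then √|g.1 b a| else max |g.1 b j| |g.1 j a| with hf
  obtain ⟨j0, -, hj0⟩ := Finset.exists_max_image Finset.univ f ⟨a, Finset.mem_univ a⟩
  have hP : √|g.1 b a| ≤ f j0 := by simpa [hf] using hj0 a (Finset.mem_univ a)
  have hA : ∀ j, j ≠ a → j ≠ b → |g.1 b j| ≤ f j0 ∧ |g.1 j a| ≤ f j0 := fun j ja jb => by
    have := hj0 j (Finset.mem_univ j)
    rw [hf] at this
    simp only [ja, jb, or_self, if_false] at this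
    exact max_le_iff.1 this
  have hA' : f j0 = √|g.1 b a| ∨
      ∃ j, j ≠ a ∧ j ≠ b ∧ (f j0 = |g.1 b j| ∨ f j0 = |g.1 j a|) := by
    by_cases h : j0 = a ∨ j0 = b
    · exact Or.inl (if_pos h)
    · refine Or.inr ⟨j0, (not_or.1 h).1, (not_or.1 h).2, ?_⟩
      rw [show f j0 = max |g.1 b j0| |g.1 j0 a| from if_neg h]
      exact max_choice _ _
  have A0 : 0 ≤ f j0 := (Real.sqrt_nonneg _).trans hP
  have hpos : 0 < max (f j0) |g.1 a a - g.1 b b| := by
    by_contra h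
    rw [not_lt, max_le_iff] at h
    have hba : g.1 b a = 0 := by
      have := Real.sqrt_eq_zero'.1 (le_antisymm (hP.trans h.1) (Real.sqrt_nonneg _))
      exact abs_nonpos_iff.1 this
    refine hc (led_comm (sub_eq_zero.1 (abs_nonpos_iff.1 h.2)) (fun k hk => ?_) fun l hl => ?_)
    · by_cases hb : k = b
      · rw [hb, hba]
      · exact abs_nonpos_iff.1 ((hA k hk hb).2.trans h.1)
    · by_cases ha : l = a
      · rw [ha, hba]
      · exact abs_nonpos_iff.1 ((hA l ha hl).1.trans h.1)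
  have hle : max (f j0) |g.1 a a - g.1 b b| ≤ η ^ 2 := by
    refine max_le ?_ ?_
    · rcases hA' with h | ⟨j, ja, jb, h | h⟩
      · rw [h, Real.sqrt_le_left (by positivity)]
        linarith [off b a hab.symm, show (η ^ 2) ^ 2 = η ^ 4 by ring]
      · linarith [off b j jb.symm]
      · linarith [off j a ja]
    · have := abs_le.1 (dia a)
      have := abs_le.1 (dia b)
      rw [abs_le]; constructor <;> linarith
  obtain ⟨M, l, Bad, m1, m2, m3, m4, m5⟩ := led_real (P := √|g.1 b a|) hJ (by positivity) A0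
    (abs_nonneg _) η0 hpos hle (min_le_right _ _)
  refine ⟨M, l, Bad, m1, m2, m3, m4, fun m hm hb s s1 s2 => ?_⟩
  obtain ⟨n1, n2, n3, n4⟩ := m5 m hm
  have k0 : 0 ≤ max (f j0 * Real.exp m) |g.1 a a - g.1 b b| :=
    (abs_nonneg _).trans (le_max_right _ _)
  obtain ⟨r1, r2, r3⟩ := led_key hab g m (s := s) σ0 σ1 η2
    (fun k l => (hg' k l).trans (by linarith)) rfl n1
    ((mul_le_mul_of_nonneg_right s2 k0).trans n2)
    ((mul_le_mul_of_nonneg_left n3 h0.le).trans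
      ((mul_assoc _ _ _).symm.le.trans (mul_le_mul_of_nonneg_right s1 k0))) hP hA hA' (n4 hb)
  exact ⟨fun k k' hk => (r1 k k' hk).trans (by linarith), r2, r3⟩

end Vale.Agent.P007
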