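import Vale.Agent.P007B.LWb

/-! Trivial and invariant leafwise measures. -/

namespace Vale.Agent.P007

open Matrix MeasureTheory ProbabilityTheory Set Filter Topology
open scoped ENNReal

variable {n : ℕ}

variable {μ : Measure (X n)} {i j : Fin n}

theorem LW.T_meas (L : LW μ i j) : MeasurableSet L.T :=
  (L.ν.measurable_coe (measurableSet_singleton (0 : ℝ)).compl) (measurableSet_singleton 0)

theorem LWc.pre_zero {e : ℝ} (he : e ≠ 0) : (fun s : ℝ => s * e) ⁻¹' {0} = {0} := by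
  ext s
  simp [he]

theorem LWc.pre_Icc (r : ℝ) :
    (fun s : ℝ => s * Real.exp r) ⁻¹' Icc (-1) 1 = Icc (-Real.exp (-r)) (Real.exp (-r)) := by
  ext s
  have h := Real.exp_pos r
  simp only [mem_preimage, mem_Icc, Real.exp_neg]
  rw [← div_le_iff₀ h, ← le_div_iff₀ h, neg_div, one_div]

theorem LW.T_inv (L : LW μ i j) (t : Fin n → ℝ) :
    ∀ᵐ x ∂μ, (act (dg t) x ∈ L.T ↔ x ∈ L.T) := by
  filter_upwards [L.equiv t] with x hx
  obtain ⟨c, c0, -, hc⟩ := hx
  change L.ν _ {0}ᶜ = 0 ↔ L.ν x {0}ᶜ = 0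
  rw [hc, Measure.smul_apply, Measure.map_apply (measurable_mul_const _)
    (measurableSet_singleton (0 : ℝ)).compl, preimage_compl,
    LWc.pre_zero (Real.exp_pos _).ne', smul_eq_mul, mul_eq_zero]
  simp [c0]

theorem LW.tr (L : LW μ i j) (h : ∀ᵐ x ∂μ, x ∈ L.T) : Tr μ i j := by
  refine ⟨L.X' ∩ L.T, ⟨L.co.1.inter L.T_meas, ?_⟩, ?_⟩
  · rw [compl_inter]
    exact measure_union_null L.co.2 (ae_iff.1 h)
  · rintro x ⟨hx, hT⟩ s ⟨hy, hyT⟩
    by_contra hs
    have e := congrArg (fun m : Measure ℝ => m {0}ᶜ) (L.cons x hx s hy)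
    have hy0 : L.ν (act (tv i j s) x) {0}ᶜ = 0 := hyT
    have hx0 : L.ν x {0}ᶜ = 0 := hT
    simp only [Measure.smul_apply, hy0, smul_eq_mul, mul_zero] at e
    rw [Measure.map_apply (measurable_sub_const _) (measurableSet_singleton (0 : ℝ)).compl] at e
    have h1 : L.ν x (Icc (-1) 1) = 0 := by
      refine measure_mono_null (fun u _ => ?_) (measure_union_null hx0 e.symm)
      by_cases hu : u = 0
      · right
        simp only [mem_preimage, mem_compl_iff, mem_singleton_iff, hu, zero_sub, neg_eq_zero]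
        exact hs
      · left
        exact hu
    rw [L.norm x hx] at h1
    exact one_ne_zero h1

theorem LWc.ae_X' (hA : AI μ) (L : LW μ i j) (t : Fin n → ℝ) :
    ∀ᵐ x ∂μ, x ∈ L.X' ∧ act (dg t) x ∈ L.X' := by
  have h1 : ∀ᵐ x ∂μ, x ∈ L.X' := ae_iff.2 L.co.2
  exact h1.and ((Stab.mp (hA t)).quasiMeasurePreserving.ae h1)

theorem LWc.step [IsFiniteMeasure μ] (hA : AI μ) (hij : i ≠ j) (L : LW μ i j) (r : ℝ) :
    ∀ᵐ x ∂μ, L.ν x {0} ≠ 0 → L.ν x (Icc (-Real.exp (-r)) (Real.exp (-r))) = 1 := by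
  set t : Fin n → ℝ := Pi.single j r with ht
  have hr : t j - t i = r := by simp [ht, hij]
  set f : X n → ℝ≥0∞ := fun x => L.ν x {0} with hf
  have fm : Measurable f := L.ν.measurable_coe (measurableSet_singleton 0)
  have mp := Stab.mp (hA t)
  have f1 : ∀ x ∈ L.X', f x ≤ 1 := fun x hx => by
    rw [← L.norm x hx]
    exact measure_mono (by simp)
  have key : ∀ᵐ x ∂μ, x ∈ L.X' ∧ ∃ c : ℝ≥0∞, f (act (dg t) x) = c * f x ∧
      c * L.ν x (Icc (-Real.exp (-r)) (Real.exp (-r))) = 1 := by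
    filter_upwards [L.equiv t, LWc.ae_X' hA L t] with x hx hX
    obtain ⟨c, -, -, hc⟩ := hx
    rw [hr] at hc
    refine ⟨hX.1, c, ?_, ?_⟩
    · simp only [hf]
      rw [hc, Measure.smul_apply, Measure.map_apply (measurable_mul_const _)
        (measurableSet_singleton (0 : ℝ)), LWc.pre_zero (Real.exp_pos _).ne', smul_eq_mul]
    · rw [← L.norm _ hX.2, hc, Measure.smul_apply, Measure.map_apply (measurable_mul_const _)
        measurableSet_Icc, LWc.pre_Icc, smul_eq_mul]
  have hint : ∫⁻ x, f (act (dg t) x) ∂μ = ∫⁻ x, f x ∂μ := mp.lintegral_comp fm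
  have hfin : ∫⁻ x, f x ∂μ ≠ ∞ := by
    refine ne_top_of_le_ne_top (b := ∫⁻ _, 1 ∂μ) (by simp) (lintegral_mono_ae ?_)
    filter_upwards [key] with x hx using f1 x hx.1
  have heq : ∀ᵐ x ∂μ, f (act (dg t) x) = f x := by
    rcases le_total 0 r with h0 | h0
    · have hle : f ≤ᵐ[μ] fun x => f (act (dg t) x) := by
        filter_upwards [key] with x hx
        obtain ⟨hX, c, h1, h2⟩ := hx
        have he : Real.exp (-r) ≤ 1 := Real.exp_le_one_iff.2 (by linarith)
        have h3 : L.ν x (Icc (-Real.exp (-r)) (Real.exp (-r))) ≤ 1 := by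
          rw [← L.norm x hX]
          exact measure_mono (Icc_subset_Icc (by linarith) he)
        have h4 : 1 ≤ c := by
          calc (1 : ℝ≥0∞) = _ := h2.symm
            _ ≤ c * 1 := by gcongr
            _ = c := mul_one c
        calc f x = 1 * f x := (one_mul _).symm
          _ ≤ c * f x := by gcongr
          _ = _ := h1.symm
      filter_upwards [ae_eq_of_ae_le_of_lintegral_le hle hfin
        (fm.comp mp.measurable).aemeasurable hint.le] with x hx using hx.symm
    · have hle : (fun x => f (act (dg t) x)) ≤ᵐ[μ] f := by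
        filter_upwards [key] with x hx
        obtain ⟨hX, c, h1, h2⟩ := hx
        have he : 1 ≤ Real.exp (-r) := Real.one_le_exp (by linarith)
        have h3 : 1 ≤ L.ν x (Icc (-Real.exp (-r)) (Real.exp (-r))) := by
          rw [← L.norm x hX]
          exact measure_mono (Icc_subset_Icc (by linarith) he)
        have h4 : c ≤ 1 := by
          calc c = c * 1 := (mul_one c).symm
            _ ≤ c * L.ν x (Icc (-Real.exp (-r)) (Real.exp (-r))) := by gcongr
            _ = 1 := h2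
        calc f (act (dg t) x) = c * f x := h1
          _ ≤ 1 * f x := by gcongr
          _ = _ := one_mul _
      exact ae_eq_of_ae_le_of_lintegral_le hle (hint ▸ hfin) fm.aemeasurable hint.ge
  filter_upwards [key, heq] with x hx he h0
  obtain ⟨hX, c, h1, h2⟩ := hx
  have hc : c = 1 := by
    have h5 : c * f x = 1 * f x := by rw [← h1, he, one_mul]
    exact (ENNReal.mul_left_inj h0 (ne_top_of_le_ne_top ENNReal.one_ne_top (f1 x hX))).1 h5
  rwa [hc, one_mul] at h2

theorem LWc.dirac {m : Measure ℝ}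
    (h : ∀ k : ℤ, m (Icc (-Real.exp (-(k : ℝ))) (Real.exp (-(k : ℝ)))) = 1) : m {0}ᶜ = 0 := by
  have hk : ∀ k : ℕ, m (Icc (-Real.exp k) (Real.exp k) \
      Icc (-Real.exp (-(k : ℝ))) (Real.exp (-(k : ℝ)))) = 0 := by
    intro k
    have h1 := h k
    have h2 := h (-k)
    simp only [Int.cast_natCast, Int.cast_neg, neg_neg] at h1 h2
    have he : Real.exp (-(k : ℝ)) ≤ Real.exp k :=
      Real.exp_le_exp.2 (by have : (0 : ℝ) ≤ k := Nat.cast_nonneg k; linarith)
    rw [measure_diff (Icc_subset_Icc (by linarith) he) measurableSet_Icc.nullMeasurableSet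
      (by rw [h1]; exact ENNReal.one_ne_top), h1, h2, tsub_self]
  refine measure_mono_null (fun s hs => ?_) (measure_iUnion_null hk)
  have hs0 : 0 < |s| := abs_pos.2 hs
  obtain ⟨k, hk1⟩ := exists_nat_gt (max |s| |s|⁻¹)
  have hk2 : (k : ℝ) < Real.exp k := by linarith [Real.add_one_le_exp (k : ℝ)]
  have h3 : |s| < Real.exp k := ((le_max_left _ _).trans_lt hk1).trans hk2
  have h4 : |s|⁻¹ < Real.exp k := ((le_max_right _ _).trans_lt hk1).trans hk2
  refine mem_iUnion.2 ⟨k, abs_le.1 h3.le, fun hc => ?_⟩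
  have h5 : |s| ≤ Real.exp (-(k : ℝ)) := abs_le.2 hc
  rw [Real.exp_neg] at h5
  have h6 : (Real.exp k)⁻¹ < |s| := by
    rw [inv_lt_comm₀ (Real.exp_pos _) hs0]
    exact h4
  linarith

theorem LW.atom [IsFiniteMeasure μ] (hA : AI μ) (hij : i ≠ j) (L : LW μ i j) :
    ∀ᵐ x ∂μ, x ∉ L.T → L.ν x {0} = 0 := by
  have h := ae_all_iff.2 fun k : ℤ => LWc.step hA hij L (k : ℝ)
  filter_upwards [h] with x hx hT
  by_contra h0
  exact hT (LWc.dirac fun k => hx k h0)

theorem LWc.locfin : IsLocallyFiniteMeasure ((2 : ℝ≥0∞)⁻¹ • (volume : Measure ℝ)) := by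
  refine ⟨fun x => ⟨Ioo (x - 1) (x + 1), Ioo_mem_nhds (by linarith) (by linarith), ?_⟩⟩
  rw [Measure.smul_apply, smul_eq_mul, Real.volume_Ioo]
  exact ENNReal.mul_lt_top (by simp) ENNReal.ofReal_lt_top

theorem LW.Z_meas (L : LW μ i j) : MeasurableSet L.Z := by
  have e : L.Z = ⋂ a : ℚ, ⋂ b : ℚ, {x | L.ν x (Ioo (a : ℝ) b) =
      ((2 : ℝ≥0∞)⁻¹ • (volume : Measure ℝ)) (Ioo (a : ℝ) b)} := by
    ext x
    simp only [mem_iInter, mem_setOf_eq]
    constructor
    · intro h a b
      rw [show L.ν x = _ from h]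
    · intro h
      haveI := LWc.locfin
      exact (Real.measure_ext_Ioo_rat fun a b => (h a b).symm).symm
  rw [e]
  exact MeasurableSet.iInter fun a => MeasurableSet.iInter fun b =>
    (L.ν.measurable_coe measurableSet_Ioo) (measurableSet_singleton _)

theorem LWc.half {m : Measure ℝ} {d : ℝ≥0∞} (h : m = d • (volume : Measure ℝ))
    (h1 : m (Icc (-1) 1) = 1) : m = (2 : ℝ≥0∞)⁻¹ • (volume : Measure ℝ) := by
  rw [h, Measure.smul_apply, smul_eq_mul, Real.volume_Icc] at h1
  have h2 : ENNReal.ofReal (1 - -1) = 2 := by norm_num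
  rw [h2] at h1
  rw [h, ENNReal.eq_inv_of_mul_eq_one_left h1]

theorem LW.Z_inv (hA : AI μ) (L : LW μ i j) (t : Fin n → ℝ) :
    ∀ᵐ x ∂μ, (act (dg t) x ∈ L.Z ↔ x ∈ L.Z) := by
  filter_upwards [L.equiv t, LWc.ae_X' hA L t] with x hx hX
  obtain ⟨c, c0, ct, hc⟩ := hx
  set e := Real.exp (t j - t i) with he
  have e0 : e ≠ 0 := (Real.exp_pos _).ne'
  constructor
  · intro h
    have h1 : L.ν (act (dg t) x) = (2 : ℝ≥0∞)⁻¹ • (volume : Measure ℝ) := h
    have h2 : (L.ν x).map (· * e) = (c⁻¹ * (2 : ℝ≥0∞)⁻¹) • (volume : Measure ℝ) := by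
      rw [mul_smul, ← h1, hc, smul_smul, ENNReal.inv_mul_cancel c0 ct, one_smul]
    have h3 : L.ν x = ((L.ν x).map (· * e)).map (· * e⁻¹) := by
      rw [Measure.map_map (measurable_mul_const _) (measurable_mul_const _)]
      have : ((fun s : ℝ => s * e⁻¹) ∘ fun s : ℝ => s * e) = id := by
        funext s
        simp [e0]
      rw [this, Measure.map_id]
    rw [h2, Measure.map_smul, Real.map_volume_mul_right (inv_ne_zero e0), smul_smul] at h3
    exact LWc.half h3 (L.norm x hX.1)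
  · intro h
    have h1 : L.ν x = (2 : ℝ≥0∞)⁻¹ • (volume : Measure ℝ) := h
    rw [h1, Measure.map_smul, Real.map_volume_mul_right e0, smul_smul, smul_smul] at hc
    exact LWc.half hc (L.norm _ hX.2)

theorem LW.Z_T (L : LW μ i j) {x : X n} (h : x ∈ L.Z) : x ∉ L.T := by
  intro hT
  have h1 : L.ν x = (2 : ℝ≥0∞)⁻¹ • (volume : Measure ℝ) := h
  have h2 : L.ν x {0}ᶜ = 0 := hT
  have h3 : L.ν x (Icc 1 3) = 0 :=
    measure_mono_null (fun s hs => by
      have := hs.1
      simp only [mem_compl_iff, mem_singleton_iff]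
      intro h0
      linarith) h2
  rw [h1, Measure.smul_apply, smul_eq_mul, Real.volume_Icc] at h3
  norm_num at h3

end Vale.Agent.P007
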