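import Vale.Agent.P007B.SymA
import Vale.Agent.P007B.LWc
import Vale.Agent.P007B.MaxE

/-! Symmetric leafwise measures give invariance. -/

namespace Vale.Agent.P007

open Matrix MeasureTheory ProbabilityTheory Set Filter Topology
open scoped ENNReal NNReal BoundedContinuousFunction

variable {n : ℕ}

/-- the periods of a measure on the line -/
def symzPer (m : Measure ℝ) : AddSubgroup ℝ where
  carrier := {r | m.map (· - r) = m}
  add_mem' {a b} ha hb := by
    have e : (fun x : ℝ => x - (a + b)) = (· - b) ∘ (· - a) := funext fun x => by simp [sub_sub]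
    change m.map _ = m
    rw [e, ← Measure.map_map (by fun_prop) (by fun_prop), ha, hb]
  zero_mem' := by
    change m.map _ = m
    simp
  neg_mem' {a} ha := by
    have e : (fun x : ℝ => x - -a) ∘ (· - a) = id := funext fun x => by simp
    change m.map _ = m
    conv_lhs => rw [← (show m.map (· - a) = m from ha)]
    rw [Measure.map_map (by fun_prop) (by fun_prop), e, Measure.map_id]

lemma symz_le {m : Measure ℝ} {δ : ℝ} (h0 : 0 < δ) (h : m.map (· - δ) = m) {a b c d : ℝ}
    (hd : b - a + δ ≤ d - c) : m (Ioo a b) ≤ m (Ioo c d) := by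
  have hk : m.map (· - (⌈(c - a) / δ⌉ • δ)) = m := (symzPer m).zsmul_mem h _
  have h1 : c - a ≤ ⌈(c - a) / δ⌉ * δ := (div_le_iff₀ h0).1 (Int.le_ceil _)
  have h2 : (⌈(c - a) / δ⌉ : ℝ) * δ ≤ c - a + δ := by
    have := mul_le_mul_of_nonneg_right (Int.ceil_lt_add_one ((c - a) / δ)).le h0.le
    rwa [add_mul, div_mul_cancel₀ _ h0.ne', one_mul] at this
  conv_lhs => rw [← hk]
  rw [Measure.map_apply (by fun_prop) measurableSet_Ioo]
  refine measure_mono fun x hx => ?_
  simp only [mem_preimage, mem_Ioo, zsmul_eq_mul] at hx ⊢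
  constructor <;> linarith [hx.1, hx.2]

lemma symz_scale {m : Measure ℝ} {s : ℝ} (h : m.map (· - s) = m) (c : ℝ≥0∞) (e : ℝ) :
    (c • m.map (· * e)).map (· - s * e) = c • m.map (· * e) := by
  have e1 : (fun x : ℝ => x - s * e) ∘ (· * e) = (· * e) ∘ (· - s) := funext fun x => by
    simp [sub_mul]
  rw [Measure.map_smul, Measure.map_map (by fun_prop) (by fun_prop), e1,
    ← Measure.map_map (by fun_prop) (by fun_prop), h]

variable {μ : Measure (X n)} [IsFiniteMeasure μ] {i j : Fin n}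

theorem LW.Z_of_sym (hA : AI μ) (hij : i ≠ j) (L : LW μ i j) :
    ∀ᵐ x ∂μ, Sym (L.ν x) → x ∈ L.Z := by
  have h3 : ∀ᵐ x ∂μ, ∀ k : ℕ, ∃ c : ℝ≥0∞, c ≠ 0 ∧ c ≠ ∞ ∧
      L.ν (act (dg ((k : ℝ) • (Pi.single i 1 : Fin n → ℝ))) x) = c • (L.ν x).map
        (· * Real.exp (((k : ℝ) • (Pi.single i 1 : Fin n → ℝ)) j -
          ((k : ℝ) • (Pi.single i 1 : Fin n → ℝ)) i)) := ae_all_iff.2 fun k => L.equiv _
  have h4 := recur μ (Stab.mp (hA (Pi.single i 1))) L.fm_meas
  filter_upwards [L.co.ae, L.growth, h3, h4] with x hx hg he hr hs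
  obtain ⟨C, hC, hg⟩ := hg
  obtain ⟨s, hs0, hs⟩ := hs.per (L.norm x hx) hC hg
  obtain ⟨k, hk, -, hl⟩ := hr
  have := L.locfin hx
  refine eq_half _ (L.norm x hx) fun a b c d h => ?_
  have h' : (0 : ℝ) < d - c - (b - a) := by exact_mod_cast sub_pos.2 h
  have ht : Tendsto (fun r => s * Real.exp (-(k r : ℝ))) atTop (𝓝 0) := by
    simpa using (Real.tendsto_exp_neg_atTop_nhds_zero.comp
      (tendsto_natCast_atTop_atTop.comp hk.tendsto_atTop)).const_mul s
  refine le_of_tendsto_of_tendsto (tendsto_pi_nhds.1 hl (a, b)) (tendsto_pi_nhds.1 hl (c, d)) ?_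
  filter_upwards [ht.eventually (gt_mem_nhds h')] with r hr
  obtain ⟨e, -, -, he⟩ := he (k r)
  have e1 : ((k r : ℝ) • (Pi.single i (1 : ℝ) : Fin n → ℝ)) j -
      ((k r : ℝ) • (Pi.single i (1 : ℝ) : Fin n → ℝ)) i = -(k r : ℝ) := by
    simp [hij.symm]
  rw [e1] at he
  simp only [LW.fm]
  rw [act_iter, ← dg_nsmul, he]
  exact symz_le (by positivity) (symz_scale hs e _) (by linarith)

lemma symz_cont (i j : Fin n) (f : X n →ᵇ ℝ≥0) :
    Continuous fun s : ℝ => ∫⁻ x, f (act (tv i j s) x) ∂μ := by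
  refine continuous_iff_continuousAt.2 fun s => ?_
  refine tendsto_lintegral_filter_of_dominated_convergence (fun _ => (nndist f 0 : ℝ≥0∞))
    (Eventually.of_forall fun r => ?_) (Eventually.of_forall fun r => ae_of_all _ fun x => ?_) ?_
    (ae_of_all _ fun x => ?_)
  · exact (f.continuous.comp (act_cont _)).measurable.coe_nnreal_ennreal
  · exact ENNReal.coe_le_coe.2 (BoundedContinuousFunction.NNReal.upper_bound f _)
  · rw [lintegral_const]
    exact ENNReal.mul_ne_top ENNReal.coe_ne_top (measure_ne_top _ _)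
  · exact (ENNReal.continuous_coe.comp (f.continuous.comp
      (act_cont2.comp (continuous_const.prodMk (tv_cont i j))))).tendsto s

theorem LW.inv (L : LW μ i j) (h : ∀ᵐ x ∂μ, x ∈ L.Z) : Inv μ i j := by
  intro s
  change μ.map _ = μ
  refine ext_of_forall_lintegral_eq_of_IsFiniteMeasure fun f => ?_
  rw [lintegral_map f.continuous.measurable.coe_nnreal_ennreal (act_cont _).measurable]
  have hm : Measurable fun p : X n × ℝ => (f (act (tv i j p.2) p.1) : ℝ≥0∞) :=
    (f.continuous.measurable.comp (act_tv_meas i j)).coe_nnreal_ennreal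
  have key : (fun s : ℝ => ∫⁻ x, f (act (tv i j s) x) ∂μ) =ᵐ[volume] fun _ => ∫⁻ x, f x ∂μ := by
    refine ae_eq_of_forall_setLIntegral_eq_of_sigmaFinite (symz_cont i j f).measurable
      measurable_const fun J hJ _ => ?_
    have hi : Measurable (J.indicator (1 : ℝ → ℝ≥0∞)) := measurable_one.indicator hJ
    have h1 := L.mt (fun x s => f (act (tv i j s) x) * J.indicator 1 s)
      (hm.mul (hi.comp measurable_snd))
    have h2 : ∫⁻ x, ∫⁻ s, f (act (tv i j s) x) * J.indicator 1 s ∂(L.ν x) ∂μ =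
        2⁻¹ * ∫⁻ s in J, ∫⁻ x, f (act (tv i j s) x) ∂μ := by
      rw [← lintegral_lintegral_swap hm.aemeasurable, ← lintegral_const_mul' _ _ (by simp)]
      refine lintegral_congr_ae (h.mono fun x hx => ?_)
      beta_reduce
      rw [show L.ν x = _ from hx, lintegral_smul_measure, ← lintegral_indicator hJ]
      congr 2
      funext s
      by_cases hs : s ∈ J <;> simp [hs]
    have h3 : ∫⁻ x, ∫⁻ s, f (act (tv i j (-s)) (act (tv i j s) x)) * J.indicator 1 (-s) /
        L.ν x (Icc (s - 1) (s + 1)) ∂(L.ν x) ∂μ = 2⁻¹ * ∫⁻ _ in J, ∫⁻ x, f x ∂μ := by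
      rw [setLIntegral_const, ← lintegral_mul_const _ f.continuous.measurable.coe_nnreal_ennreal,
        ← lintegral_const_mul' _ _ (by simp)]
      refine lintegral_congr_ae (h.mono fun x hx => ?_)
      beta_reduce
      rw [show L.ν x = _ from hx, lintegral_smul_measure, ← lintegral_indicator_one hJ,
        ← lintegral_neg_eq_self, ← lintegral_const_mul' _ _ ENNReal.coe_ne_top]
      congr 2
      funext s
      have e : ((2 : ℝ≥0∞)⁻¹ • (volume : Measure ℝ)) (Icc (-s - 1) (-s + 1)) = 1 := by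
        rw [Measure.smul_apply, Real.volume_Icc, smul_eq_mul,
          show -s + 1 - (-s - 1) = 2 by ring, ENNReal.ofReal_ofNat,
          ENNReal.inv_mul_cancel (by simp) (by simp)]
      rw [e, div_one, ← act_mul, ← tv_add, add_neg_cancel, tv_zero, act_one, neg_neg]
    rw [h2, h3] at h1
    exact (ENNReal.mul_right_inj (by simp) (by simp)).1 h1
  exact congrFun (((symz_cont i j f).ae_eq_iff_eq volume continuous_const).1 key) s

end Vale.Agent.P007
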