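import Vale.Agent.P007B.LEb
import Vale.Agent.P007B.LEd
import Vale.Agent.P007B.LEa
import Vale.Agent.P007B.SymZ

/-! The low entropy argument: local part. -/

namespace Vale.Agent.P007

open Matrix MeasureTheory ProbabilityTheory Set Filter Topology
open scoped ENNReal

variable {n : ℕ}

variable {μ : Measure (X n)}

/-- passing to the limit in the shearing argument -/
theorem lec_lim {a b : Fin n} {K : Set (X n)} (hK : IsCompact K) {f : X n → ℚ × ℚ → ℝ≥0∞}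
    (hf : ContinuousOn f K) {c : ℝ} (z : ℕ → X n) (h : ℕ → G n) (hz : ∀ r, z r ∈ K)
    (hz' : ∀ r, act (h r) (z r) ∈ K) (he : ∀ r, f (z r) = f (act (h r) (z r)))
    (h1 : ∀ (r : ℕ) k k', ¬Sp a b k k' → |((h r).1 - 1) k k'| ≤ 1 / ((r : ℝ) + 1))
    (h2 : ∀ r k k', |(h r).1 k k'| ≤ 4) (h3 : ∀ r, ∃ k k', Sp a b k k' ∧ c ≤ |(h r).1 k k'|) :
    ∃ x ∈ K, ∃ g : G n, act g x ∈ K ∧ f x = f (act g x) ∧
      (∀ k k', ¬Sp a b k k' → (g.1 - 1) k k' = 0) ∧ ∃ k k', Sp a b k k' ∧ c ≤ |g.1 k k'| := by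
  obtain ⟨⟨x, g⟩, ⟨hx, -⟩, φ, hφ, hl⟩ := (hK.prod (box_compact (n := n) 4)).tendsto_subseq
    (x := fun r => (z r, h r)) fun r => ⟨hz r, h2 r⟩
  have lx : Tendsto (fun r => z (φ r)) atTop (𝓝 x) := hl.fst_nhds
  have lg : Tendsto (fun r => h (φ r)) atTop (𝓝 g) := hl.snd_nhds
  have ly : Tendsto (fun r => act (h (φ r)) (z (φ r))) atTop (𝓝 (act g x)) := by
    have t := (act_cont2.tendsto (x, g)).comp (lx.prodMk_nhds lg)
    simpa only [Function.comp_def] using t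
  have hy : act g x ∈ K := hK.isClosed.mem_of_tendsto ly (Eventually.of_forall fun r => hz' _)
  refine ⟨x, hx, g, hy, ?_, fun k k' hk => ?_, ?_⟩
  · have t1 := (hf x hx).tendsto.comp
      (tendsto_nhdsWithin_iff.2 ⟨lx, Eventually.of_forall fun r => hz _⟩)
    have t2 := (hf _ hy).tendsto.comp
      (tendsto_nhdsWithin_iff.2 ⟨ly, Eventually.of_forall fun r => hz' _⟩)
    exact tendsto_nhds_unique t1 (t2.congr fun r => (he _).symm)
  · have t1 : Tendsto (fun r => |((h (φ r)).1 - 1) k k'|) atTop (𝓝 |(g.1 - 1) k k'|) := by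
      simp only [Matrix.sub_apply]
      exact ((tendsto_G.1 lg k k').sub_const _).abs
    have t2 : Tendsto (fun r => 1 / ((φ r : ℝ) + 1)) atTop (𝓝 0) :=
      tendsto_one_div_add_atTop_nhds_zero_nat.comp hφ.tendsto_atTop
    exact abs_nonpos_iff.1 (le_of_tendsto_of_tendsto' t1 t2 fun r => h1 _ k k' hk)
  · by_contra hc
    push Not at hc
    have t1 : ∀ᶠ r in atTop, ∀ k k', Sp a b k k' → |(h (φ r)).1 k k'| < c := by
      refine eventually_all.2 fun k => eventually_all.2 fun k' => ?_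
      by_cases hk : Sp a b k k'
      · exact ((tendsto_G.1 lg k k').abs.eventually (gt_mem_nhds (hc k k' hk))).mono
          fun r hr _ => hr
      · exact Eventually.of_forall fun r h => absurd h hk
    obtain ⟨r, hr⟩ := t1.exists
    obtain ⟨k, k', hk, h4⟩ := h3 (φ r)
    exact (hr k k' hk).not_ge h4

theorem le_loc [IsFiniteMeasure μ] (hA : AI μ) {a b : Fin n} (hab : a ≠ b) (L : LW μ a b)
    (hT : ∀ j, j ≠ a → j ≠ b → Tr μ a j ∧ Tr μ j b) (h1 : ∀ᵐ x ∂μ, x ∉ L.T)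
    (h2 : ∀ᵐ x ∂μ, x ∉ L.Z) {δ : ℝ≥0∞} (hδ : δ ≠ 0) :
    ∃ Y, MeasurableSet Y ∧ μ Yᶜ ≤ δ ∧ ∀ᶠ g in 𝓝 (1 : G n), ∀ x ∈ Y, act g x ∈ Y →
      L.ν x = L.ν (act g x) → Commute g.1 (single a b 1) := by
  obtain ⟨C, hC, hl⟩ := lea
  obtain ⟨Y0, hY0, hTT⟩ := exists_tt μ hA
  have hδ' : δ / C ≠ 0 := (ENNReal.div_pos hδ hC).ne'
  have hA0 : μ {x | x ∈ L.X' ∧ x ∈ Y0 ∧ ¬Sym (L.ν x)}ᶜ = 0 := by
    have : ∀ᵐ x ∂μ, x ∈ L.X' ∧ x ∈ Y0 ∧ ¬Sym (L.ν x) := by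
      filter_upwards [L.co.ae, hY0.ae, L.Z_of_sym hA hab, h2] with x a1 a2 a3 a4
      exact ⟨a1, a2, fun h => a4 (a3 h)⟩
    exact this
  obtain ⟨K, hK, hKA, hKδ, hKc⟩ := lusin μ L.fm_meas hA0 hδ'
  obtain ⟨ρ, hρ0, hρ1, Y, hY, hYδ, hY'⟩ :=
    hl n μ hA a b hab L h1 K hK.measurableSet _ hδ' hKδ
  obtain ⟨J, c, hc, hd⟩ := led hab hρ0 hρ1
  refine ⟨Y, hY, hYδ.trans ENNReal.mul_div_le, ?_⟩
  by_contra hn
  rw [not_eventually] at hn
  have key : ∀ r : ℕ, ∃ (z : X n) (h : G n), z ∈ K ∧ act h z ∈ K ∧ L.fm z = L.fm (act h z) ∧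
      (∀ k k', ¬Sp a b k k' → |(h.1 - 1) k k'| ≤ 1 / ((r : ℝ) + 1)) ∧ (∀ k k', |h.1 k k'| ≤ 4) ∧
      ∃ k k', Sp a b k k' ∧ c ≤ |h.1 k k'| := by
    intro r
    obtain ⟨g, hg, hg'⟩ :=
      (hn.and_eventually (hd (2 * J + 1) (1 / ((r : ℝ) + 1)) (by positivity))).exists
    push Not at hg
    obtain ⟨x, hx, hy, he, hnc⟩ := hg
    obtain ⟨M, l, Bad, b1, b2, b3, b4, b5⟩ := hg' hnc
    obtain ⟨m, hm, hmB, s, s1, s2, s3, s4, s5⟩ := hY' x hx _ hy he M l Bad (by omega) b3 b4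
    rw [act_sh a b g m s x] at s4 s5
    refine ⟨_, sh a b g m s, s3, s4, ?_, b5 m hm hmB s s1 s2⟩
    funext q
    simp only [LW.fm]
    rw [s5]
  choose z h k1 k2 k3 k4 k5 k6 using key
  obtain ⟨x, hx, g, hy, he, g1, k, k', g2, g3⟩ := lec_lim hK hKc z h k1 k2 k3 k4 k5 k6
  have e := hTT.sp hab (hKA hx).2.1 (hKA hy).2.1 g1
    fun j ja jb => ⟨fun _ => (hT j ja jb).1, fun _ => (hT j ja jb).2⟩
  have hs : g.1 a b ≠ 0 := by
    intro h0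
    rw [h0, tv_zero] at e
    rw [e] at g3
    have : (1 : G n).1 k k' = 0 := Matrix.one_apply_ne g2.1
    rw [this, abs_zero] at g3
    exact hc.not_ge g3
  have h3 := L.fm_ext (hKA hx).1 he
  have h4 := (hKA hy).1
  rw [e] at h3 h4
  have h5 := L.cons x (hKA hx).1 _ h4
  rw [← h3] at h5
  exact (hKA hx).2.2 ⟨_, hs, _, h5.symm⟩

end Vale.Agent.P007
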