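import Vale.Agent.P007B.Besi
import Vale.Agent.P007B.LWc

/-! The leafwise maximal inequality. -/

namespace Vale.Agent.P007

open Matrix MeasureTheory ProbabilityTheory Set Filter Topology
open scoped ENNReal

variable {n : ℕ}

theorem lmax_fin {m : Measure ℝ} {C : ℝ≥0∞} (hC : C ≠ ∞)
    (h : ∀ N : ℕ, m (Icc (-(N : ℝ)) N) ≤ C * (N + 1) ^ 3) {r : ℝ} (hr : 0 < r) :
    ∫⁻ s, ENNReal.ofReal (Real.exp (-r * |s|)) ∂m ≠ ∞ := by
  set a : ℕ → ℝ := fun N => Real.exp (2 * r) * Real.exp (-r * ((N + 1 : ℕ) : ℝ)) with ha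
  have h1 : ∀ s : ℝ, ENNReal.ofReal (Real.exp (-r * |s|)) ≤
      ∑' N : ℕ, (Icc (-(N : ℝ)) N).indicator (fun _ => ENNReal.ofReal (a N)) s := fun s => by
    refine le_trans ?_ (ENNReal.le_tsum ⌈|s|⌉₊)
    rw [indicator_of_mem (mem_Icc.2 (abs_le.1 (Nat.le_ceil |s|)))]
    refine ENNReal.ofReal_le_ofReal ?_
    simp only [ha]
    rw [← Real.exp_add, Real.exp_le_exp]
    have := Nat.ceil_lt_add_one (abs_nonneg s)
    push_cast
    nlinarith
  have h2 : Summable fun N : ℕ => a N * ((N + 1 : ℕ) : ℝ) ^ 3 := by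
    have := ((summable_nat_add_iff 1).2 (Real.summable_pow_mul_exp_neg_nat_mul 3 hr)).mul_left
      (Real.exp (2 * r))
    refine this.congr fun N => ?_
    simp only [ha]; ring
  refine ne_top_of_le_ne_top (ENNReal.mul_ne_top hC h2.tsum_ofReal_ne_top) ?_
  refine (lintegral_mono h1).trans ?_
  rw [lintegral_tsum fun N => (measurable_const.indicator measurableSet_Icc).aemeasurable,
    ← ENNReal.tsum_mul_left]
  refine ENNReal.tsum_le_tsum fun N => ?_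
  rw [lintegral_indicator_const measurableSet_Icc, ENNReal.ofReal_mul (p := a N) (by positivity),
    ENNReal.ofReal_pow (by positivity), ENNReal.ofReal_natCast, mul_left_comm]
  gcongr
  exact_mod_cast h N

theorem lmax_rep {μ : Measure (X n)} {i j : Fin n} (L : LW μ i j) {ψ : ℝ → ℝ≥0∞}
    (mψ : Measurable ψ) (h0 : ∀ s, ψ s ≠ 0) (h1 : ∀ᵐ x ∂μ, ∫⁻ s, ψ s ∂L.ν x ≠ ∞)
    {S : Set (X n)} (hS : MeasurableSet S) :
    μ S = ∫⁻ x, ∫⁻ s in {s | act (tv i j s) x ∈ S},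
      ψ (-s) * (∫⁻ t, ψ (t - s) ∂L.ν x)⁻¹ ∂L.ν x ∂μ := by
  have := L.sf
  set Z : X n → ℝ≥0∞ := fun x => ∫⁻ s, ψ s ∂L.ν x with hZ
  have mZ : Measurable Z := mψ.lintegral_kernel
  have e := L.mt (fun x s => S.indicator 1 x * (Z x)⁻¹ * ψ s)
    ((((measurable_one.indicator hS).mul mZ.inv).comp measurable_fst).mul
      (mψ.comp measurable_snd))
  have g1 : ∀ᵐ x ∂μ, x ∈ L.X' ∧ Z x ≠ ∞ := L.co.ae.and h1
  rw [← lintegral_indicator_one hS]
  refine Eq.trans (lintegral_congr_ae ?_) (e.trans (lintegral_congr_ae ?_))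
  · filter_upwards [g1] with x hx
    have z0 : Z x ≠ 0 := fun hz => by
      have h2 : ∀ᵐ s ∂L.ν x, False := by
        filter_upwards [(lintegral_eq_zero_iff mψ).1 hz] with s hs using h0 s hs
      have h3 := L.norm x hx.1
      rw [ae_eq_bot.1 (eventually_false_iff_eq_bot.1 h2)] at h3
      exact zero_ne_one h3
    rw [lintegral_const_mul _ mψ, mul_assoc, ENNReal.inv_mul_cancel z0 hx.2, mul_one]
  · filter_upwards [g1, L.null (ae_iff.1 g1)] with x hx hx'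
    have mS : MeasurableSet {s | act (tv i j s) x ∈ S} :=
      (act_tv_meas i j).comp measurable_prodMk_left hS
    rw [← lintegral_indicator mS]
    refine lintegral_congr_ae ?_
    filter_upwards [hx'] with s hs
    have hs' : act (tv i j s) x ∈ L.X' ∧ Z (act (tv i j s) x) ≠ ∞ := not_not.1 hs
    by_cases h : act (tv i j s) x ∈ S
    · rw [indicator_of_mem h, indicator_of_mem (show s ∈ {s | act (tv i j s) x ∈ S} from h),
        ← lintegral_map mψ (measurable_sub_const s), ← L.cons x hx.1 s hs'.1, lintegral_smul_measure,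
        smul_eq_mul, ENNReal.mul_inv (Or.inr hs'.2) (Or.inl (L.fin x hx.1 _ _)), div_eq_mul_inv,
        Pi.one_apply]
      ring
    · rw [indicator_of_notMem h,
        indicator_of_notMem (show s ∉ {s | act (tv i j s) x ∈ S} from h)]
      simp

theorem lmax_ratio {ψ : ℝ → ℝ≥0∞} {E : ℝ≥0∞} (E0 : E ≠ 0) (E1 : E ≠ ∞) {R : ℝ}
    (h : ∀ a b, |a - b| ≤ R → ψ a ≤ E * ψ b) (m : Measure ℝ) {s s' : ℝ} (hs : |s - s'| ≤ R) :
    ψ (-s) * (∫⁻ t, ψ (t - s) ∂m)⁻¹ ≤ E * E * (ψ (-s') * (∫⁻ t, ψ (t - s') ∂m)⁻¹) := by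
  have h1 : ψ (-s) ≤ E * ψ (-s') := h _ _ (by rwa [neg_sub_neg, abs_sub_comm])
  have h2 : ∫⁻ t, ψ (t - s') ∂m ≤ E * ∫⁻ t, ψ (t - s) ∂m := by
    rw [← lintegral_const_mul' _ _ E1]
    exact lintegral_mono fun t => h _ _ (by rwa [sub_sub_sub_cancel_left])
  have h3 : (∫⁻ t, ψ (t - s) ∂m)⁻¹ ≤ E * (∫⁻ t, ψ (t - s') ∂m)⁻¹ := by
    have := ENNReal.inv_le_inv.2 h2
    rw [ENNReal.mul_inv (Or.inl E0) (Or.inl E1)] at this
    calc _ = E * (E⁻¹ * (∫⁻ t, ψ (t - s) ∂m)⁻¹) := by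
          rw [← mul_assoc, ENNReal.mul_inv_cancel E0 E1, one_mul]
      _ ≤ _ := by gcongr
  calc _ ≤ E * ψ (-s') * (E * (∫⁻ t, ψ (t - s') ∂m)⁻¹) := mul_le_mul' h1 h3
    _ = _ := by ring

theorem lmax : ∃ C : ℝ≥0∞, C ≠ ∞ ∧ ∀ (n : ℕ) (μ : Measure (X n)) [IsFiniteMeasure μ]
    (i j : Fin n) (L : LW μ i j) (N : Set (X n)) (ε : ℝ≥0∞), MeasurableSet N →
    ∃ Y, MeasurableSet Y ∧ ε * μ Yᶜ ≤ C * μ N ∧ ∀ x ∈ Y, ∀ l : ℕ,
      L.ν x ({s | act (tv i j s) x ∈ N} ∩ Icc (-Real.exp (2 * l)) (Real.exp (2 * l))) ≤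
        ε * L.ν x (Icc (-Real.exp (2 * l)) (Real.exp (2 * l))) := by
  obtain ⟨C, hC, hb⟩ := besi
  set E := ENNReal.ofReal (Real.exp 2) with hE
  have E0 : E ≠ 0 := (ENNReal.ofReal_pos.2 (Real.exp_pos _)).ne'
  have E1 : E ≠ ∞ := ENNReal.ofReal_ne_top
  have C1 : C * (E * E) ≠ ∞ := ENNReal.mul_ne_top hC (ENNReal.mul_ne_top E1 E1)
  refine ⟨_, C1, fun n μ _ i j L N ε hN => ?_⟩
  have := L.sf
  set B : ℕ → Set (X n) := fun l => {x | ε * L.ν x (Icc (-Real.exp (2 * l)) (Real.exp (2 * l))) <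
    L.ν x ({s | act (tv i j s) x ∈ N} ∩ Icc (-Real.exp (2 * l)) (Real.exp (2 * l)))} with hB
  have mB : ∀ l, MeasurableSet (B l) := fun l =>
    measurableSet_lt ((L.ν.measurable_coe measurableSet_Icc).const_mul _)
      (Kernel.measurable_kernel_prodMk_left (κ := L.ν)
        ((act_tv_meas i j hN).inter (measurable_snd measurableSet_Icc)))
  refine ⟨(⋃ l, B l)ᶜ, (MeasurableSet.iUnion mB).compl, ?_, fun x hx l =>
    not_lt.1 fun h => hx (mem_iUnion.2 ⟨l, h⟩)⟩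
  rw [compl_compl, measure_iUnion_eq_iSup_accumulate, ENNReal.mul_iSup]
  refine iSup_le fun l0 => ?_
  have mA : MeasurableSet (accumulate B l0) :=
    MeasurableSet.biUnion (to_countable _) fun l _ => mB l
  set R := Real.exp (2 * l0) with hR
  have R0 : 0 < R := Real.exp_pos _
  set ψ : ℝ → ℝ≥0∞ := fun s => ENNReal.ofReal (Real.exp (-R⁻¹ * |s|)) with hψ
  have mψ : Measurable ψ := by fun_prop
  have ψ0 : ∀ s, ψ s ≠ 0 := fun s => (ENNReal.ofReal_pos.2 (Real.exp_pos _)).ne'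
  have ψ1 : ∀ᵐ x ∂μ, ∫⁻ s, ψ s ∂L.ν x ≠ ∞ := by
    filter_upwards [L.growth] with x ⟨C', h1, h2⟩ using lmax_fin h1 h2 (inv_pos.2 R0)
  have ψ2 : ∀ a b, |a - b| ≤ 2 * R → ψ a ≤ E * ψ b := fun a b h => by
    rw [hE, ← ENNReal.ofReal_mul (Real.exp_pos _).le, ← Real.exp_add]
    refine ENNReal.ofReal_le_ofReal (Real.exp_le_exp.2 ?_)
    have h1 := abs_sub_abs_le_abs_sub b a
    rw [abs_sub_comm] at h1
    have h2 := mul_le_mul_of_nonneg_left (h1.trans h) (inv_pos.2 R0).le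
    rw [mul_left_comm, inv_mul_cancel₀ R0.ne'] at h2
    linarith
  rw [← measure_inter_conull L.co.2, lmax_rep L mψ ψ0 ψ1 (mA.inter L.co.1),
    lmax_rep L mψ ψ0 ψ1 hN, ← lintegral_const_mul' _ _ C1]
  refine (lintegral_const_mul_le _ _).trans (lintegral_mono_ae ?_)
  filter_upwards [L.co.ae] with x hx
  have mN : ∀ y : X n, MeasurableSet {s | act (tv i j s) y ∈ N} := fun y =>
    (act_tv_meas i j).comp measurable_prodMk_left hN
  have mW : Measurable fun s => ∫⁻ t, ψ (t - s) ∂L.ν x :=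
    Measurable.lintegral_prod_right (mψ.comp (measurable_snd.sub measurable_fst))
  refine hb (L.ν x) R _ _ _ (E * E) ε (mN x) ((mψ.comp measurable_neg).mul mW.inv)
    (fun s s' h => lmax_ratio E0 E1 ψ2 _ h) fun s hs => ?_
  obtain ⟨l, hl, h⟩ := mem_accumulate.1 hs.1
  refine ⟨Real.exp (2 * l), Real.exp_pos _, Real.exp_le_exp.2 (by gcongr), ?_⟩
  have c := L.cons x hx s hs.2
  have c1 := congrArg (fun m : Measure ℝ => m (Icc (-Real.exp (2 * l)) (Real.exp (2 * l)))) c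
  have c2 := congrArg (fun m : Measure ℝ => m ({t | act (tv i j t) (act (tv i j s) x) ∈ N} ∩
    Icc (-Real.exp (2 * l)) (Real.exp (2 * l)))) c
  have p1 : (fun t => t - s) ⁻¹' Icc (-Real.exp (2 * l)) (Real.exp (2 * l)) =
      Icc (s - Real.exp (2 * l)) (s + Real.exp (2 * l)) := by
    rw [preimage_sub_const_Icc]; congr 1 <;> ring
  have p2 : (fun t => t - s) ⁻¹' {t | act (tv i j t) (act (tv i j s) x) ∈ N} =
      {t | act (tv i j t) x ∈ N} := by
    ext t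
    simp only [mem_preimage, mem_ofPred_eq, ← act_mul, ← tv_add, add_sub_cancel]
  simp only [Measure.smul_apply, smul_eq_mul] at c1 c2
  rw [Measure.map_apply (measurable_sub_const s) measurableSet_Icc, p1] at c1
  rw [Measure.map_apply (measurable_sub_const s) ((mN _).inter measurableSet_Icc), preimage_inter,
    p1, p2] at c2
  rw [← c1, ← c2, mul_left_comm]
  exact mul_le_mul_right (le_of_lt h) _

end Vale.Agent.P007
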