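import Vale.Agent.P007B.Bas

/-! First properties of leafwise measures. -/

namespace Vale.Agent.P007

open Matrix MeasureTheory ProbabilityTheory Set Filter Topology
open scoped ENNReal

variable {n : ℕ}

variable {μ : Measure (X n)} {i j : Fin n}

theorem LW.null (L : LW μ i j) {N : Set (X n)} (hN : μ N = 0) :
    ∀ᵐ x ∂μ, ∀ᵐ s ∂(L.ν x), act (tv i j s) x ∉ N := by
  have := L.sf
  obtain ⟨N', hNN, hm, h0⟩ := exists_measurable_superset_of_null hN
  have hF : Measurable (Function.uncurry fun (x : X n) (s : ℝ) =>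
      N'.indicator (1 : X n → ℝ≥0∞) (act (tv i j s) x)) :=
    (measurable_one.indicator hm).comp (act_tv_meas i j)
  have h := L.mt _ hF
  have hr : ∫⁻ x, ∫⁻ s, N'.indicator (1 : X n → ℝ≥0∞) (act (tv i j (-s)) (act (tv i j s) x)) /
      L.ν x (Icc (s - 1) (s + 1)) ∂(L.ν x) ∂μ = 0 := by
    refine (lintegral_congr_ae ?_).trans lintegral_zero
    filter_upwards [measure_eq_zero_iff_ae_notMem.1 h0] with x hx
    refine (lintegral_congr fun s => ?_).trans lintegral_zero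
    rw [← act_mul, ← tv_add, add_neg_cancel, tv_zero, act_one, indicator_of_notMem hx,
      ENNReal.zero_div]
  rw [hr, lintegral_eq_zero_iff hF.lintegral_kernel_prod_right] at h
  filter_upwards [h] with x hx
  have h1 := (lintegral_eq_zero_iff (hF.comp measurable_prodMk_left)).1 hx
  filter_upwards [h1] with s hs hsN
  simp [indicator_of_mem (hNN hsN)] at hs

theorem LWb_unit (m : Measure ℝ) (a : ℝ) :
    ∫⁻ s in Icc a (a + 1), 1 / m (Icc (s - 1) (s + 1)) ∂m ≤ 1 := by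
  calc ∫⁻ s in Icc a (a + 1), 1 / m (Icc (s - 1) (s + 1)) ∂m
      ≤ ∫⁻ _ in Icc a (a + 1), 1 / m (Icc a (a + 1)) ∂m := by
        refine setLIntegral_mono' measurableSet_Icc fun s hs => ?_
        refine ENNReal.div_le_div_left (measure_mono (Icc_subset_Icc ?_ ?_)) _
        · linarith [hs.2]
        · linarith [hs.1]
    _ ≤ 1 := by
        rw [setLIntegral_const, one_div, mul_comm, ← div_eq_mul_inv]
        exact ENNReal.div_self_le_one

theorem LWb_int (m : Measure ℝ) (a : ℝ) (k : ℕ) :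
    ∫⁻ s in Icc a (a + k), 1 / m (Icc (s - 1) (s + 1)) ∂m ≤ k + 1 := by
  induction k with
  | zero =>
    refine le_trans (lintegral_mono_set (Icc_subset_Icc le_rfl ?_)) ((LWb_unit m a).trans ?_) <;>
      simp
  | succ k ih =>
    have hs : Icc a (a + (k + 1 : ℕ)) ⊆ Icc a (a + k) ∪ Icc (a + k) (a + k + 1) := by
      rw [Nat.cast_succ, ← add_assoc]
      exact Icc_subset_Icc_union_Icc
    refine (lintegral_mono_set hs).trans ((lintegral_union_le _ _ _).trans ?_)
    rw [Nat.cast_succ]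
    exact add_le_add ih (LWb_unit m _)

theorem LWb_mean (L : LW μ i j) (N : ℕ) :
    ∫⁻ x, L.ν x (Icc (-(N : ℝ)) N) ∂μ ≤ (2 * N + 1) * μ univ := by
  have hF : Measurable (Function.uncurry fun (_ : X n) (s : ℝ) =>
      (Icc (-(N : ℝ)) N).indicator (1 : ℝ → ℝ≥0∞) s) :=
    (measurable_one.indicator measurableSet_Icc).comp measurable_snd
  have h := L.mt _ hF
  simp only [lintegral_indicator_one measurableSet_Icc] at h
  rw [h, ← lintegral_const]
  refine lintegral_mono fun x => ?_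
  have h1 := LWb_int (L.ν x) (-(N : ℝ)) (2 * N)
  rw [← lintegral_indicator measurableSet_Icc] at h1
  refine le_trans (lintegral_mono fun s => ?_) (h1.trans (by simp))
  by_cases hs : -s ∈ Icc (-(N : ℝ)) N
  · have hs' : s ∈ Icc (-(N : ℝ)) (-(N : ℝ) + (2 * N : ℕ)) := by
      push_cast
      constructor <;> linarith [hs.1, hs.2]
    simp only [indicator_of_mem hs, indicator_of_mem hs', Pi.one_apply, le_refl]
  · simp only [indicator_of_notMem hs, ENNReal.zero_div, zero_le]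

theorem LWb_sum : ∑' N : ℕ, (2 * N + 1 : ℝ≥0∞) / (N + 1) ^ 3 ≠ ∞ := by
  have h : Summable fun N : ℕ => 2 * (((N + 1 : ℕ) : ℝ) ^ 2)⁻¹ :=
    ((summable_nat_add_iff 1).2 (Real.summable_nat_pow_inv.2 one_lt_two)).mul_left 2
  refine ne_top_of_le_ne_top h.tsum_ofReal_ne_top (ENNReal.tsum_le_tsum fun N => ?_)
  have e : (2 * N + 1 : ℝ≥0∞) / (N + 1) ^ 3 = ENNReal.ofReal ((2 * N + 1) / (N + 1) ^ 3) := by
    rw [ENNReal.ofReal_div_of_pos (by positivity), ENNReal.ofReal_pow (by positivity),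
      ENNReal.ofReal_add (by positivity) zero_le_one, ENNReal.ofReal_add (by positivity) zero_le_one,
      ENNReal.ofReal_mul zero_le_two]
    simp
  rw [e]
  refine ENNReal.ofReal_le_ofReal ?_
  push_cast
  rw [← div_eq_mul_inv, div_le_div_iff₀ (by positivity) (by positivity)]
  have : (0 : ℝ) ≤ (N + 1) ^ 2 := by positivity
  nlinarith

theorem LW.growth [IsFiniteMeasure μ] (L : LW μ i j) :
    ∀ᵐ x ∂μ, ∃ C : ℝ≥0∞, C ≠ ∞ ∧ ∀ N : ℕ, L.ν x (Icc (-(N : ℝ)) N) ≤ C * (N + 1) ^ 3 := by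
  have hm : ∀ N : ℕ, Measurable fun x => L.ν x (Icc (-(N : ℝ)) N) / (N + 1) ^ 3 := fun N =>
    (L.ν.measurable_coe measurableSet_Icc).div_const _
  have h0 : ∀ N : ℕ, ((N : ℝ≥0∞) + 1) ^ 3 ≠ 0 := fun N => by simp
  have h1 : ∀ N : ℕ, ((N : ℝ≥0∞) + 1) ^ 3 ≠ ∞ := fun N => by simp
  have hi : ∫⁻ x, ∑' N : ℕ, L.ν x (Icc (-(N : ℝ)) N) / (N + 1) ^ 3 ∂μ ≠ ∞ := by
    rw [lintegral_tsum fun N => (hm N).aemeasurable]
    refine ne_top_of_le_ne_top (ENNReal.mul_ne_top LWb_sum (measure_ne_top μ univ)) ?_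
    rw [← ENNReal.tsum_mul_right]
    refine ENNReal.tsum_le_tsum fun N => ?_
    simp only [div_eq_mul_inv]
    rw [lintegral_mul_const _ (L.ν.measurable_coe measurableSet_Icc), mul_right_comm]
    exact mul_le_mul_left (LWb_mean L N) _
  filter_upwards [ae_lt_top (Measurable.tsum hm) hi] with x hx
  refine ⟨_, hx.ne, fun N => ?_⟩
  rw [← ENNReal.div_le_iff (h0 N) (h1 N)]
  exact ENNReal.le_tsum (f := fun N : ℕ => L.ν x (Icc (-(N : ℝ)) N) / (N + 1) ^ 3) N

theorem LW.locfin (L : LW μ i j) {x : X n} (hx : x ∈ L.X') : IsLocallyFiniteMeasure (L.ν x) :=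
  ⟨fun a => ⟨Icc (a - 1) (a + 1), Icc_mem_nhds (by linarith) (by linarith),
    (L.fin x hx _ _).lt_top⟩⟩

theorem LW.fm_meas (L : LW μ i j) : Measurable L.fm :=
  measurable_pi_lambda _ fun _ => L.ν.measurable_coe measurableSet_Ioo

theorem LW.fm_ext (L : LW μ i j) {x y : X n} (hx : x ∈ L.X') (h : L.fm x = L.fm y) :
    L.ν x = L.ν y := by
  have := L.locfin hx
  exact Real.measure_ext_Ioo_rat fun a b => congrFun h (a, b)

theorem LW.fix (hA : AI μ) (L : LW μ i j) {t : Fin n → ℝ} (ht : t i = t j) :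
    ∀ᵐ x ∂μ, L.ν (act (dg t) x) = L.ν x := by
  filter_upwards [L.equiv t, L.co.ae, (Stab.mp (hA t)).quasiMeasurePreserving.ae L.co.ae] with
    x ⟨c, _, _, hc⟩ h1 h2
  simp only [ht, sub_self, Real.exp_zero, mul_one, Measure.map_id'] at hc
  have h3 := L.norm _ h2
  rw [hc, Measure.smul_apply, L.norm x h1, smul_eq_mul, mul_one] at h3
  rw [hc, h3, one_smul]

end Vale.Agent.P007
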