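import Vale.Agent.P007B.Sec

/-! Lifting measures to the group. -/

namespace Vale.Agent.P007

open Matrix MeasureTheory ProbabilityTheory Set Filter Topology
open scoped ENNReal

variable {n : ℕ}

variable {σ : X n → G n} {μ : Measure (X n)}

theorem lift_meas_left (γ : G n) : Measurable fun g : G n => γ * g :=
  (continuous_const.mul continuous_id).measurable

theorem lift_meas_right (a : G n) : Measurable fun g : G n => g * a :=
  (continuous_id.mul continuous_const).measurable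

theorem lift_meas_sec (hσ : IsSec σ) (γ : G n) : Measurable fun x => γ * σ x :=
  (lift_meas_left γ).comp hσ.meas

theorem lift_tsum_shift (F : G n → ℝ≥0∞) (δ : Gam n) (g : G n) :
    ∑' γ : Gam n, F (γ * (δ * g)) = ∑' γ : Gam n, F (γ * g) := by
  rw [← (Equiv.mulRight δ).tsum_eq fun γ : Gam n => F (γ * g)]
  simp only [Equiv.coe_mulRight, Subgroup.coe_mul, mul_assoc]

theorem lift_meas_bar (hσ : IsSec σ) {F : G n → ℝ≥0∞} (hF : Measurable F) :
    Measurable fun x => ∑' γ : Gam n, F (γ * σ x) :=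
  Measurable.tsum fun γ => hF.comp (lift_meas_sec hσ (γ : G n))

theorem lintegral_lift (hσ : IsSec σ) {F : G n → ℝ≥0∞} (hF : Measurable F) :
    ∫⁻ g, F g ∂lift σ μ = ∫⁻ x, ∑' γ : Gam n, F (γ * σ x) ∂μ := by
  have hm : ∀ γ : Gam n, Measurable fun x => (γ : G n) * σ x := fun γ =>
    lift_meas_sec hσ (γ : G n)
  rw [lift, lintegral_sum_measure,
    lintegral_tsum (f := fun (γ : Gam n) x => F (γ * σ x)) fun γ => (hF.comp (hm γ)).aemeasurable]
  exact tsum_congr fun γ => lintegral_map hF (hm γ)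

/-- the sum over a fibre does not depend on the representative -/
theorem tsum_fib (hσ : IsSec σ) (F : G n → ℝ≥0∞) (g : G n) :
    ∑' γ : Gam n, F (γ * σ (mk g)) = ∑' γ : Gam n, F (γ * g) := by
  obtain ⟨δ, hδ⟩ := mk_eq_iff.1 (hσ.mk_sec (mk g))
  rw [hδ, lift_tsum_shift]

theorem lift_left (hσ : IsSec σ) (γ : Gam n) :
    (lift σ μ).map (fun g => (γ : G n) * g) = lift σ μ := by
  refine Measure.ext_of_lintegral _ fun F hF => ?_
  rw [lintegral_map hF (lift_meas_left _), lintegral_lift hσ hF,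
    lintegral_lift hσ (F := fun g => F (γ * g)) (hF.comp (lift_meas_left _))]
  refine lintegral_congr fun x => ?_
  rw [← (Equiv.mulLeft γ).tsum_eq fun δ : Gam n => F (δ * σ x)]
  simp only [Equiv.coe_mulLeft, Subgroup.coe_mul, mul_assoc]

theorem lift_right (hσ : IsSec σ) {a : G n} (ha : a ∈ Stab μ) :
    (lift σ μ).map (fun g => g * a) = lift σ μ := by
  refine Measure.ext_of_lintegral _ fun F hF => ?_
  rw [lintegral_map hF (lift_meas_right _), lintegral_lift hσ hF,
    lintegral_lift hσ (F := fun g => F (g * a)) (hF.comp (lift_meas_right _)),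
    ← (Stab.mp ha).lintegral_comp (lift_meas_bar hσ hF)]
  refine lintegral_congr fun x => ?_
  have e : act a x = mk (σ x * a) := by rw [← act_mk, hσ.mk_sec]
  rw [e, tsum_fib hσ]
  simp only [mul_assoc]

theorem lift_apply (hσ : IsSec σ) {A : Set (G n)} (hA : MeasurableSet A) :
    lift σ μ A = ∫⁻ x, ∑' γ : Gam n, A.indicator (1 : G n → ℝ≥0∞) (γ * σ x) ∂μ := by
  rw [← lintegral_indicator_one hA, lintegral_lift hσ (measurable_one.indicator hA)]

theorem lift_count {K : Set (G n)} (hK : IsCompact K) : ∃ N : ℝ≥0∞, N ≠ ∞ ∧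
    ∀ g : G n, ∑' γ : Gam n, K.indicator (1 : G n → ℝ≥0∞) (γ * g) ≤ N := by
  classical
  have hc : IsCompact ((fun p : G n × G n => p.1 * p.2⁻¹) '' (K ×ˢ K)) :=
    (hK.prod hK).image (continuous_fst.mul continuous_snd.inv)
  have hS := Gam.fin hc
  refine ⟨hS.toFinset.card, ENNReal.natCast_ne_top _, fun g => ?_⟩
  by_cases h : ∃ δ : Gam n, (δ : G n) * g ∈ K
  · obtain ⟨δ, hδ⟩ := h
    rw [← lift_tsum_shift _ δ, tsum_eq_sum (s := hS.toFinset)]
    · refine (Finset.sum_le_card_nsmul _ _ 1 fun γ _ => ?_).trans (by simp)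
      exact indicator_apply_le' (fun _ => le_rfl) fun _ => zero_le_one
    · intro γ hγ
      refine indicator_of_notMem (fun hk => hγ ?_) _
      rw [Set.Finite.mem_toFinset]
      exact ⟨(γ * (δ * g), δ * g), ⟨hk, hδ⟩, mul_inv_cancel_right _ _⟩
  · push Not at h
    simp only [indicator_of_notMem (h _), tsum_zero]
    exact zero_le

theorem lift_fin (hσ : IsSec σ) [IsFiniteMeasure μ] : IsFiniteMeasureOnCompacts (lift σ μ) := by
  refine ⟨fun K hK => ?_⟩
  obtain ⟨N, hN, h⟩ := lift_count hK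
  rw [lift_apply hσ hK.measurableSet]
  refine (lintegral_mono fun x => h (σ x)).trans_lt ?_
  rw [lintegral_const]
  exact ENNReal.mul_lt_top hN.lt_top (measure_lt_top _ _)

theorem lift_sigma (hσ : IsSec σ) [IsFiniteMeasure μ] : SigmaFinite (lift σ μ) := by
  have := lift_fin (μ := μ) hσ
  infer_instance

theorem ae_lift (hσ : IsSec σ) {p : G n → Prop} (h : ∀ᵐ g ∂lift σ μ, p g) :
    ∀ᵐ x ∂μ, ∀ γ : Gam n, p (γ * σ x) := by
  rw [lift, Measure.ae_sum_iff] at h
  exact ae_all_iff.2 fun γ =>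
    ae_of_ae_map (lift_meas_sec hσ (γ : G n)).aemeasurable (h γ)

theorem le_lift (hσ : IsSec σ) {A : Set (G n)} (hA : MeasurableSet A) :
    μ (mk '' A) ≤ lift σ μ A := by
  have hm := lift_meas_bar hσ (F := A.indicator 1) (measurable_one.indicator hA)
  rw [lift_apply hσ hA]
  refine le_trans (measure_mono ?_) (meas_le_lintegral₀ hm.aemeasurable (fun x hx => hx)
    (s := {x | 1 ≤ ∑' γ : Gam n, A.indicator (1 : G n → ℝ≥0∞) (γ * σ x)}))
  rintro _ ⟨g, hg, rfl⟩
  show 1 ≤ ∑' γ : Gam n, A.indicator (1 : G n → ℝ≥0∞) (γ * σ (mk g))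
  rw [tsum_fib hσ]
  refine le_trans ?_ (ENNReal.le_tsum (1 : Gam n))
  rw [OneMemClass.coe_one, one_mul, indicator_of_mem hg, Pi.one_apply]

theorem fd_meas (hσ : IsSec σ) : MeasurableSet {g : G n | σ (mk g) = g} :=
  measurableSet_eq_fun (hσ.meas.comp mk_meas) measurable_id

theorem lift_mem_fd (hσ : IsSec σ) (x : X n) (γ : Gam n) :
    (γ : G n) * σ x ∈ {h : G n | σ (mk h) = h} ↔ γ = 1 := by
  have e : mk ((γ : G n) * σ x) = x := (mk_eq_iff.2 ⟨γ, rfl⟩).trans (hσ.mk_sec x)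
  show σ (mk ((γ : G n) * σ x)) = γ * σ x ↔ γ = 1
  rw [e, right_eq_mul, OneMemClass.coe_eq_one]

theorem lift_tsum_fd (hσ : IsSec σ) (F : G n → ℝ≥0∞) (x : X n) :
    ∑' γ : Gam n, {h : G n | σ (mk h) = h}.indicator F (γ * σ x) = F (σ x) := by
  rw [tsum_eq_single 1 fun γ hγ => indicator_of_notMem (fun h => hγ ((lift_mem_fd hσ x γ).1 h)) _,
    indicator_of_mem ((lift_mem_fd hσ x 1).2 rfl), OneMemClass.coe_one, one_mul]

theorem fd_sum (hσ : IsSec σ) (g : G n) :
    ∑' γ : Gam n, {h : G n | σ (mk h) = h}.indicator (1 : G n → ℝ≥0∞) (γ * g) = 1 := by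
  rw [← tsum_fib hσ, lift_tsum_fd hσ, Pi.one_apply]

theorem lintegral_fd (hσ : IsSec σ) {F : G n → ℝ≥0∞} (hF : Measurable F) :
    ∫⁻ g in {h : G n | σ (mk h) = h}, F g ∂lift σ μ = ∫⁻ x, F (σ x) ∂μ := by
  rw [← lintegral_indicator (fd_meas hσ), lintegral_lift hσ (hF.indicator (fd_meas hσ))]
  exact lintegral_congr (lift_tsum_fd hσ F)

end Vale.Agent.P007
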