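import Vale.Agent.P007B.DisB
import Vale.Agent.P007B.Lift

/-! Existence of leafwise measures. -/

namespace Vale.Agent.P007

open Matrix MeasureTheory ProbabilityTheory Set Filter Topology
open scoped ENNReal

variable {n : ℕ}

theorem lwex_ent (k l : Fin n) : Continuous fun g : G n => g.1 k l :=
  continuous_subtype_val.matrix_elem k l

theorem exists_fl {i j : Fin n} (hij : i ≠ j) :
    ∃ τ : G n → ℝ, Fl (fun s (g : G n) => g * tv i j s) τ := by
  refine ⟨fun g => (∑ k, g.1 k i * g.1 k j) / ∑ k, g.1 k i * g.1 k i,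
    (continuous_fst.mul ((tv_cont i j).comp continuous_snd)).measurable,
    fun y => by rw [tv_zero, mul_one], fun a b y => by rw [mul_assoc, ← tv_add, add_comm],
    (continuous_finsetSum _ fun k _ => (lwex_ent k i).mul (lwex_ent k j)).measurable.div
      (continuous_finsetSum _ fun k _ => (lwex_ent k i).mul (lwex_ent k i)).measurable,
    fun r g => ?_⟩
  have h0 : ∑ k, g.1 k i * g.1 k i ≠ 0 := fun h => by
    rw [Finset.sum_eq_zero_iff_of_nonneg fun k _ => mul_self_nonneg _] at h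
    have h1 := det_eq_zero_of_column_eq_zero (A := g.1) i
      fun k => mul_self_eq_zero.1 (h k (Finset.mem_univ _))
    rw [g.2] at h1
    exact one_ne_zero h1
  simp only [mul_tv_apply hij, if_neg hij, if_true, add_zero, mul_add, Finset.sum_add_distrib]
  rw [add_div, Finset.sum_congr rfl fun k _ => mul_left_comm (g.1 k i) r (g.1 k i),
    ← Finset.mul_sum, mul_div_assoc, div_self h0, mul_one]

/-- proportional measures -/
def LwP (m m' : Measure ℝ) : Prop := ∃ c : ℝ≥0∞, c ≠ 0 ∧ c ≠ ∞ ∧ m = c • m'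

theorem LwP.symm {m m' : Measure ℝ} (h : LwP m m') : LwP m' m := by
  obtain ⟨c, h0, h1, rfl⟩ := h
  exact ⟨c⁻¹, ENNReal.inv_ne_zero.2 h1, ENNReal.inv_ne_top.2 h0, by
    rw [smul_smul, ENNReal.inv_mul_cancel h0 h1, one_smul]⟩

theorem LwP.trans {m m' m'' : Measure ℝ} (h : LwP m m') (h' : LwP m' m'') : LwP m m'' := by
  obtain ⟨c, h0, h1, rfl⟩ := h
  obtain ⟨d, h2, h3, rfl⟩ := h'
  exact ⟨c * d, mul_ne_zero h0 h2, ENNReal.mul_ne_top h1 h3, smul_smul _ _ _⟩

theorem LwP.map {m m' : Measure ℝ} (h : LwP m m') (f : ℝ → ℝ) : LwP (m.map f) (m'.map f) := by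
  obtain ⟨c, h0, h1, rfl⟩ := h
  exact ⟨c, h0, h1, Measure.map_smul _ _ _⟩

/-- the normalisation of a measure -/
noncomputable def lwN (m : Measure ℝ) : Measure ℝ := (m (Icc (-1) 1))⁻¹ • m

theorem LwP.lwN_eq {m m' : Measure ℝ} (h : LwP m m') : lwN m = lwN m' := by
  obtain ⟨c, h0, h1, rfl⟩ := h
  rw [lwN, lwN, smul_smul, Measure.smul_apply, smul_eq_mul,
    ENNReal.mul_inv (Or.inl h0) (Or.inl h1), mul_right_comm, ENNReal.inv_mul_cancel h0 h1, one_mul]

theorem lwN_P {m : Measure ℝ} (h0 : m (Icc (-1) 1) ≠ 0) (h1 : m (Icc (-1) 1) ≠ ∞) :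
    LwP (lwN m) m := ⟨_, ENNReal.inv_ne_zero.2 h1, ENNReal.inv_ne_top.2 h0, rfl⟩

theorem lwex_map (m : Measure ℝ) (s : ℝ) :
    m.map (· - s) (Icc (-1) 1) = m (Icc (s - 1) (s + 1)) := by
  rw [Measure.map_apply (measurable_sub_const s) measurableSet_Icc]
  refine congrArg m (Set.ext fun r => ?_)
  simp only [mem_preimage, mem_Icc]
  constructor <;> rintro ⟨h1, h2⟩ <;> constructor <;> linarith

theorem lwex_pos (m : Measure ℝ) : ∀ᵐ r ∂m, m (Icc (r - 1) (r + 1)) ≠ 0 := by
  refine measure_null_of_locally_null _ fun r hr => ⟨Icc (r - 1) (r + 1),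
    mem_nhdsWithin_of_mem_nhds (Icc_mem_nhds (by linarith) (by linarith)), not_not.1 hr⟩

theorem lwex_good {i j : Fin n} {τ : G n → ℝ} (h : Fl (fun s (g : G n) => g * tv i j s) τ)
    {σ : X n → G n} (hσ : IsSec σ) {μ : Measure (X n)} [IsFiniteMeasure μ]
    (L : LS (fun s (g : G n) => g * tv i j s) (lift σ μ)) :
    ∀ᵐ g ∂lift σ μ, (∀ a b, L.m g (Icc a b) ≠ ∞) ∧ L.m g (Icc (-1) 1) ≠ 0 ∧
      ∀ γ : Gam n, LwP (L.m (γ * g)) (L.m g) := by
  have := lift_sigma hσ (μ := μ)
  have := lift_fin hσ (μ := μ)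
  let K := CompactExhaustion.choice (G n)
  have h1 := ae_all_iff.2 fun k : ℕ => L.fin h (K.isCompact k).measurableSet
    (K.isCompact k).measure_ne_top
  have h2 := ae_all_iff.2 fun γ : Gam n => L.equiv h (MeasurableEquiv.mulLeft (γ : G n))
    (lift_left hσ γ) one_ne_zero fun r y => by
      rw [mul_one]
      exact (mul_assoc _ _ _).symm
  filter_upwards [h1, h2, L.pos h] with g k1 k2 k3
  refine ⟨fun a b => ?_, k3, fun γ => ?_⟩
  · obtain ⟨k, hk⟩ := K.exists_superset_of_isCompact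
      ((isCompact_Icc (a := a) (b := b)).image (continuous_const.mul (tv_cont i j) :
        Continuous fun s => g * tv i j s))
    exact ne_top_of_le_ne_top (k1 k) (measure_mono fun r hr => hk ⟨r, hr, rfl⟩)
  · simpa only [LwP, mul_one, Measure.map_id', MeasurableEquiv.coe_mulLeft] using k2 γ

theorem exists_lw (μ : Measure (X n)) [IsFiniteMeasure μ] (hA : AI μ) {i j : Fin n} (hij : i ≠ j) :
    Nonempty (LW μ i j) := by
  obtain ⟨σ, hσ⟩ := exists_sec n
  obtain ⟨τ, h⟩ := exists_fl hij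
  have := lift_sigma hσ (μ := μ)
  obtain ⟨L⟩ := LS.exists h (lift σ μ)
  have := L.sf
  obtain ⟨Y, hY, hg⟩ := Co.of_ae (ae_lift hσ (lwex_good h hσ L))
  have hg1 : ∀ x ∈ Y, (∀ a b, L.m (σ x) (Icc a b) ≠ ∞) ∧ L.m (σ x) (Icc (-1) 1) ≠ 0 ∧
      ∀ γ : Gam n, LwP (L.m (γ * σ x)) (L.m (σ x)) := fun x hx => by
    simpa only [OneMemClass.coe_one, one_mul] using hg x hx 1
  have hrep : ∀ x a, ∃ γ : Gam n, σ x * a = γ * σ (act a x) := fun x a =>
    mk_eq_iff.1 (by rw [hσ.mk_sec, ← act_mk, hσ.mk_sec])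
  set d : G n → ℝ≥0∞ := fun g => if L.m g (Icc (-1) 1) = 0 then 0 else (L.m g (Icc (-1) 1))⁻¹
    with hd
  have hw : Measurable fun g => L.m g (Icc (-1) 1) := L.m.measurable_coe measurableSet_Icc
  have hdm : Measurable d := Measurable.ite (hw (measurableSet_singleton 0)) measurable_const hw.inv
  have hdt : ∀ g, d g ≠ ∞ := fun g => by
    simp only [hd]
    split_ifs with h0
    exacts [ENNReal.zero_ne_top, ENNReal.inv_ne_top.2 h0]
  set κ : Kernel (G n) ℝ := L.m.withDensity fun g _ => d g with hκ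
  have hsf : IsSFiniteKernel κ := Kernel.IsSFiniteKernel.withDensity _ fun g _ => hdt g
  have hκ1 : ∀ g, κ g = d g • L.m g := fun g => by
    rw [hκ, Kernel.withDensity_apply (f := fun g _ => d g) _ (hdm.comp measurable_fst),
      withDensity_const]
  have hν : ∀ x ∈ Y, κ.comap σ hσ.meas x = lwN (L.m (σ x)) := fun x hx => by
    rw [Kernel.comap_apply, hκ1, hd]
    simp only [if_neg (hg1 x hx).2.1]
    rfl
  have hP : ∀ x ∈ Y, LwP (κ.comap σ hσ.meas x) (L.m (σ x)) := fun x hx =>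
    hν x hx ▸ lwN_P (hg1 x hx).2.1 ((hg1 x hx).1 _ _)
  refine ⟨⟨κ.comap σ hσ.meas, inferInstance, Y, hY, fun x hx => ?_, fun x hx a b => ?_,
    fun x hx s hs => ?_, fun t => ?_, fun F hF => ?_⟩⟩
  · rw [hν x hx]
    exact ENNReal.inv_mul_cancel (hg1 x hx).2.1 ((hg1 x hx).1 _ _)
  · rw [hν x hx]
    exact ENNReal.mul_ne_top (ENNReal.inv_ne_top.2 (hg1 x hx).2.1) ((hg1 x hx).1 _ _)
  · obtain ⟨γ, hγ⟩ := hrep x (tv i j s)
    have k1 := (hg _ hs γ).2.1
    rw [← hγ, L.cons (σ x) s, lwex_map] at k1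
    rw [hν x hx, hν _ hs, ← ((hg1 _ hs).2.2 γ).lwN_eq, ← hγ, L.cons (σ x) s, lwN, lwN, lwex_map,
      Measure.map_smul, smul_smul, Measure.smul_apply, smul_eq_mul, mul_assoc,
      ENNReal.mul_inv_cancel k1 ((hg1 x hx).1 _ _), mul_one]
  · have k1 := ae_lift hσ (L.equiv h (MeasurableEquiv.mulRight (dg t)) (lift_right hσ (hA t))
      (Real.exp_ne_zero (t j - t i)) fun r y => by
        simp only [MeasurableEquiv.coe_mulRight, mul_assoc, tv_mul_dg])
    filter_upwards [k1, hY.ae, (Stab.mp (hA t)).quasiMeasurePreserving.ae hY.ae] with x k2 hx hy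
    obtain ⟨γ, hγ⟩ := hrep x (dg t)
    have k3 : LwP (L.m (σ x * dg t)) ((L.m (σ x)).map (· * Real.exp (t j - t i))) := by
      simpa only [LwP, OneMemClass.coe_one, one_mul, MeasurableEquiv.coe_mulRight] using k2 1
    rw [hγ] at k3
    exact (hP _ hy).trans (((hg1 _ hy).2.2 γ).symm.trans (k3.trans ((hP x hx).symm.map _)))
  set D := {g : G n | σ (mk g) = g} with hD
  set H : G n → ℝ → ℝ≥0∞ := fun g s => D.indicator 1 g * (d g * F (mk g) s) with hH
  have hFm : Measurable fun p : G n × ℝ => F (mk p.1) p.2 :=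
    hF.comp ((mk_meas.comp measurable_fst).prodMk measurable_snd)
  have hHm : Measurable (Function.uncurry H) :=
    ((measurable_one.indicator (fd_meas hσ)).comp measurable_fst).mul
      ((hdm.comp measurable_fst).mul hFm)
  have hHm2 : Measurable fun p : G n × ℝ => H (p.1 * tv i j p.2) (-p.2) :=
    hHm.comp (h.meas.prodMk measurable_snd.neg)
  calc _ = ∫⁻ g in D, ∫⁻ s, F (mk g) s ∂κ g ∂lift σ μ := by
        rw [lintegral_fd hσ hFm.lintegral_kernel_prod_right']
        simp only [hσ.mk_sec, Kernel.comap_apply]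
    _ = ∫⁻ g, ∫⁻ s, H g s ∂L.m g ∂lift σ μ := by
        rw [← lintegral_indicator (s := D) (fd_meas hσ)]
        refine lintegral_congr fun g => ?_
        by_cases hgD : g ∈ D
        · simp only [hH, indicator_of_mem hgD, Pi.one_apply, one_mul]
          rw [hκ1, lintegral_smul_measure, lintegral_const_mul' _ _ (hdt g), smul_eq_mul]
        · simp only [hH, indicator_of_notMem hgD, zero_mul, lintegral_zero]
    _ = ∫⁻ x, ∑' γ : Gam n, ∫⁻ r, H (γ * σ x * tv i j r) (-r) ∂L.m (γ * σ x) ∂μ := by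
        rw [L.mt h hHm, lintegral_lift hσ hHm2.lintegral_kernel_prod_right']
    _ = _ := by
        refine lintegral_congr_ae (hY.ae.mono fun x hx => ?_)
        choose c c0 c1 hc using fun γ : Gam n => ((hg1 x hx).2.2 γ).trans (hP x hx).symm
        have k1 : ∀ γ : Gam n, ∫⁻ r, H (γ * σ x * tv i j r) (-r) ∂L.m (γ * σ x) =
            ∫⁻ r, c γ * H (γ * σ x * tv i j r) (-r) ∂κ.comap σ hσ.meas x := fun γ => by
          rw [hc, lintegral_smul_measure, lintegral_const_mul' _ _ (c1 γ), smul_eq_mul]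
        simp only [k1]
        rw [← lintegral_tsum (f := fun (γ : Gam n) r => c γ * H (γ * σ x * tv i j r) (-r)) fun γ =>
          ((hHm2.comp (measurable_prodMk_left (x := γ * σ x))).const_mul (c γ)).aemeasurable]
        refine lintegral_congr_ae ((lwex_pos _).mono fun r hr => ?_)
        have k2 : ∀ γ : Gam n, c γ * H (γ * σ x * tv i j r) (-r) =
            D.indicator 1 ((γ : G n) * (σ x * tv i j r)) *
              (F (act (tv i j r) x) (-r) / κ.comap σ hσ.meas x (Icc (r - 1) (r + 1))) := fun γ => by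
          have k3 : mk ((γ : G n) * σ x * tv i j r) = act (tv i j r) x := by
            rw [← act_mk, mk_eq_iff.2 ⟨γ, rfl⟩, hσ.mk_sec]
          simp only [hH, hd]
          rw [k3, L.cons (γ * σ x) r, lwex_map, hc, Measure.smul_apply, smul_eq_mul,
            if_neg (mul_ne_zero (c0 γ) hr), ENNReal.mul_inv (Or.inl (c0 γ)) (Or.inl (c1 γ)),
            mul_left_comm, mul_assoc (c γ)⁻¹, ← mul_assoc (c γ),
            ENNReal.mul_inv_cancel (c0 γ) (c1 γ), one_mul, mul_assoc, div_eq_mul_inv,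
            mul_comm (F _ _)]
        simp only [k2]
        rw [ENNReal.tsum_mul_right, fd_sum hσ, one_mul]

end Vale.Agent.P007
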