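import Vale.Agent.P007B.Lift

/-! Tubes for measures with a unipotent symmetry. -/

namespace Vale.Agent.P007

open Matrix MeasureTheory ProbabilityTheory Set Filter Topology
open scoped ENNReal

variable {n : ℕ}

variable {μ : Measure (X n)}

theorem nci_sep {β : Fin n → ℕ} {a b : Fin n} (hab : β a ≠ β b) {η s : ℝ} (hη : 0 < η)
    {h : G n} (hh : Nr (fun p q => if β p = β q then 1 else η) (1 / (2 * n)) h)
    (hh' : Nr (fun p q => if β p = β q then 1 else η) (1 / (2 * n)) (h * tv a b s)) :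
    |s| < 3 * η := by
  have hne : a ≠ b := fun e => hab (e ▸ rfl)
  have hn : (1 : ℝ) ≤ n := by exact_mod_cast a.pos
  have hr : 1 / (2 * (n : ℝ)) ≤ 1 / 2 := one_div_le_one_div_of_le (by norm_num) (by linarith)
  have h1 := hh a b
  have h2 := hh' a b
  have h3 := hh a a
  simp only [if_neg hab, Matrix.sub_apply, one_apply_ne hne, sub_zero] at h1 h2
  simp only [if_true, Matrix.sub_apply, one_apply_eq, mul_one] at h3
  rw [mul_tv_apply hne, if_pos rfl] at h2
  have h4 : 1 / (2 * (n : ℝ)) * η ≤ 1 / 2 * η := mul_le_mul_of_nonneg_right hr hη.le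
  have h5 : 1 / 2 ≤ h.1 a a := by linarith [(abs_le.1 h3).1]
  have h6 : |s * h.1 a a| ≤ η := by
    rw [abs_le] at h1 h2 ⊢
    constructor <;> linarith [h1.1, h1.2, h2.1, h2.2]
  rw [abs_mul, abs_of_pos (by linarith : 0 < h.1 a a)] at h6
  have h7 := mul_le_mul_of_nonneg_left h5 (abs_nonneg s)
  linarith

theorem nc_of_inv [IsFiniteMeasure μ] {β : Fin n → ℕ} {a b : Fin n} (hab : β a ≠ β b)
    (hI : Inv μ a b) : NC μ β := by
  intro K hK
  obtain ⟨K', hK', hKK⟩ := lift_cpt hK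
  obtain ⟨σ, hσ⟩ := exists_sec n
  have := lift_fin (μ := μ) hσ
  set K2 : Set (G n) := (fun p : (G n × G n) × ℝ => p.1.1 * p.1.2 * tv a b p.2) ''
    ((K' ×ˢ {g | Nr (fun _ _ => 1) (1 / (2 * n)) g}) ×ˢ Icc (0 : ℝ) 3) with hK2
  have hK2c : IsCompact K2 := ((hK'.prod (Nr.compact _ _)).prod isCompact_Icc).image
    ((continuous_fst.fst.mul continuous_fst.snd).mul ((tv_cont a b).comp continuous_snd))
  have hV : lift σ μ K2 ≠ ∞ := hK2c.measure_lt_top.ne
  refine ⟨(lift σ μ K2).toReal, fun x hx η h0 h1 => ?_⟩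
  obtain ⟨g0, hg0, rfl⟩ := hKK hx
  set A : Set (G n) := (fun g => g0 * g) ''
    {g | Nr (fun p q => if β p = β q then 1 else η) (1 / (2 * n)) g} with hA
  have hAm : MeasurableSet A :=
    ((Nr.compact _ _).image (continuous_const.mul continuous_id)).measurableSet
  have hT : Tube β η (mk g0) ⊆ mk '' A := by
    rintro y ⟨g, hg, rfl⟩
    exact ⟨g0 * g, ⟨g, hg, rfl⟩, rfl⟩
  set B : ℕ → Set (G n) := fun k => (fun g => g * tv a b (-(3 * k * η))) ⁻¹' A with hB
  have hmul : ∀ u : G n, Measurable fun g : G n => g * u := fun u =>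
    (continuous_id.mul continuous_const).measurable
  have hBm : ∀ k, MeasurableSet (B k) := fun k => hmul _ hAm
  have hBv : ∀ k, lift σ μ (B k) = lift σ μ A := fun k => by
    rw [hB, ← Measure.map_apply (hmul _) hAm, lift_right hσ (hI _)]
  have hBd : Pairwise (Function.onFun Disjoint B) := by
    intro k k' hk
    refine Set.disjoint_left.2 fun g ⟨h, hh, e1⟩ ⟨h', hh', e2⟩ => ?_
    have e3 : h' = h * tv a b (3 * k * η - 3 * k' * η) := by
      apply mul_left_cancel (a := g0)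
      simp only at e1 e2
      rw [← mul_assoc g0, e1, e2, mul_assoc g, ← tv_add]
      congr 2
      ring
    rw [e3] at hh'
    have h3 := nci_sep hab h0 hh hh'
    have h4 : (1 : ℝ) ≤ |(k : ℝ) - k'| := by
      have h5 : (1 : ℤ) ≤ |(k : ℤ) - k'| := Int.one_le_abs (sub_ne_zero.2 (by exact_mod_cast hk))
      exact_mod_cast h5
    rw [show 3 * (k : ℝ) * η - 3 * k' * η = ((k : ℝ) - k') * (3 * η) by ring, abs_mul,
      abs_of_pos (by positivity : 0 < 3 * η)] at h3
    have h6 := mul_le_mul_of_nonneg_right h4 (by positivity : 0 ≤ 3 * η)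
    linarith
  have hBs : ⋃ k ∈ Finset.range ⌈1 / η⌉₊, B k ⊆ K2 := by
    refine iUnion₂_subset fun k hk g ⟨h, hh, e1⟩ => ?_
    have h3 : (k : ℝ) < 1 / η := Nat.lt_ceil.1 (Finset.mem_range.1 hk)
    rw [lt_div_iff₀ h0] at h3
    refine ⟨((g0, h), 3 * k * η), ⟨⟨hg0, fun p q => (hh p q).trans ?_⟩, by positivity,
      by simp only; linarith⟩, ?_⟩
    · refine mul_le_mul_of_nonneg_left ?_ (by positivity)
      simp only
      split_ifs
      · exact le_rfl
      · exact h1
    · simp only at e1 ⊢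
      rw [e1, mul_assoc g, ← tv_add, neg_add_cancel, tv_zero, mul_one]
  have hsum : (⌈1 / η⌉₊ : ℝ≥0∞) * lift σ μ A ≤ lift σ μ K2 := by
    have h3 := measure_mono (μ := lift σ μ) hBs
    rw [measure_biUnion_finset (fun k _ k' _ hk => hBd hk) fun k _ => hBm k] at h3
    simpa only [hBv, Finset.sum_const, Finset.card_range, nsmul_eq_mul] using h3
  have h3 : (1 : ℝ≥0∞) ≤ ENNReal.ofReal η * (⌈1 / η⌉₊ : ℝ≥0∞) := by
    rw [← ENNReal.ofReal_natCast, ← ENNReal.ofReal_mul h0.le, ENNReal.one_le_ofReal]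
    have h4 := Nat.le_ceil (1 / η)
    rw [div_le_iff₀ h0] at h4
    linarith
  have h4 : η ≤ √η := Real.le_sqrt_of_sq_le (by nlinarith)
  calc μ (Tube β η (mk g0)) ≤ lift σ μ A := (measure_mono hT).trans (le_lift hσ hAm)
    _ ≤ ENNReal.ofReal η * (⌈1 / η⌉₊ : ℝ≥0∞) * lift σ μ A := le_mul_of_one_le_left' h3
    _ ≤ ENNReal.ofReal η * lift σ μ K2 := by
        rw [mul_assoc]
        exact mul_le_mul_right hsum _
    _ ≤ ENNReal.ofReal ((lift σ μ K2).toReal * √η) := by
        rw [ENNReal.ofReal_mul ENNReal.toReal_nonneg, ENNReal.ofReal_toReal hV, mul_comm]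
        exact mul_le_mul_right (ENNReal.ofReal_le_ofReal h4) _

end Vale.Agent.P007
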