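import Vale.Agent.P007B.Bas

/-! Tubes for measures with the slab estimate. -/

namespace Vale.Agent.P007

open Matrix MeasureTheory ProbabilityTheory Set Filter Topology
open scoped ENNReal

variable {n : ℕ}

variable {μ : Measure (X n)}

theorem ncs_prod {ι : Type*} (s : Finset ι) {a b : ι → ℝ} {M ε : ℝ} (hM : 1 ≤ M) (hε : 0 ≤ ε)
    (ha : ∀ i, |a i| ≤ M) (hb : ∀ i, |b i| ≤ M) (h : ∀ i, |a i - b i| ≤ ε) :
    |∏ i ∈ s, a i - ∏ i ∈ s, b i| ≤ s.card * M ^ s.card * ε := by
  classical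
  induction s using Finset.induction_on with
  | empty => simp
  | insert i s hi ih =>
    rw [Finset.prod_insert hi, Finset.prod_insert hi, Finset.card_insert_of_notMem hi]
    have h1 : |∏ j ∈ s, b j| ≤ M ^ s.card := by
      rw [Finset.abs_prod]
      exact (Finset.prod_le_prod (fun _ _ => abs_nonneg _) fun j _ => hb j).trans_eq (by simp)
    have h2 : 0 ≤ M ^ s.card * ε := by positivity
    calc _ = |a i * (∏ j ∈ s, a j - ∏ j ∈ s, b j) + (a i - b i) * ∏ j ∈ s, b j| := by ring_nf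
      _ ≤ M * (s.card * M ^ s.card * ε) + ε * M ^ s.card := by
        refine (abs_add_le _ _).trans ?_
        rw [abs_mul, abs_mul]
        gcongr
        exacts [ha i, h i]
      _ ≤ _ := by
        push_cast
        rw [pow_succ]
        nlinarith

theorem ncs_diag {g : G n} {η : ℝ} (hη : 0 ≤ η) (h1 : ∀ k l, |g.1 k l| ≤ 2)
    (h2 : ∀ k l, k ≠ l → |g.1 k l| ≤ η) : |∏ j, g.1 j j - 1| ≤ n.factorial * (n * 2 ^ n * η) := by
  have e : ∏ j, g.1 j j = (Matrix.diagonal fun j => g.1 j j).det := det_diagonal.symm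
  suffices h : |∏ j, g.1 j j - g.1.det| ≤ n.factorial * (n * 2 ^ n * η) by rwa [g.2] at h
  rw [e, det_apply', det_apply', ← Finset.sum_sub_distrib]
  refine (Finset.abs_sum_le_sum_abs _ _).trans ((Finset.sum_le_card_nsmul _ _ (n * 2 ^ n * η)
    fun σ _ => ?_).trans_eq (by simp [Fintype.card_perm]))
  rw [← mul_sub, abs_mul]
  have h3 : |((Equiv.Perm.sign σ : ℤ) : ℝ)| = 1 := by
    rcases Int.units_eq_one_or (Equiv.Perm.sign σ) with h | h <;> simp [h]
  rw [h3, one_mul]
  refine (ncs_prod _ (M := 2) (ε := η) one_le_two hη (fun i => ?_) (fun i => h1 _ _)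
    fun i => ?_).trans_eq (by simp)
  · rw [diagonal_apply]
    split_ifs
    · exact h1 _ _
    · simp
  · rw [diagonal_apply]
    split_ifs with h
    · simpa [h] using hη
    · simpa using h2 _ _ h

theorem nc_of_sg [IsFiniteMeasure μ] {β : Fin n → ℕ} (hβ : Function.Injective β) (hn : 0 < n)
    (hS : SG μ) : NC μ β := by
  intro K hK
  obtain ⟨K', hK', hKK⟩ := lift_cpt hK
  obtain ⟨R, hR1, hR⟩ : ∃ R : ℝ, 1 ≤ R ∧ ∀ g ∈ K', ∀ k l, |g.1 k l| ≤ R := by
    have hc : Continuous fun g : G n => ∑ k, ∑ l, |g.1 k l| :=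
      continuous_finsetSum _ fun k _ => continuous_finsetSum _ fun l _ =>
        (continuous_subtype_val.matrix_elem k l).abs
    obtain ⟨R, hR⟩ := hK'.bddAbove_image hc.continuousOn
    refine ⟨max 1 R, le_max_left _ _, fun g hg k l => le_max_of_le_right ?_⟩
    refine le_trans ?_ (hR ⟨g, hg, rfl⟩)
    exact (Finset.single_le_sum (f := fun l => |g.1 k l|) (fun _ _ => abs_nonneg _)
      (Finset.mem_univ l)).trans (Finset.single_le_sum (f := fun k => ∑ l, |g.1 k l|)
        (fun _ _ => by positivity) (Finset.mem_univ k))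
  have hn1 : (1 : ℝ) ≤ n := by exact_mod_cast hn
  set M : ℝ := n * (R * 2) with hM
  have hM1 : R * 2 ≤ M := le_mul_of_one_le_left (by positivity) hn1
  set A : ℝ := n * M ^ n * (n * R) + R ^ n * (n.factorial * (n * 2 ^ n)) + 1 with hA
  have hA1 : 1 ≤ A := le_add_of_nonneg_left (by positivity)
  obtain ⟨C, hC⟩ := hS (M + 1)
  refine ⟨max C (μ.real univ) * √A, fun x hx η h0 h1 => ?_⟩
  rw [mul_assoc, ← Real.sqrt_mul (by positivity)]
  by_cases h2 : A * η ≤ 1
  swap
  · refine (measure_mono (subset_univ _)).trans ?_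
    rw [← ofReal_measureReal]
    refine ENNReal.ofReal_le_ofReal ((le_max_right C _).trans (le_mul_of_one_le_right
      (le_max_of_le_right measureReal_nonneg) (Real.one_le_sqrt.2 (not_le.1 h2).le)))
  obtain ⟨g0, hg0, rfl⟩ := hKK hx
  set v : Fin n → ℝ := g0.1 ⟨0, hn⟩ with hv
  refine (measure_mono ?_).trans ((hC |∏ j, v j| (A * η) (abs_nonneg _) (by positivity) h2).trans
    (ENNReal.ofReal_le_ofReal (by gcongr; exact le_max_left _ _)))
  rintro _ ⟨g, hg, rfl⟩
  have hr : 1 / (2 * (n : ℝ)) ≤ 1 := by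
    rw [div_le_one (by positivity)]
    linarith
  have g2 : ∀ k l, k ≠ l → |g.1 k l| ≤ η := fun k l h => by
    have h3 := hg k l
    simp only [Matrix.sub_apply, one_apply_ne h, sub_zero, hβ.eq_iff, h, if_false] at h3
    exact h3.trans (mul_le_of_le_one_left h0.le hr)
  have g1 : ∀ k l, |g.1 k l| ≤ 2 := fun k l => by
    by_cases h : k = l
    · have h3 := hg k l
      simp only [Matrix.sub_apply, h, one_apply_eq, if_true, mul_one] at h3
      rw [h]
      have := abs_le.1 (h3.trans hr)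
      exact abs_le.2 ⟨by linarith, by linarith⟩
    · linarith [g2 k l h]
  have hw : ∀ j, (g0 * g).1 ⟨0, hn⟩ j = ∑ k, v k * g.1 k j := fun j => rfl
  have w1 : ∀ j, |(g0 * g).1 ⟨0, hn⟩ j| ≤ M := fun j => by
    rw [hw]
    refine (Finset.abs_sum_le_sum_abs _ _).trans ((Finset.sum_le_card_nsmul _ _ (R * 2)
      fun k _ => ?_).trans_eq (by simp [hM]))
    rw [abs_mul]
    exact mul_le_mul (hR g0 hg0 _ _) (g1 _ _) (abs_nonneg _) (by positivity)
  refine ⟨(g0 * g).1 ⟨0, hn⟩, mem_lat.2 ⟨Pi.single ⟨0, hn⟩ 1, ?_⟩, fun h => ?_,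
    fun j => (w1 j).trans_lt (lt_add_one _), ?_⟩
  · funext j
    simp [vecMul, dotProduct, Pi.single_apply]
  · exact one_ne_zero ((g0 * g).2.symm.trans (det_eq_zero_of_row_eq_zero _ (congrFun h)))
  · have e1 := ncs_prod Finset.univ (a := (g0 * g).1 ⟨0, hn⟩) (b := fun j => v j * g.1 j j) (M := M)
      (ε := n * (R * η)) (by linarith) (by positivity) w1 (fun j => by
        rw [abs_mul]
        exact (mul_le_mul (hR g0 hg0 _ _) (g1 _ _) (abs_nonneg _) (by positivity)).trans hM1)
      fun j => by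
        rw [hw, ← Finset.add_sum_erase _ _ (Finset.mem_univ j), add_sub_cancel_left]
        refine (Finset.abs_sum_le_sum_abs _ _).trans ((Finset.sum_le_card_nsmul _ _ (R * η)
          fun k hk => ?_).trans ?_)
        · rw [abs_mul]
          exact mul_le_mul (hR g0 hg0 _ _) (g2 _ _ (Finset.ne_of_mem_erase hk)) (abs_nonneg _)
            (by positivity)
        · rw [nsmul_eq_mul]
          gcongr
          simp
    have e2 := ncs_diag h0.le g1 g2
    have e3 : |∏ j, v j| ≤ R ^ n := by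
      rw [Finset.abs_prod]
      exact (Finset.prod_le_prod (fun _ _ => abs_nonneg _) fun j _ => hR g0 hg0 _ j).trans_eq
        (by simp)
    rw [Finset.prod_mul_distrib, Finset.card_univ, Fintype.card_fin] at e1
    have e4 : |(∏ j, v j) * ∏ j, g.1 j j - ∏ j, v j| ≤ R ^ n * (n.factorial * (n * 2 ^ n * η)) := by
      rw [← mul_sub_one, abs_mul]
      gcongr
    refine (abs_abs_sub_abs_le _ _).trans_lt ((abs_sub_le _ _ _).trans_lt
      ((add_le_add e1 e4).trans_lt ?_))
    rw [hA]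
    nlinarith

end Vale.Agent.P007
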