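import Vale.Agent.P007B.LWc
import Vale.Agent.P007B.Hopf

/-! Restriction and constancy along contracted roots. -/

namespace Vale.Agent.P007

open Matrix MeasureTheory ProbabilityTheory Set Filter Topology
open scoped ENNReal

variable {n : ℕ}

variable {μ : Measure (X n)} [IsFiniteMeasure μ] {i j k : Fin n}

theorem LW.restrict (hA : AI μ) (hij : i ≠ j) (L : LW μ i j) {E : Set (X n)}
    (hE : MeasurableSet E) (hi : ∀ t, ∀ᵐ x ∂μ, (act (dg t) x ∈ E ↔ x ∈ E)) :
    ∃ L' : LW (μ.restrict E) i j, L'.ν = L.ν := by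
  have hf : Measurable (E.indicator fun _ => (1 : ℝ≥0∞)) := measurable_const.indicator hE
  obtain ⟨X1, hX, h1⟩ := hopf μ hA (Pi.single i 1) hf (by
    filter_upwards [hi (Pi.single i 1)] with x hx
    by_cases h : x ∈ E
    · rw [indicator_of_mem h, indicator_of_mem (hx.2 h)]
    · rw [indicator_of_notMem h, indicator_of_notMem fun h' => h (hx.1 h')])
  have ht : (Pi.single i 1 : Fin n → ℝ) j < (Pi.single i 1 : Fin n → ℝ) i := by
    simp [hij.symm]
  have hind : ∀ (g : X n → ℝ≥0∞) (x : X n),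
      E.indicator g x = E.indicator (fun _ => (1 : ℝ≥0∞)) x * g x := by
    intro g x
    by_cases h : x ∈ E <;> simp [h]
  have hne : ∀ x, E.indicator (fun _ => (1 : ℝ≥0∞)) x ≠ ∞ := by
    intro x
    by_cases h : x ∈ E <;> simp [h]
  refine ⟨⟨L.ν, L.sf, L.X', ⟨L.co.1, ?_⟩, L.norm, L.fin, L.cons,
    fun t => ae_restrict_of_ae (L.equiv t), fun F hF => ?_⟩, rfl⟩
  · exact le_antisymm ((Measure.restrict_apply_le _ _).trans L.co.2.le) zero_le
  · have h2 := L.mt (fun x s => E.indicator (fun _ => (1 : ℝ≥0∞)) x * F x s)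
      ((hf.comp measurable_fst).mul hF)
    rw [← lintegral_indicator hE, ← lintegral_indicator hE]
    refine Eq.trans (lintegral_congr fun x => ?_) (h2.trans (lintegral_congr_ae ?_))
    · rw [hind, lintegral_const_mul' _ _ (hne x)]
    · filter_upwards [hX.ae, L.null hX.2] with x hx hs
      rw [hind, ← lintegral_const_mul' _ _ (hne x)]
      refine lintegral_congr_ae ?_
      filter_upwards [hs] with s hs
      rw [h1 x hx i j s ht (not_notMem.1 hs), mul_div_assoc]

theorem LW.const (hA : AI μ) (L : LW μ i j) {t : Fin n → ℝ} (ht : t i = t j) :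
    ∃ X1, Co μ X1 ∧ ∀ x ∈ X1, ∀ p q s, t q < t p → act (tv p q s) x ∈ X1 →
      L.ν (act (tv p q s) x) = L.ν x := by
  obtain ⟨X1, hX, h1⟩ := hopf μ hA t L.fm_meas (by
    filter_upwards [L.fix hA ht] with x hx
    funext q
    simp only [LW.fm, hx])
  exact ⟨X1 ∩ L.X', hX.inter L.co, fun x hx p q s hpq hs =>
    L.fm_ext hs.2 (h1 x hx.1 p q s hpq hs.1)⟩

end Vale.Agent.P007
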