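import Vale.Agent.P007B.Rig0
import Vale.Agent.P007B.LWex

/-! The rigidity theorem. -/

namespace Vale.Agent.P007

open Matrix MeasureTheory ProbabilityTheory Set Filter Topology
open scoped ENNReal

variable {n : ℕ}

variable {μ : Measure (X n)}

theorem rig (hn : n.Prime) (h3 : 3 ≤ n) [IsFiniteMeasure μ] (hA : AI μ) (hS : SG μ) (g : G n) :
    g ∈ Stab μ := by
  classical
  have L : ∀ i j : Fin n, i ≠ j → LW μ i j := fun i j h => (exists_lw μ hA h).some
  let st : X n → {p : Fin n × Fin n // p.1 ≠ p.2} → Prop × Prop := fun x p =>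
    (x ∈ (L _ _ p.2).T, x ∈ (L _ _ p.2).Z)
  have hm : ∀ π, MeasurableSet {x | st x = π} := fun π => by
    have e : {x | st x = π} = ⋂ p, ({x | x ∈ (L _ _ p.2).T ↔ (π p).1} ∩
        {x | x ∈ (L _ _ p.2).Z ↔ (π p).2}) := by
      ext x
      simp [st, funext_iff, Prod.ext_iff]
    rw [e]
    refine MeasurableSet.iInter fun p => MeasurableSet.inter ?_ ?_
    · exact (Measurable.iff (L _ _ p.2).T_meas.mem measurable_const).setOf
    · exact (Measurable.iff (L _ _ p.2).Z_meas.mem measurable_const).setOf
  have hi : ∀ π t, ∀ᵐ x ∂μ, (act (dg t) x ∈ {x | st x = π} ↔ x ∈ {x | st x = π}) := fun π t => by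
    have h1 : ∀ᵐ x ∂μ, ∀ p : {p : Fin n × Fin n // p.1 ≠ p.2}, st (act (dg t) x) p = st x p :=
      ae_all_iff.2 fun p => by
        filter_upwards [(L _ _ p.2).T_inv t, (L _ _ p.2).Z_inv hA t] with x a b
        exact Prod.ext (propext a) (propext b)
    filter_upwards [h1] with x hx
    rw [funext hx]
  have h1 : ∀ π, g ∈ Stab (μ.restrict {x | st x = π}) := fun π => by
    choose L' hL using fun i j h => LW.restrict hA h (L i j h) (hm π) (hi π)
    refine rig0 hn h3 (hA.restrict (hm π) (hi π)) (hS.restrict _) L' (fun i j h => ?_)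
      (fun i j h => ?_) g
    · have e : (L' i j h).T = (L i j h).T := by simp only [LW.T, hL]
      rw [e]
      by_cases hp : (π ⟨(i, j), h⟩).1
      · exact Or.inl ((ae_restrict_mem (hm π)).mono fun x (hx : st x = π) => by
          rw [← hx] at hp; exact hp)
      · exact Or.inr ((ae_restrict_mem (hm π)).mono fun x (hx : st x = π) => by
          rw [← hx] at hp; exact hp)
    · have e : (L' i j h).Z = (L i j h).Z := by simp only [LW.Z, hL]
      rw [e]
      by_cases hp : (π ⟨(i, j), h⟩).2
      · exact Or.inl ((ae_restrict_mem (hm π)).mono fun x (hx : st x = π) => by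
          rw [← hx] at hp; exact hp)
      · exact Or.inr ((ae_restrict_mem (hm π)).mono fun x (hx : st x = π) => by
          rw [← hx] at hp; exact hp)
  have h2 : μ = Measure.sum fun π => μ.restrict {x | st x = π} := by
    rw [← Measure.restrict_iUnion (s := fun π => {x | st x = π}) (fun π π' h => Set.disjoint_left.2 fun x (a : st x = π)
      (b : st x = π') => h (a.symm.trans b)) hm,
      show (⋃ π, {x | st x = π}) = univ from eq_univ_of_forall fun x => mem_iUnion.2 ⟨_, rfl⟩,
      Measure.restrict_univ]
  change μ.map (act g) = μ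
  rw [h2, Measure.map_sum (act_cont g).measurable.aemeasurable]
  exact congrArg Measure.sum (funext h1)

end Vale.Agent.P007
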