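import Vale.Agent.P007B.TS
import Vale.Agent.P007B.NCi
import Vale.Agent.P007B.NCs

/-! Symmetry and positivity of entropy. -/

namespace Vale.Agent.P007

open Matrix MeasureTheory ProbabilityTheory Set Filter Topology
open scoped ENNReal

variable {n : ℕ}

variable {μ : Measure (X n)}

theorem s_zero [IsFiniteMeasure μ] (hA : AI μ) (S : Finset (Fin n))
    (hT : ∀ p ∉ S, ∀ q ∈ S, Tr μ p q) {a b : Fin n} (ha : a ∈ S) (hb : b ∉ S) (hI : Inv μ a b) :
    μ = 0 := by
  classical
  refine cover' a.pos hA (fun p => if p ∈ S then 0 else 1) (fun p q h => ?_)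
    (nc_of_inv (a := a) (b := b) (by simp [ha, hb]) hI)
  by_cases hp : p ∈ S
  · simp [hp] at h
  · by_cases hq : q ∈ S
    · exact hT p hp q hq
    · simp [hp, hq] at h

theorem c_zero (hn : 0 < n) [IsFiniteMeasure μ] (hA : AI μ) (hS : SG μ) {ρ : Fin n → ℕ}
    (hρ : Function.Injective ρ) (hT : ∀ p q, ρ q < ρ p → Tr μ p q) : μ = 0 :=
  cover' hn hA ρ hT (nc_of_sg hρ hn hS)

end Vale.Agent.P007
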