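import Vale.Agent.P007B.SH
import Vale.Agent.P007B.LE
import Vale.Agent.P007B.SC
import Vale.Agent.P007B.Graph
import Vale.Agent.P007B.Comm

/-! Rigidity for a fixed pattern. -/

namespace Vale.Agent.P007

open Matrix MeasureTheory ProbabilityTheory Set Filter Topology
open scoped ENNReal

variable {n : ℕ}

variable {μ : Measure (X n)}

theorem rig0 (hn : n.Prime) (h3 : 3 ≤ n) [IsFiniteMeasure μ] (hA : AI μ) (hS : SG μ)
    (L : ∀ i j : Fin n, i ≠ j → LW μ i j)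
    (hT : ∀ i j h, (∀ᵐ x ∂μ, x ∈ (L i j h).T) ∨ ∀ᵐ x ∂μ, x ∉ (L i j h).T)
    (hZ : ∀ i j h, (∀ᵐ x ∂μ, x ∈ (L i j h).Z) ∨ ∀ᵐ x ∂μ, x ∉ (L i j h).Z) (g : G n) :
    g ∈ Stab μ := by
  classical
  by_cases h0 : μ = 0
  · subst h0
    exact Measure.map_zero _
  have tr : ∀ p q, p ≠ q → ¬(∃ h, ∀ᵐ x ∂μ, x ∉ (L p q h).T) → Tr μ p q := fun p q h hn =>
    (L p q h).tr ((hT p q h).resolve_right fun h1 => hn ⟨h, h1⟩)
  obtain ⟨B, hB, hX, hH⟩ := graph (fun i j => ∃ h, ∀ᵐ x ∂μ, x ∉ (L i j h).T)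
    (fun i j => ∃ h, ∀ᵐ x ∂μ, x ∈ (L i j h).Z)
    (fun i j _ ⟨h, h1⟩ => ⟨h, h1.mono fun x hx => (L i j h).Z_T hx⟩)
    (fun i j k hij hjk hik ⟨_, h1⟩ ⟨_, h2⟩ => ⟨hik, by
      filter_upwards [LW.comm hA hij hjk hik _ _ (L i k hik) h1 h2, (L i k hik).Z_of_sym hA hik]
        with x a b using b a⟩)
    (fun ρ hρ => by
      by_contra hc
      refine h0 (c_zero hn.pos hA hS hρ fun p q h => tr p q (fun e => ?_) fun h1 => hc ⟨p, q, h, h1⟩)
      rw [e] at h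
      exact h.false)
    (fun S a ha b hb ⟨h, h1⟩ => by
      by_contra hc
      refine h0 (s_zero hA S (fun p hp q hq => tr p q (fun e => hp (e ▸ hq)) fun h2 =>
        hc ⟨p, hp, q, hq, h2⟩) ha hb ((L a b h).inv h1)))
  have hT' : ∀ p ∈ B, ∀ q ∉ B, Tr μ p q ∧ Tr μ q p := fun p hp q hq =>
    ⟨tr p q (fun e => hq (e ▸ hp)) (hX p hp q hq).1, tr q p (fun e => hq (e ▸ hp)) (hX p hp q hq).2⟩
  have le : ∀ a b, (∀ j, j ∈ B ↔ j = a ∨ j = b) → (∃ h, ∀ᵐ x ∂μ, x ∉ (L a b h).T) → Inv μ a b := by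
    rintro a b hj ⟨h, h1⟩
    refine (L a b h).inv ((hZ a b h).resolve_right fun h2 => h0 ?_)
    refine le_zero hn h3 hA hS.nh h (L a b h) (fun j ja jb => ?_) h1 h2
    have h4 : j ∉ B := by simp [hj, ja, jb]
    exact ⟨(hT' a (by simp [hj]) j h4).1, (hT' b (by simp [hj]) j h4).2⟩
  have hI : ∀ a ∈ B, ∀ b ∈ B, a ≠ b → Inv μ a b := by
    rcases hH with hH | ⟨a, b, hab, rfl, h1, h2⟩
    · intro a ha b hb hab
      obtain ⟨h, h1⟩ := hH a ha b hb hab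
      exact (L a b h).inv h1
    · intro p hp q hq hpq
      simp only [Finset.mem_insert, Finset.mem_singleton] at hp hq
      rcases hp with rfl | rfl <;> rcases hq with rfl | rfl
      · exact (hpq rfl).elim
      · exact le _ _ (by simp) h1
      · exact le _ _ (by simp [or_comm]) h2
      · exact (hpq rfl).elim
  by_cases hu : ∃ i, i ∉ B
  · obtain ⟨i, hi⟩ := hu
    exact (h0 (sh_zero hn hA hS.nh hB hi hI hT')).elim
  · push Not at hu
    exact gen (Stab μ) hA B hI (fun k l _ h => (h.elim (· (hu k)) (· (hu l))).elim)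
      fun k hk => (hk (hu k)).elim

end Vale.Agent.P007
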