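import Vale.Agent.P007B.SHa
import Vale.Agent.P007B.Ret
import Vale.Agent.P007B.AR

/-! A proper block group of symmetries is impossible. -/

namespace Vale.Agent.P007

open Matrix MeasureTheory ProbabilityTheory Set Filter Topology
open scoped ENNReal

variable {n : ℕ}

variable {μ : Measure (X n)}

theorem sh_zero (hn : n.Prime) [IsFiniteMeasure μ] (hA : AI μ) (hN : ∀ᵐ x ∂μ, NH x)
    {B : Finset (Fin n)} (hB : 2 ≤ B.card) {i : Fin n} (hi : i ∉ B)
    (hI : ∀ a ∈ B, ∀ b ∈ B, a ≠ b → Inv μ a b)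
    (hT : ∀ p ∈ B, ∀ q ∉ B, Tr μ p q ∧ Tr μ q p) : μ = 0 := by
  by_contra h0
  have hu : μ univ ≠ 0 := by simpa using h0
  obtain ⟨Y, hY, hδ, hl⟩ := sh_loc hA hB hi hI hT (δ := μ univ / 2)
    (ENNReal.div_pos hu (by simp)).ne'
  obtain ⟨a, ha, b, hb, hab⟩ := Finset.one_lt_card.1 hB
  have hl' : ∀ᶠ g in 𝓝 (1 : G n), ∀ x ∈ Y, act g x ∈ Y → True → Commute g.1 (eB B) :=
    hl.mono fun g hg x hx hy _ => hg x hx hy
  have hC : ∀ p ∈ B, ∀ q ∈ B, p ≠ q → Commute (tv p q 1 : G n).1 (eB B) := by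
    intro p hp q hq hpq
    rw [tv_apply hpq]
    refine (Commute.one_left _).add_left ?_
    change _ * Matrix.diagonal _ = Matrix.diagonal _ * _
    ext k l
    rw [diagonal_mul, mul_diagonal, single_apply]
    split_ifs with h h1 h2 h3 <;> simp_all
  obtain ⟨c0, hc0⟩ := lim_dg a
  obtain ⟨c1, hc1⟩ := lim_tv hab
  obtain ⟨c2, hc2⟩ := lim_tv hab.symm
  have k0 := ret μ (hA _) hY (commute_diagonal _ _) c0 hc0 (P := fun _ _ => True) (by simp) hl'
  have k1 := ret μ (hI a ha b hb hab 1) hY (hC a ha b hb hab) c1 hc1 (P := fun _ _ => True)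
    (by simp) hl'
  have k2 := ret μ (hI b hb a ha hab.symm 1) hY (hC b hb a ha hab.symm) c2 hc2
    (P := fun _ _ => True) (by simp) hl'
  have h7 : ∀ᵐ x ∂μ, x ∉ Y := by
    filter_upwards [k0, k1, k2, hN] with x x0 x1 x2 hx' hxY
    obtain ⟨g, rfl⟩ := mk_open.surjective x
    have h8 := (ar hn hx' (fun r hr => ?_) (x0 hxY g rfl)).1 _ _ (x1 hxY g rfl) (x2 hxY g rfl)
    · have h9 := congrFun (congrFun h8.eq a) a
      simp [single_mul_single_same, hab.symm] at h9
    · have e1 := congrFun (congrFun hr a) a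
      have e2 := congrFun (congrFun hr i) i
      simp [eB, ha] at e1
      simp [eB, hi] at e2
      linarith
  have h8 : μ Y = 0 := measure_eq_zero_iff_ae_notMem.2 h7
  have h9 : μ univ ≤ μ univ / 2 := by
    calc μ univ ≤ μ Y + μ Yᶜ := by rw [← union_compl_self Y]; exact measure_union_le _ _
      _ ≤ _ := by rw [h8, zero_add]; exact hδ
  exact (ENNReal.half_lt_self hu (measure_ne_top _ _)).not_ge h9

end Vale.Agent.P007
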