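import Vale.Agent.P007B.Gen
import Vale.Agent.P007B.Avg
import Vale.Agent.P007B.Blk
import Vale.Agent.P007B.LEb
import Vale.Agent.P007B.LEd
import Vale.Agent.P007B.MaxA

/-! Shearing along a block group. -/

namespace Vale.Agent.P007

open Matrix MeasureTheory ProbabilityTheory Set Filter Topology
open scoped ENNReal

variable {n : ℕ}

variable {μ : Measure (X n)}

theorem sha_ent (k l : Fin n) : Continuous fun g : G n => g.1 k l :=
  continuous_subtype_val.matrix_elem k l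

theorem sha_cnt {Ω : Type*} {T : Ω → Ω} {K : Set Ω} {x y : Ω} {N : ℕ} (hN : 0 < N)
    (hx : ∀ M : ℕ, (cnt T Kᶜ x M : ℝ) ≤ 1 / 8 * M) (hy : ∀ M : ℕ, (cnt T Kᶜ y M : ℝ) ≤ 1 / 8 * M) :
    ∃ k, N ≤ k ∧ k < 2 * N ∧ T^[k] x ∈ K ∧ T^[k] y ∈ K := by
  classical
  by_contra hc
  have h1 : N ≤ cnt T Kᶜ x (2 * N) + cnt T Kᶜ y (2 * N) := by
    unfold cnt
    refine le_trans ?_ (Finset.card_union_le _ _)
    refine le_trans (by rw [Nat.card_Ico]; omega) (Finset.card_le_card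
      (s := Finset.Ico N (2 * N)) fun k hk => ?_)
    obtain ⟨k1, k2⟩ := Finset.mem_Ico.1 hk
    simp only [Finset.mem_union, Finset.mem_filter, Finset.mem_range, k2, true_and, mem_compl_iff]
    by_contra h
    rw [not_or, not_not, not_not] at h
    exact hc ⟨k, k1, k2, h⟩
  have h2 : (N : ℝ) ≤ cnt T Kᶜ x (2 * N) + cnt T Kᶜ y (2 * N) := by exact_mod_cast h1
  have h3 := hx (2 * N)
  have h4 := hy (2 * N)
  have h5 : (0 : ℝ) < N := Nat.cast_pos.2 hN
  push_cast at h3 h4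
  linarith

theorem sha_gap {K Y : Set (X n)} (hK : IsCompact K) (hY : TT μ Y) (hKY : K ⊆ Y)
    {B : Finset (Fin n)} {a b : Fin n} (ha : a ∈ B) (hb : b ∈ B) (hab : a ≠ b)
    (hT : ∀ p ∈ B, ∀ q ∉ B, Tr μ p q ∧ Tr μ q p) {Ψ : G n → ℝ} (hΨ : Continuous Ψ)
    (h0 : ∀ g, Ψ g ≤ 0 → ∀ k l, ¬Sp a b k l → (g.1 - 1) k l = 0) :
    ∃ ε : ℝ, 0 < ε ∧ ∀ z ∈ K, ∀ g : G n, (∀ k l, |g.1 k l| ≤ 6) → act g z ∈ K →
      (∀ j ∈ B, j ≠ a → j ≠ b → g.1 a j = 0 ∧ g.1 j b = 0) →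
      1 / 2 ≤ ∑ j ∈ Bᶜ, (|g.1 a j| + |g.1 j b|) → ε ≤ Ψ g := by
  have c1 : IsClosed {p : X n × G n | act p.2 p.1 ∈ K} := hK.isClosed.preimage act_cont2
  have c2 : IsClosed {p : X n × G n | ∀ j ∈ B, j ≠ a → j ≠ b → p.2.1 a j = 0 ∧ p.2.1 j b = 0} := by
    simp only [setOf_forall]
    exact isClosed_iInter fun j => isClosed_iInter fun _ => isClosed_iInter fun _ =>
      isClosed_iInter fun _ => (isClosed_eq ((sha_ent a j).comp continuous_snd) continuous_const).inter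
        (isClosed_eq ((sha_ent j b).comp continuous_snd) continuous_const)
  have c3 : IsClosed {p : X n × G n | 1 / 2 ≤ ∑ j ∈ Bᶜ, (|p.2.1 a j| + |p.2.1 j b|)} :=
    isClosed_le continuous_const (continuous_finsetSum _ fun j _ =>
      ((sha_ent a j).comp continuous_snd).abs.add ((sha_ent j b).comp continuous_snd).abs)
  have c := (hK.prod (box_compact (n := n) 6)).inter_right (c1.inter (c2.inter c3))
  obtain ⟨ε, e1, e2⟩ := c.exists_forall_le' (hΨ.comp continuous_snd).continuousOn (a := 0) (by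
    rintro ⟨z, g⟩ ⟨⟨p1, -⟩, p2, p3, p4⟩
    by_contra hc
    have e : g = tv a b (g.1 a b) := hY.sp hab (hKY p1) (hKY p2) (h0 g (not_lt.1 hc)) fun j ja jb => by
      by_cases hj : j ∈ B
      · exact ⟨fun h => absurd (p3 j hj ja jb).1 h, fun h => absurd (p3 j hj ja jb).2 h⟩
      · exact ⟨fun _ => (hT a ha j hj).1, fun _ => (hT b hb j hj).2⟩
    have e' : ∑ j ∈ Bᶜ, (|g.1 a j| + |g.1 j b|) = 0 := Finset.sum_eq_zero fun j hj => by
      have ja : j ≠ a := fun h => Finset.mem_compl.1 hj (h ▸ ha)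
      have jb : j ≠ b := fun h => Finset.mem_compl.1 hj (h ▸ hb)
      rw [e, tv_apply hab]
      simp [one_apply_ne ja.symm, one_apply_ne jb, ja.symm, jb.symm]
    have p5 : 1 / 2 ≤ ∑ j ∈ Bᶜ, (|g.1 a j| + |g.1 j b|) := p4
    linarith)
  exact ⟨ε, e1, fun z hz g g1 g2 g3 g4 => e2 (z, g) ⟨⟨hz, g1⟩, g2, g3, g4⟩⟩

theorem sha_pair {K Y : Set (X n)} (hK : IsCompact K) (hY : TT μ Y) (hKY : K ⊆ Y)
    {B : Finset (Fin n)} {a b : Fin n} (ha : a ∈ B) (hb : b ∈ B) (hab : a ≠ b)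
    (hT : ∀ p ∈ B, ∀ q ∉ B, Tr μ p q ∧ Tr μ q p) :
    ∀ᶠ g in 𝓝 (1 : G n), ∀ z, (∀ M : ℕ, (cnt (act (tv a b 1)) Kᶜ z M : ℝ) ≤ 1 / 8 * M) →
      (∀ M : ℕ, (cnt (act (tv a b 1)) Kᶜ (act g z) M : ℝ) ≤ 1 / 8 * M) →
      (∀ p ∈ B, ∀ q ∈ B, (g.1 - 1) p q = 0) → ∀ j ∉ B, g.1 j a = 0 ∧ g.1 b j = 0 := by
  classical
  set Ψ : G n → ℝ := fun g => ∑ k, ∑ l, if Sp a b k l then 0 else |(g.1 - 1) k l| with hΨ
  have cΨ : Continuous Ψ := continuous_finsetSum _ fun k _ => continuous_finsetSum _ fun l _ => by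
    split_ifs
    · exact continuous_const
    · exact ((sha_ent k l).sub continuous_const).abs
  have nn : ∀ (g : G n) k l, 0 ≤ if Sp a b k l then 0 else |(g.1 - 1) k l| := fun g k l => by
    split_ifs
    · exact le_rfl
    · exact abs_nonneg _
  obtain ⟨ε, e0, e1⟩ := sha_gap hK hY hKY ha hb hab hT cΨ fun g h k l hk => by
    have := ((Finset.single_le_sum (fun l _ => nn g k l) (Finset.mem_univ l)).trans
      (Finset.single_le_sum (fun k _ => Finset.sum_nonneg fun l _ => nn g k l)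
        (Finset.mem_univ k))).trans h
    rwa [if_neg hk, abs_nonpos_iff] at this
  have z1 : ∀ {p q : Fin n}, p ∈ B → q ∈ B → ∀ᶠ g in 𝓝 (1 : G n),
      ∑ j ∈ Bᶜ, (|g.1 p j| + |g.1 j q|) < 1 / 2 := fun {p q} hp hq => by
    refine (continuous_finsetSum _ fun j _ =>
      (sha_ent p j).abs.add (sha_ent j q).abs).continuousAt.eventually_lt continuousAt_const ?_
    rw [Finset.sum_eq_zero fun j hj => ?_]
    · norm_num
    have jp : p ≠ j := fun h => Finset.mem_compl.1 hj (h ▸ hp)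
    have jq : j ≠ q := fun h => Finset.mem_compl.1 hj (h ▸ hq)
    simp [one_apply_ne jp, one_apply_ne jq]
  have z2 : ∀ᶠ g in 𝓝 (1 : G n), Ψ g < ε :=
    cΨ.continuousAt.eventually_lt continuousAt_const (by simpa [hΨ] using e0)
  filter_upwards [z1 ha hb, z1 hb ha, z2, Nr.nhds (n := n) (w := fun _ _ => 1)
    (fun _ _ => one_pos) one_pos] with g g1 g2 g3 g4 z hz hz' hB
  set κ := ∑ j ∈ Bᶜ, (|g.1 b j| + |g.1 j a|) with hκ
  have k1 : ∀ j ∉ B, |g.1 b j| + |g.1 j a| ≤ κ := fun j hj =>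
    Finset.single_le_sum (f := fun j => |g.1 b j| + |g.1 j a|) (fun _ _ => by positivity)
      (Finset.mem_compl.2 hj)
  by_contra hc
  have k0 : 0 < κ := by
    by_contra h
    refine hc fun j hj => ?_
    have := k1 j hj
    have := abs_nonneg (g.1 b j)
    have := abs_nonneg (g.1 j a)
    constructor <;> rw [← abs_nonpos_iff] <;> linarith
  obtain ⟨k, k2, k3, k4, k5⟩ := sha_cnt (Nat.ceil_pos.2 (inv_pos.2 k0)) hz hz'
  have s1 : 1 ≤ k * κ := by
    rw [← inv_mul_cancel₀ k0.ne']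
    exact mul_le_mul_of_nonneg_right ((Nat.le_ceil _).trans (Nat.cast_le.2 k2)) k0.le
  have s2 : k * κ ≤ 4 := by
    have a1 : (k : ℝ) ≤ 2 * ⌈κ⁻¹⌉₊ := by exact_mod_cast k3.le
    have a2 := Nat.ceil_lt_add_one (inv_pos.2 k0).le
    have a3 : (k : ℝ) * κ ≤ 2 * (κ⁻¹ + 1) * κ :=
      mul_le_mul_of_nonneg_right (by linarith) k0.le
    rw [mul_assoc, add_mul, inv_mul_cancel₀ k0.ne'] at a3
    linarith
  rw [act_iter, tv_pow] at k4 k5
  rw [act_conj, ← tv_neg] at k5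
  set h := tv a b (-k) * g * tv a b k with hh
  have o : ∀ p ∈ B, ∀ q ∈ B, p ≠ q → g.1 p q = 0 := fun p hp q hq h => by
    simpa [one_apply_ne h] using hB p hp q hq
  have d : ∀ p ∈ B, g.1 p p = 1 := fun p hp => by simpa [sub_eq_zero] using hB p hp p hp
  have ent : ∀ p q, h.1 p q = g.1 p q - (if p = a ∧ q ∉ B then k * g.1 b q else 0) +
      if q = b ∧ p ∉ B then k * g.1 p a else 0 := fun p q => by
    rw [hh, mul_tv_apply hab, tv_mul_apply hab, tv_mul_apply hab, o b hb a ha hab.symm]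
    by_cases hp : p = a <;> by_cases hq : q = b
    · subst hp hq; simp [ha, hb, d]
    · subst hp
      by_cases hq' : q ∈ B
      · simp [hq, hq', o b hb q hq' (Ne.symm hq)]
      · simp [hq, hq', sub_eq_add_neg]
    · subst hq
      by_cases hp' : p ∈ B
      · simp [hp, hp', o p hp' a ha hp]
      · simp [hp, hp']
    · simp [hp, hq]
  have kn : (0 : ℝ) ≤ k := Nat.cast_nonneg k
  have b1 : ∀ j ∉ B, |k * g.1 b j| ≤ 4 ∧ |k * g.1 j a| ≤ 4 := fun j hj => by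
    have := mul_le_mul_of_nonneg_left (k1 j hj) kn
    have := mul_nonneg kn (abs_nonneg (g.1 b j))
    have := mul_nonneg kn (abs_nonneg (g.1 j a))
    rw [abs_mul, abs_mul, abs_of_nonneg kn]
    constructor <;> linarith
  have b2 : ∀ p q, |g.1 p q| ≤ 2 := fun p q => by
    have a1 := abs_le.1 (g4 p q)
    have a2 : (0 : ℝ) ≤ (1 : Matrix (Fin n) (Fin n) ℝ) p q ∧
        (1 : Matrix (Fin n) (Fin n) ℝ) p q ≤ 1 := by
      rw [one_apply]; split_ifs <;> norm_num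
    rw [Matrix.sub_apply] at a1
    rw [abs_le]; constructor <;> linarith [a2.1, a2.2]
  have f1 := e1 _ k4 h (fun p q => ?_) k5 (fun j hj ja jb => ?_) ?_
  · have : Ψ h = Ψ g := by
      refine Finset.sum_congr rfl fun p _ => Finset.sum_congr rfl fun q _ => ?_
      split_ifs with hs
      · rfl
      rw [Matrix.sub_apply, Matrix.sub_apply, ent, if_neg, if_neg, sub_zero, add_zero]
      · rintro ⟨rfl, h2⟩
        exact hs ⟨fun h => h2 (h ▸ hb), Or.inr rfl⟩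
      · rintro ⟨rfl, h2⟩
        exact hs ⟨fun h => h2 (h ▸ ha), Or.inl rfl⟩
    linarith
  · have a1 := abs_le.1 (b2 p q)
    rw [ent, abs_le]
    split_ifs with h1 h2 h2
    · exact absurd (h1.1 ▸ ha) h2.2
    · have := abs_le.1 (b1 q h1.2).1
      constructor <;> linarith
    · have := abs_le.1 (b1 p h2.2).2
      constructor <;> linarith
    · constructor <;> linarith
  · simp [ent, hj, ja, jb, ha, hb, o a ha j hj ja.symm, o j hj b hb jb]
  · have a1 : k * κ ≤ ∑ j ∈ Bᶜ, (|h.1 a j| + |h.1 j b|) + ∑ j ∈ Bᶜ, (|g.1 a j| + |g.1 j b|) := by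
      rw [hκ, Finset.mul_sum, ← Finset.sum_add_distrib]
      refine Finset.sum_le_sum fun j hj => ?_
      have hj' := Finset.mem_compl.1 hj
      have ja : j ≠ a := fun h => hj' (h ▸ ha)
      have jb : j ≠ b := fun h => hj' (h ▸ hb)
      have e3 : h.1 a j = g.1 a j - k * g.1 b j := by simp [ent, hj', jb]
      have e4 : h.1 j b = g.1 j b + k * g.1 j a := by simp [ent, hj', ja]
      have e5 := abs_sub (g.1 a j) (h.1 a j)
      have e6 := abs_sub (h.1 j b) (g.1 j b)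
      rw [e3, sub_sub_cancel, ← e3, abs_mul, abs_of_nonneg kn] at e5
      rw [e4, add_sub_cancel_left, ← e4, abs_mul, abs_of_nonneg kn] at e6
      linarith
    linarith

/-- the centraliser of a matrix -/
def shaC (e : Matrix (Fin n) (Fin n) ℝ) : Subgroup (G n) where
  carrier := {g | Commute g.1 e}
  mul_mem' ha hb := Commute.mul_left ha hb
  one_mem' := Commute.one_left e
  inv_mem' {g} h := by
    have h1 : (g⁻¹).1 * g.1 = 1 := congrArg Subtype.val (inv_mul_cancel g)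
    have h2 : g.1 * (g⁻¹).1 = 1 := congrArg Subtype.val (mul_inv_cancel g)
    calc (g⁻¹).1 * e = (g⁻¹).1 * (e * g.1) * (g⁻¹).1 := by
          rw [Matrix.mul_assoc, Matrix.mul_assoc, h2, Matrix.mul_one]
      _ = e * (g⁻¹).1 := by rw [← h.eq, ← Matrix.mul_assoc, h1, Matrix.one_mul]

theorem sha_comm {B : Finset (Fin n)} {g : Matrix (Fin n) (Fin n) ℝ}
    (h : ∀ p ∈ B, ∀ q ∉ B, g p q = 0 ∧ g q p = 0) : Commute g (eB B) := by
  ext k l
  rw [eB, mul_diagonal, diagonal_mul]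
  by_cases hk : k ∈ B <;> by_cases hl : l ∈ B
  · simp [hk, hl]
  · simp [hk, hl, (h k hk l hl).1]
  · simp [hk, hl, (h l hl k hk).2]
  · simp [hk, hl]

theorem sh_loc [IsFiniteMeasure μ] (hA : AI μ) {B : Finset (Fin n)} (hB : 2 ≤ B.card) {i : Fin n}
    (hi : i ∉ B) (hI : ∀ a ∈ B, ∀ b ∈ B, a ≠ b → Inv μ a b)
    (hT : ∀ p ∈ B, ∀ q ∉ B, Tr μ p q ∧ Tr μ q p) {δ : ℝ≥0∞} (hδ : δ ≠ 0) :
    ∃ Y, MeasurableSet Y ∧ μ Yᶜ ≤ δ ∧ ∀ᶠ g in 𝓝 (1 : G n), ∀ x ∈ Y, act g x ∈ Y →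
      Commute g.1 (eB B) := by
  classical
  obtain ⟨Y0, y1, y2⟩ := exists_tt μ hA
  set c : ℝ≥0∞ := 4 * ((n * n : ℕ) * 8) with hc
  have c1 : c ≠ ∞ := by finiteness
  obtain ⟨K, hK, hKY, hKμ⟩ := X.reg μ y1.2 (ENNReal.div_ne_zero.2 ⟨hδ, c1⟩)
  have ex : ∀ p : Fin n × Fin n, ∃ Y, MeasurableSet Y ∧ μ Yᶜ ≤ 8 * (δ / c) ∧
      (p.1 ∈ B → p.2 ∈ B → p.1 ≠ p.2 → ∀ x ∈ Y, ∀ M : ℕ,
        (cnt (act (tv p.1 p.2 1)) Kᶜ x M : ℝ) ≤ 1 / 8 * M) := fun p => by
    by_cases h : p.1 ∈ B ∧ p.2 ∈ B ∧ p.1 ≠ p.2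
    · obtain ⟨Y, m1, m2, m3⟩ := maxin (Stab.mp (hI _ h.1 _ h.2.1 h.2.2 1))
        hK.isClosed.measurableSet.compl (ε := 1 / 8) (by norm_num)
      refine ⟨Y, m1, ?_, fun _ _ _ => m3⟩
      have e : (8 : ℝ≥0∞) * ENNReal.ofReal (1 / 8) = 1 := by
        rw [← ENNReal.ofReal_ofNat, ← ENNReal.ofReal_mul (by norm_num)]; norm_num
      rw [← one_mul (μ Yᶜ), ← e, mul_assoc]
      exact mul_le_mul_right (m2.trans hKμ) _
    · exact ⟨univ, MeasurableSet.univ, by simp, fun h1 h2 h3 => absurd ⟨h1, h2, h3⟩ h⟩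
  choose W w1 w2 w3 using ex
  set H := Stab μ ⊓ shaC (eB B) with hH
  have Hc : IsClosed (H : Set (G n)) := (Stab.closed μ).inter
    (isClosed_eq (continuous_subtype_val.matrix_mul continuous_const)
      (continuous_const.matrix_mul continuous_subtype_val))
  obtain ⟨V, v1, v2, Y, m1, m2, m3⟩ := avg μ H Hc inf_le_left (MeasurableSet.iInter w1)
  have key : ∀ᶠ g in 𝓝 (1 : G n), ∀ z ∈ ⋂ p, W p, act g z ∈ ⋂ p, W p →
      eB B * g.1 * eB B = eB B → Commute g.1 (eB B) := by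
    have h1 : ∀ p : Fin n × Fin n, ∀ᶠ g in 𝓝 (1 : G n), p.1 ∈ B → p.2 ∈ B → p.1 ≠ p.2 →
        ∀ z ∈ W p, act g z ∈ W p → (∀ p ∈ B, ∀ q ∈ B, (g.1 - 1) p q = 0) →
        ∀ j ∉ B, g.1 j p.1 = 0 ∧ g.1 p.2 j = 0 := fun p => by
      by_cases h : p.1 ∈ B ∧ p.2 ∈ B ∧ p.1 ≠ p.2
      · filter_upwards [sha_pair hK y2 hKY h.1 h.2.1 h.2.2 hT] with g hg a1 a2 a3 z z1 z2 using
          hg z (w3 p a1 a2 a3 z z1) (w3 p a1 a2 a3 _ z2)
      · exact Eventually.of_forall fun g h1 h2 h3 => absurd ⟨h1, h2, h3⟩ h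
    filter_upwards [eventually_all.2 h1] with g hg z z1 z2 e
    have e' : ∀ p ∈ B, ∀ q ∈ B, (g.1 - 1) p q = 0 := fun p hp q hq => by
      have := congrFun (congrFun e p) q
      rw [eB, mul_diagonal, diagonal_mul, if_pos hp, if_pos hq, diagonal_apply, if_pos hp] at this
      rw [Matrix.sub_apply, one_apply, ← this]; ring
    refine sha_comm fun p hp q hq => ?_
    obtain ⟨p', hp', h⟩ := Finset.exists_mem_ne (by omega : 1 < B.card) p
    exact ⟨(hg (p', p) hp' hp h z (mem_iInter.1 z1 _) (mem_iInter.1 z2 _) e' q hq).2,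
      (hg (p, p') hp hp' h.symm z (mem_iInter.1 z1 _) (mem_iInter.1 z2 _) e' q hq).1⟩
  have key' := v1.eventually_forall_of_forall_eventually (x₀ := (1 : G n))
    (P := fun g v => ∀ z ∈ ⋂ p, W p, act (v⁻¹ * g * v) z ∈ ⋂ p, W p →
      eB B * (v⁻¹ * g * v).1 * eB B = eB B → Commute (v⁻¹ * g * v).1 (eB B)) fun v _ => by
    have h1 : Continuous fun p : G n × G n => p.2⁻¹ * p.1 * p.2 := by fun_prop
    have h2 := h1.tendsto (1, v)
    simp only [mul_one, inv_mul_cancel] at h2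
    exact h2.eventually key
  refine ⟨Y, m1, m2.trans ?_, ?_⟩
  · rw [compl_iInter]
    refine (mul_le_mul_right ((measure_iUnion_fintype_le μ _).trans
      (Finset.sum_le_card_nsmul _ _ _ fun p _ => w2 p)) _).trans ?_
    rw [Finset.card_univ, Fintype.card_prod, Fintype.card_fin, nsmul_eq_mul, ← mul_assoc,
      ← mul_assoc, mul_assoc 4]
    exact ENNReal.mul_div_le
  by_contra hne
  obtain ⟨g, g1, g2⟩ := exists_seq_forall_of_frequently (not_eventually.1 hne)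
  obtain ⟨h, h1, h2⟩ := blk B hi g1
  have gh : Tendsto (fun r => g r * h r) atTop (𝓝 1) := by simpa using g1.mul h1
  obtain ⟨r, ⟨r1, r2, r3⟩, r4, r5⟩ := (h2.and ((h1.eventually m3).and (gh.eventually key'))).exists
  refine g2 r fun x x1 x2 => ?_
  have hH : h r ∈ H := gen H (fun t => ⟨hA t, sha_comm fun p hp q hq => by
      have : p ≠ q := fun h => hq (h ▸ hp)
      exact ⟨diagonal_apply_ne _ this, diagonal_apply_ne _ this.symm⟩⟩) B
    (fun a ha b hb hab s => ⟨hI a ha b hb hab s, sha_comm fun p hp q hq => by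
      have h1 : p ≠ q := fun h => hq (h ▸ hp)
      have h2 : b ≠ q := fun h => hq (h ▸ hb)
      have h3 : a ≠ q := fun h => hq (h ▸ ha)
      rw [tv_apply hab]
      simp [one_apply_ne h1, one_apply_ne h1.symm, h2, h3]⟩) r1 r2
  obtain ⟨v, hv, t1, t2⟩ := r4 hH x x1 _ x2
  have cv : v ∈ shaC (eB B) := (v2 hv).2
  have cv' : Commute (v⁻¹).1 (eB B) := (shaC (eB B)).inv_mem cv
  have t3 : v⁻¹ * (g r * h r) * v ∈ shaC (eB B) := r5 v hv _ t1
    (by rwa [← act_mul, ← mul_assoc, ← mul_assoc, mul_inv_cancel, one_mul, mul_assoc, act_mul]) (by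
      have e1 : (v⁻¹).1 * v.1 = 1 := congrArg Subtype.val (inv_mul_cancel v)
      calc eB B * ((v⁻¹).1 * (g r * h r).1 * v.1) * eB B
          = eB B * (v⁻¹).1 * (g r * h r).1 * (v.1 * eB B) := by simp only [Matrix.mul_assoc]
        _ = (v⁻¹).1 * (eB B * (g r * h r).1 * eB B) * v.1 := by
          rw [← cv'.eq, (show Commute v.1 (eB B) from cv).eq]; simp only [Matrix.mul_assoc]
        _ = eB B := by rw [r3, cv'.eq, Matrix.mul_assoc, e1, Matrix.mul_one])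
  have t4 := (shaC (eB B)).mul_mem ((shaC (eB B)).mul_mem ((shaC (eB B)).mul_mem cv t3)
    ((shaC (eB B)).inv_mem cv)) ((shaC (eB B)).inv_mem hH.2)
  rwa [show v * (v⁻¹ * (g r * h r) * v) * v⁻¹ * (h r)⁻¹ = g r by group] at t4

end Vale.Agent.P007
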