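import Vale.Agent.P007B.Bas

/-! Measurable sections. -/

namespace Vale.Agent.P007

open Matrix MeasureTheory ProbabilityTheory Set Filter Topology
open scoped ENNReal

variable {n : ℕ}

theorem Sec.gen {Y Z : Type*} [TopologicalSpace Y] [SecondCountableTopology Y] [Nonempty Y]
    [MeasurableSpace Y] [BorelSpace Y] [TopologicalSpace Z] [MeasurableSpace Z] [BorelSpace Z]
    (π : Y → Z) (ho : IsOpenMap π) (hs : Function.Surjective π)
    (hloc : ∀ y, ∃ U, IsOpen U ∧ y ∈ U ∧ InjOn π U) : ∃ σ : Z → Y, Measurable σ ∧ ∀ z, π (σ z) = z := by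
  classical
  choose V hVo hVm hVi using hloc
  obtain ⟨s, hsc, hsu⟩ := TopologicalSpace.countable_cover_nhds (f := V)
    fun y => (hVo y).mem_nhds (hVm y)
  have hmem : ∀ y, ∃ x ∈ s, y ∈ V x := fun y => by
    have : y ∈ ⋃ x ∈ s, V x := hsu ▸ mem_univ y
    simpa only [mem_iUnion, exists_prop] using this
  have hsn : s.Nonempty := by
    obtain ⟨y⟩ := ‹Nonempty Y›
    obtain ⟨x, hx, -⟩ := hmem y
    exact ⟨x, hx⟩
  obtain ⟨e, he⟩ := hsc.exists_eq_range hsn
  have hcov : ∀ z, ∃ k, z ∈ π '' V (e k) := by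
    intro z
    obtain ⟨y, rfl⟩ := hs z
    obtain ⟨x, hx, hy⟩ := hmem y
    rw [he] at hx
    obtain ⟨k, rfl⟩ := hx
    exact ⟨k, y, hy, rfl⟩
  have hf : Measurable fun z => Nat.find (hcov z) :=
    measurable_find hcov fun k => (ho _ (hVo _)).measurableSet
  refine ⟨fun z => Function.invFunOn π (V (e (Nat.find (hcov z)))) z, ?_,
    fun z => Function.invFunOn_eq (Nat.find_spec (hcov z))⟩
  refine measurable_of_isOpen fun W hW => ?_
  have e1 : (fun z => Function.invFunOn π (V (e (Nat.find (hcov z)))) z) ⁻¹' W =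
      ⋃ k, (fun z => Nat.find (hcov z)) ⁻¹' {k} ∩ π '' (V (e k) ∩ W) := by
    ext z
    simp only [mem_preimage, mem_iUnion, mem_inter_iff, mem_singleton_iff]
    constructor
    · intro h
      exact ⟨_, rfl, _, ⟨Function.invFunOn_mem (Nat.find_spec (hcov z)), h⟩,
        Function.invFunOn_eq (Nat.find_spec (hcov z))⟩
    · rintro ⟨k, rfl, y, ⟨hy, hyW⟩, hz⟩
      have : Function.invFunOn π (V (e (Nat.find (hcov z)))) z = y :=
        hVi _ (Function.invFunOn_mem (Nat.find_spec (hcov z))) hy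
          ((Function.invFunOn_eq (Nat.find_spec (hcov z))).trans hz.symm)
      rwa [this]
  rw [e1]
  exact MeasurableSet.iUnion fun k => (hf (measurableSet_singleton k)).inter
    (ho _ ((hVo _).inter hW)).measurableSet

theorem Sec.ent_cont (k l : Fin n) : Continuous fun g : G n => g.1 k l :=
  (continuous_subtype_val (p := fun A : Matrix (Fin n) (Fin n) ℝ => A.det = 1)).matrix_elem k l

theorem Sec.loc_inj (g : G n) : ∃ U, IsOpen U ∧ g ∈ U ∧ InjOn (mk : G n → X n) U := by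
  have hc0 : Continuous fun p : G n × G n => p.1 * p.2⁻¹ := continuous_fst.mul continuous_snd.inv
  have h1 : ∀ᶠ p : G n × G n in 𝓝 (g, g), ∀ i j,
      |(p.1 * p.2⁻¹).1 i j - (1 : Matrix (Fin n) (Fin n) ℝ) i j| < 1 := by
    refine eventually_all.2 fun i => eventually_all.2 fun j => ?_
    have h2 : Continuous fun p : G n × G n =>
        |(p.1 * p.2⁻¹).1 i j - (1 : Matrix (Fin n) (Fin n) ℝ) i j| :=
      (((Sec.ent_cont i j).comp hc0).sub continuous_const).abs
    refine h2.continuousAt.eventually (gt_mem_nhds ?_)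
    simp
  rw [nhds_prod_eq] at h1
  obtain ⟨U, hU, h2⟩ := mem_prod_self_iff.1 h1
  refine ⟨interior U, isOpen_interior, mem_interior_iff_mem_nhds.2 hU, fun a ha b hb e => ?_⟩
  obtain ⟨⟨_, γ, rfl⟩, rfl⟩ := mk_eq_iff.1 e
  have h3 := h2 (mk_mem_prod (interior_subset ha) (interior_subset hb))
  have h4 : γ = 1 := by
    ext i j
    have h5 := h3 i j
    simp only [mul_inv_cancel_right] at h5
    have h6 : (1 : Matrix (Fin n) (Fin n) ℝ) i j = ((1 : Matrix (Fin n) (Fin n) ℤ) i j : ℝ) := by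
      by_cases hij : i = j <;> simp [Matrix.one_apply, hij]
    rw [h6] at h5
    replace h5 : |(γ.1 i j : ℝ) - ((1 : Matrix (Fin n) (Fin n) ℤ) i j : ℝ)| < 1 := h5
    have h7 : |γ.1 i j - (1 : Matrix (Fin n) (Fin n) ℤ) i j| < 1 := by exact_mod_cast h5
    exact sub_eq_zero.1 (Int.abs_lt_one_iff.1 h7)
  subst h4
  simp



theorem exists_sec (n : ℕ) : ∃ σ : X n → G n, IsSec σ := by
  obtain ⟨σ, h1, h2⟩ := Sec.gen (mk : G n → X n) mk_open.isOpenMap mk_open.surjective Sec.loc_inj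
  exact ⟨σ, h1, h2⟩

instance Gam.countable : Countable (Gam n) := by
  have : Countable (Matrix (Fin n) (Fin n) ℤ) := inferInstanceAs (Countable (Fin n → Fin n → ℤ))
  have : Countable (Matrix.SpecialLinearGroup (Fin n) ℤ) :=
    inferInstanceAs (Countable {A : Matrix (Fin n) (Fin n) ℤ // A.det = 1})
  exact (Matrix.SpecialLinearGroup.map (n := Fin n)
    (Int.castRingHom ℝ)).rangeRestrict_surjective.countable

theorem Gam.fin {K : Set (G n)} (hK : IsCompact K) : {γ : Gam n | (γ : G n) ∈ K}.Finite := by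
  have hb : ∀ k l : Fin n, ∃ R : ℤ, ∀ g ∈ K, |g.1 k l| ≤ R := by
    intro k l
    obtain ⟨R, hR⟩ := hK.bddAbove_image (Sec.ent_cont k l).abs.continuousOn
    exact ⟨⌈R⌉, fun g hg => (hR ⟨g, hg, rfl⟩).trans (Int.le_ceil R)⟩
  choose R hR using hb
  have h1 : (Set.pi univ fun k : Fin n => Set.pi univ fun l : Fin n => Icc (-R k l) (R k l)).Finite :=
    Finite.pi fun k => Finite.pi fun l => finite_Icc _ _
  have h2 : {A : Matrix.SpecialLinearGroup (Fin n) ℤ | ∀ k l, |A.1 k l| ≤ R k l}.Finite := by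
    refine Finite.of_injOn (f := fun A : Matrix.SpecialLinearGroup (Fin n) ℤ =>
      (fun k l => A.1 k l : Fin n → Fin n → ℤ)) ?_ (fun A _ B _ e => Subtype.ext e) h1
    exact fun A hA k _ l _ => abs_le.1 (hA k l)
  refine (h2.image (Matrix.SpecialLinearGroup.map (n := Fin n)
    (Int.castRingHom ℝ)).rangeRestrict).subset ?_
  rintro ⟨_, A, rfl⟩ hA
  refine ⟨A, fun k l => ?_, rfl⟩
  have h3 : |((A.1 k l : ℤ) : ℝ)| ≤ R k l := hR k l _ hA
  exact_mod_cast h3

end Vale.Agent.P007
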