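import Vale.Agent.P007.Avoid

/-! The interface between the arithmetic part and the rigidity part. -/

namespace Vale.Agent.P007

open MeasureTheory

/-- lattices with a nonzero vector in the cube of size `R` whose norm form is `η`-close to `c` -/
def Sl (n : ℕ) (R c η : ℝ) : Set (X n) :=
  {x | ∃ v ∈ lat x, v ≠ 0 ∧ (∀ j, |v j| < R) ∧ |(|∏ j, v j| - c)| < η}

end Vale.Agent.P007
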