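import Vale.Agent.P007B.DefE

/-! Measures on the line with symmetries. -/

namespace Vale.Agent.P007

open Matrix MeasureTheory ProbabilityTheory Set Filter Topology
open scoped ENNReal

variable {n : ℕ}

variable {μ : Measure (X n)} [IsFiniteMeasure μ] {i j : Fin n}

theorem eq_half (m : Measure ℝ) [IsLocallyFiniteMeasure m] (h1 : m (Icc (-1) 1) = 1)
    (h : ∀ a b c d : ℚ, b - a < d - c → m (Ioo a b) ≤ m (Ioo c d)) :
    m = (2 : ℝ≥0∞)⁻¹ • (volume : Measure ℝ) := by
  have hle : ∀ a b r : ℝ, m (Ioo a b) ≤ m (Ioo (a + r) (b + r)) := by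
    intro a b r
    have hmono : Monotone fun k : ℕ => Ioo (a + 1 / ((k : ℝ) + 1)) (b - 1 / ((k : ℝ) + 1)) := by
      intro k l hkl
      have : 1 / ((l : ℝ) + 1) ≤ 1 / ((k : ℝ) + 1) := Nat.one_div_le_one_div hkl
      exact Ioo_subset_Ioo (by linarith) (by linarith)
    have hU : Ioo a b ⊆ ⋃ k : ℕ, Ioo (a + 1 / ((k : ℝ) + 1)) (b - 1 / ((k : ℝ) + 1)) := by
      intro x hx
      obtain ⟨k, hk⟩ := exists_nat_one_div_lt (lt_min (sub_pos.2 hx.1) (sub_pos.2 hx.2))
      have h2 := hk.trans_le (min_le_left _ _)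
      have h3 := hk.trans_le (min_le_right _ _)
      exact mem_iUnion.2 ⟨k, by linarith, by linarith⟩
    refine (measure_mono hU).trans ?_
    rw [hmono.measure_iUnion]
    refine iSup_le fun k => ?_
    have hδ : 0 < 1 / ((k : ℝ) + 1) := Nat.one_div_pos_of_nat
    generalize 1 / ((k : ℝ) + 1) = δ at hδ
    obtain ⟨a', ha1, ha2⟩ := exists_rat_btwn (show a + δ / 2 < a + δ by linarith)
    obtain ⟨b', hb1, hb2⟩ := exists_rat_btwn (show b - δ < b - δ / 2 by linarith)
    obtain ⟨c', hc1, hc2⟩ := exists_rat_btwn (show a + r < a + r + δ / 2 by linarith)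
    obtain ⟨d', hd1, hd2⟩ := exists_rat_btwn (show b + r - δ / 2 < b + r by linarith)
    have hlt : b' - a' < d' - c' := by
      have : (b' : ℝ) - a' < d' - c' := by linarith
      exact_mod_cast this
    exact (measure_mono (Ioo_subset_Ioo ha2.le hb1.le)).trans
      ((h a' b' c' d' hlt).trans (measure_mono (Ioo_subset_Ioo hc1.le hd2.le)))
  have heq : ∀ a b r : ℝ, m (Ioo a b) = m (Ioo (a + r) (b + r)) := fun a b r =>
    le_antisymm (hle a b r) (by simpa using hle (a + r) (b + r) (-r))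
  have : m.IsAddLeftInvariant := ⟨fun r => (Real.measure_ext_Ioo_rat fun a b => by
    rw [Measure.map_apply (measurable_const_add r) measurableSet_Ioo, preimage_const_add_Ioo,
      heq a b (-r), sub_eq_add_neg, sub_eq_add_neg]).symm⟩
  have h2 := Measure.isAddLeftInvariant_eq_smul m volume
  generalize m.addHaarScalarFactor volume = c at h2
  subst h2
  have h3 : (c : ℝ≥0∞) * 2 = 1 := by
    rw [Measure.smul_apply, Real.volume_Icc] at h1
    norm_num at h1
    exact h1
  rw [← ENNReal.eq_inv_of_mul_eq_one_left h3]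
  rfl

theorem SymA.grow {γ : ℝ} (hγ : 1 < γ) (C : ℝ) (M : ℕ) (hC : 0 ≤ C)
    (h : ∀ k : ℕ, γ ^ k ≤ C * ((M : ℝ) * k + 2) ^ 3) : False := by
  have h1 := (tendsto_pow_const_div_const_pow_of_one_lt 3 hγ).const_mul (C * ((M : ℝ) + 2) ^ 3)
  rw [mul_zero] at h1
  obtain ⟨k, hk1, hk2⟩ := ((h1.eventually (gt_mem_nhds one_pos)).and (eventually_ge_atTop 1)).exists
  have hk : (1 : ℝ) ≤ k := by exact_mod_cast hk2
  have h2 : ((M : ℝ) * k + 2) ^ 3 ≤ (((M : ℝ) + 2) * k) ^ 3 :=
    pow_le_pow_left₀ (by positivity) (by nlinarith) 3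
  have h3 := (h k).trans (mul_le_mul_of_nonneg_left h2 hC)
  rw [← mul_div_assoc, div_lt_one (by positivity)] at hk1
  rw [mul_pow, ← mul_assoc] at h3
  linarith



theorem Sym.per {m : Measure ℝ} (h1 : m (Icc (-1) 1) = 1) {C : ℝ≥0∞} (hC : C ≠ ∞)
    (hg : ∀ N : ℕ, m (Icc (-(N : ℝ)) N) ≤ C * (N + 1) ^ 3) (h : Sym m) :
    ∃ s : ℝ, 0 < s ∧ m.map (· - s) = m := by
  obtain ⟨s, hs, c, hc⟩ := h
  have hstep : ∀ a b : ℝ, m (Icc (a + s) (b + s)) = c * m (Icc a b) := by
    intro a b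
    have := congrArg (fun ν : Measure ℝ => ν (Icc a b)) hc
    simp only [Measure.smul_apply, smul_eq_mul] at this
    rw [← this, Measure.map_apply (measurable_sub_const s) measurableSet_Icc, preimage_sub_const_Icc]
  have hI : ∀ k : ℕ, m (Icc (-1 + k * s) (1 + k * s)) = c ^ k := by
    intro k
    induction k with
    | zero => simpa using h1
    | succ k ih =>
      rw [pow_succ', ← ih, ← hstep]
      congr 2 <;> push_cast <;> ring
  have hJ : ∀ k : ℕ, c ^ k * m (Icc (-1 - k * s) (1 - k * s)) = 1 := by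
    intro k
    induction k with
    | zero => simpa using h1
    | succ k ih =>
      rw [pow_succ, mul_assoc, ← hstep, ← ih]
      congr 3 <;> push_cast <;> ring
  obtain ⟨M, hM⟩ := exists_nat_ge |s|
  have hb : ∀ (k : ℕ) (x : ℝ), |x| ≤ k * |s| →
      m (Icc (-1 + x) (1 + x)) ≤ C * ((M : ℝ≥0∞) * k + 2) ^ 3 := by
    intro k x hx
    have h2 : |x| ≤ M * k := hx.trans (by
      rw [mul_comm]
      exact mul_le_mul_of_nonneg_right hM (Nat.cast_nonneg k))
    have h3 := abs_le.1 h2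
    refine (measure_mono (Icc_subset_Icc ?_ ?_)).trans ((hg (M * k + 1)).trans_eq ?_)
    · push_cast
      linarith [h3.1]
    · push_cast
      linarith [h3.2]
    · push_cast
      rw [add_assoc, one_add_one_eq_two]
  have hI' : ∀ k : ℕ, c ^ k ≤ C * ((M : ℝ≥0∞) * k + 2) ^ 3 := fun k => by
    rw [← hI k]
    exact hb k _ (by rw [abs_mul, Nat.abs_cast])
  have hJ' : ∀ k : ℕ, 1 ≤ c ^ k * (C * ((M : ℝ≥0∞) * k + 2) ^ 3) := fun k => by
    rw [← hJ k]
    exact mul_le_mul_right (hb k (-(k * s)) (by rw [abs_neg, abs_mul, Nat.abs_cast])) _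
  have hct : c ≠ ∞ := by
    have := hI' 1
    rw [pow_one] at this
    exact ne_top_of_le_ne_top (by finiteness) this
  lift c to NNReal using hct
  lift C to NNReal using hC
  have hI2 : ∀ k : ℕ, (c : ℝ) ^ k ≤ C * ((M : ℝ) * k + 2) ^ 3 := fun k => by
    exact_mod_cast hI' k
  have hJ2 : ∀ k : ℕ, 1 ≤ (c : ℝ) ^ k * (C * ((M : ℝ) * k + 2) ^ 3) := fun k => by
    exact_mod_cast hJ' k
  have hc0 : (0 : ℝ) < c := by
    refine lt_of_le_of_ne c.2 fun h0 => ?_
    have := hJ2 1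
    rw [← h0] at this
    norm_num at this
  have hc1 : (c : ℝ) = 1 := by
    rcases lt_trichotomy (c : ℝ) 1 with h2 | h2 | h2
    · refine (SymA.grow (γ := (c : ℝ)⁻¹) (one_lt_inv_iff₀.2 ⟨hc0, h2⟩) C M C.2 fun k => ?_).elim
      rw [inv_pow, inv_le_iff_one_le_mul₀' (pow_pos hc0 k)]
      exact hJ2 k
    · exact h2
    · exact (SymA.grow h2 C M C.2 hI2).elim
  have hc2 : c = 1 := by exact_mod_cast hc1
  rw [hc2, ENNReal.coe_one, one_smul] at hc
  rcases lt_or_gt_of_ne hs with h2 | h2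
  · refine ⟨-s, neg_pos.2 h2, ?_⟩
    conv_lhs => rw [← hc]
    rw [Measure.map_map (measurable_sub_const _) (measurable_sub_const _)]
    have e : ((fun x : ℝ => x - -s) ∘ fun x => x - s) = id := by
      funext x
      simp
    rw [e, Measure.map_id]
  · exact ⟨s, h2, hc⟩

end Vale.Agent.P007
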