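import Vale.Agent.P007B.Hopf

/-! The transversality lemma. -/

namespace Vale.Agent.P007

open Matrix MeasureTheory ProbabilityTheory Set Filter Topology
open scoped ENNReal

variable {n : ℕ}

theorem ttx_lim (g : G n) (hg : ∀ k, 0 < g.1 k k) (t : Fin n → ℝ) {p q : Fin n} (hpq : p ≠ q)
    (ht : t p = t q) (h0 : ∀ k l, k ≠ l → (k, l) ≠ (p, q) → t k ≤ t l → g.1 k l = 0) :
    ∃ t', Tendsto (fun m : ℕ => (dg t ^ m)⁻¹ * g * dg t ^ m) atTop
      (𝓝 (tv p q (g.1 p q / g.1 q q) * dg t')) := by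
  let H : Matrix (Fin n) (Fin n) ℝ := Matrix.of fun a b =>
    if a = b ∨ (a, b) = (p, q) then g.1 a b else 0
  have h1 : ∀ a b, Tendsto (fun m : ℕ => ((dg t ^ m)⁻¹ * g * dg t ^ m).1 a b) atTop
      (𝓝 (H a b)) := fun a b => by
    simp only [← dg_nsmul, conj_dg, Pi.smul_apply, smul_eq_mul, ← mul_sub, H, Matrix.of_apply]
    split_ifs with h
    · have e : t b - t a = 0 := by
        rcases h with rfl | h
        · exact sub_self _
        · obtain ⟨rfl, rfl⟩ := Prod.ext_iff.1 h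
          exact sub_eq_zero.2 ht.symm
      simp [e]
    · push Not at h
      rcases le_or_gt (t a) (t b) with h' | h'
      · simp [h0 a b h.1 h.2 h']
      · simpa using (Real.tendsto_exp_atBot.comp (tendsto_natCast_atTop_atTop.atTop_mul_const_of_neg
          (sub_neg.2 h'))).const_mul (g.1 a b)
  have h2 : H.det = 1 := by
    have a : Tendsto (fun m : ℕ => ((dg t ^ m)⁻¹ * g * dg t ^ m).1) atTop (𝓝 H) :=
      tendsto_pi_nhds.2 fun a => tendsto_pi_nhds.2 (h1 a)
    have b := ((continuous_id.matrix_det).tendsto H).comp a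
    exact tendsto_nhds_unique b (tendsto_const_nhds.congr fun m =>
      ((dg t ^ m)⁻¹ * g * dg t ^ m).2.symm)
  obtain ⟨h, hh⟩ : ∃ h : G n, h.1 = H := ⟨⟨H, h2⟩, rfl⟩
  have h3 : ∀ k l, (tv p q (-(g.1 p q / g.1 q q)) * h).1 k l =
      if k = l then g.1 k k else 0 := fun k l => by
    rw [tv_mul_apply hpq, hh]
    simp only [H, Matrix.of_apply, Prod.mk.injEq]
    by_cases hk : k = p
    · subst hk
      by_cases hl : l = q
      · subst hl
        simp [hpq, (hg l).ne']
      · by_cases e : k = l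
        · subst e
          simp [hpq.symm]
        · simp [hl, e, Ne.symm hl]
    · by_cases e : k = l
      · subst e
        simp [hk]
      · simp [hk, e]
  obtain ⟨t', ht'⟩ := exists_dg (g := tv p q (-(g.1 p q / g.1 q q)) * h)
    (fun k l h => by rw [h3, if_neg h]) fun k => by rw [h3, if_pos rfl]; exact hg k
  refine ⟨t', ?_⟩
  rw [← ht', tv_neg, mul_inv_cancel_left]
  exact tendsto_G.2 (hh ▸ h1)

theorem exists_tt (μ : Measure (X n)) [IsFiniteMeasure μ] (hA : AI μ) :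
    ∃ Y, Co μ Y ∧ TT μ Y := by
  have h1 : ∀ p : Fin n × Fin n, ∃ Y, Co μ Y ∧ (Tr μ p.1 p.2 →
      ∀ x ∈ Y, ∀ s t, act (tv p.1 p.2 s * dg t) x ∈ Y → s = 0) := fun p => by
    by_cases h : Tr μ p.1 p.2
    · exact (h.sat hA).imp fun Y hY => ⟨hY.1, fun _ => hY.2⟩
    · exact ⟨univ, ⟨MeasurableSet.univ, by simp⟩, fun h' => absurd h' h⟩
  choose A hA1 hA2 using h1
  choose Y hY1 hY2 using fun t : Fin n → ℤ => lim2 μ (Stab.mp (hA fun i => t i))
    (f := fun _ => (0 : ℝ)) measurable_const (Co.iInter hA1).2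
  refine ⟨_, Co.iInter hY1, fun x hx g hy hg t p q hpq htr ht h0 => ?_⟩
  obtain ⟨k, hk, z, hz, z', hz', l1, l2, -⟩ := hY2 t x (mem_iInter.1 hx t) _ (mem_iInter.1 hy t)
  obtain ⟨t', l3⟩ := ttx_lim g hg (fun i => t i) hpq (congrArg Int.cast ht)
    fun k l a b c => h0 k l a b (by exact_mod_cast c)
  have l4 := (act_cont2.tendsto (z, _)).comp (l1.prodMk_nhds (l3.comp hk.tendsto_atTop))
  have e : z' = _ := tendsto_nhds_unique l2 (l4.congr fun r => by
    simp only [Function.comp, act_iter]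
    exact (act_conj _ _ _).symm)
  exact (div_eq_zero_iff.1 (hA2 (p, q) htr z (mem_iInter.1 hz _) _ t'
    (e ▸ mem_iInter.1 hz' _))).resolve_right (hg q).ne'

end Vale.Agent.P007
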