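import Vale.Agent.P007B.Cov
import Vale.Agent.P007B.TTx

/-! Cross entries vanish. -/

namespace Vale.Agent.P007

open Matrix MeasureTheory ProbabilityTheory Set Filter Topology
open scoped ENNReal

variable {n : ℕ}

variable {μ : Measure (X n)}

theorem TS_inj {N a b c d : ℕ} (hb : b < N) (hd : d < N)
    (h : (N : ℤ) * a - b = (N : ℤ) * c - d) : a = c ∧ b = d := by
  have h1 : a = c := by
    rcases lt_trichotomy a c with h1 | h1 | h1
    · have : (N : ℤ) * (a + 1) ≤ N * c := by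
        refine mul_le_mul_of_nonneg_left ?_ (Nat.cast_nonneg N)
        exact_mod_cast h1
      have : (d : ℤ) < N := by exact_mod_cast hd
      have : (0 : ℤ) ≤ b := Nat.cast_nonneg b
      linarith
    · exact h1
    · have : (N : ℤ) * (c + 1) ≤ N * a := by
        refine mul_le_mul_of_nonneg_left ?_ (Nat.cast_nonneg N)
        exact_mod_cast h1
      have : (b : ℤ) < N := by exact_mod_cast hb
      have : (0 : ℤ) ≤ d := Nat.cast_nonneg d
      linarith
  subst h1
  exact ⟨rfl, by exact_mod_cast (by linarith : (b : ℤ) = d)⟩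

theorem TT.cross {Y : Set (X n)} (h : TT μ Y) {β ρ : Fin n → ℕ} (hρ : Function.Injective ρ)
    (hβ : ∀ p q, β p < β q → ρ p < ρ q) (hT : ∀ p q, β q < β p → Tr μ p q) {x : X n} (hx : x ∈ Y)
    {g : G n} (hg : act g x ∈ Y) (h0 : ∀ k, 0 < g.1 k k) (h1 : ∀ p q, ρ p < ρ q → g.1 p q = 0) :
    ∀ p q, β q < β p → g.1 p q = 0 := by
  classical
  intro p1 q1 hb
  by_contra hne
  obtain ⟨N', hN'⟩ := (Set.finite_range ρ).bddAbove
  set N := N' + 1
  have hN : ∀ k, ρ k < N := fun k => Nat.lt_succ_of_le (hN' ⟨k, rfl⟩)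
  have hN0 : (0 : ℤ) < N := by exact_mod_cast Nat.succ_pos N'
  set b := β p1
  obtain ⟨⟨p, q⟩, hpq, hmin⟩ := Finset.exists_min_image
    (Finset.univ.filter fun z : Fin n × Fin n => b ≤ β z.1 ∧ β z.2 < b ∧ g.1 z.1 z.2 ≠ 0)
    (fun z => (N : ℤ) * ρ z.1 - ρ z.2) ⟨(p1, q1), by simp [b, hb, hne]⟩
  simp only [Finset.mem_filter, Finset.mem_univ, true_and] at hpq hmin
  obtain ⟨hp, hq, hg0⟩ := hpq
  have hlt : β q < β p := hq.trans_le hp
  refine hg0 (h x hx g hg h0
    (fun k => if b ≤ β k then (N : ℤ) * ρ k else ρ k + ((N : ℤ) * ρ p - ρ q)) p q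
    (fun e => by rw [e] at hlt; exact lt_irrefl _ hlt) (hT p q hlt) ?_ fun k l hkl hne' ht => ?_)
  · simp only [if_pos hp, if_neg hq.not_ge]
    ring
  · have hs : (ρ k : ℤ) ≤ ρ l → g.1 k l = 0 := fun hle =>
      h1 k l (lt_of_le_of_ne (by exact_mod_cast hle) (hρ.ne hkl))
    by_cases hk : b ≤ β k <;> by_cases hl : b ≤ β l
    · simp only [if_pos hk, if_pos hl] at ht
      exact hs (le_of_mul_le_mul_left ht hN0)
    · simp only [if_pos hk, if_neg hl] at ht
      by_contra hc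
      have h2 := hmin (k, l) ⟨hk, not_le.1 hl, hc⟩
      obtain ⟨e1, e2⟩ := TS_inj (hN l) (hN q)
        (show (N : ℤ) * ρ k - ρ l = (N : ℤ) * ρ p - ρ q by simp only at h2; linarith)
      exact hne' (Prod.ext (hρ e1) (hρ e2))
    · exact h1 k l (hβ k l ((not_le.1 hk).trans_le hl))
    · simp only [if_neg hk, if_neg hl] at ht
      exact hs (by linarith)

theorem cover' (hn : 0 < n) [IsFiniteMeasure μ] (hA : AI μ) (β : Fin n → ℕ)
    (hT : ∀ p q, β q < β p → Tr μ p q) (hN : NC μ β) : μ = 0 := by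
  have hn1 : (1 : ℝ) ≤ n := by exact_mod_cast hn
  have hd : (0 : ℝ) < 32 * n ^ 3 := by positivity
  obtain ⟨Y, hY, hTT⟩ := exists_tt μ hA
  have hp : ∀ p : Fin n, ((p : ℕ) : ℝ) ≤ n := fun p => by exact_mod_cast p.2.le
  have hp0 : ∀ p : Fin n, (0 : ℝ) ≤ (p : ℕ) / (32 * n ^ 3) := fun p => by positivity
  have hp1 : ∀ p : Fin n, ((p : ℕ) : ℝ) / (32 * n ^ 3) ≤ 1 / (32 * n ^ 2) := fun p => by
    rw [div_le_div_iff₀ hd (by positivity)]
    have := hp p
    have : (0 : ℝ) ≤ 32 * n ^ 2 := by positivity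
    nlinarith
  have hp2 : (1 : ℝ) / (32 * n ^ 2) ≤ 1 := by
    rw [div_le_one (by positivity)]
    nlinarith
  have h1 : ∀ p q : Fin n, β p < β q → 2 * (β p : ℝ) + (p : ℕ) / (32 * n ^ 3) + 1 ≤
      2 * (β q : ℝ) + (q : ℕ) / (32 * n ^ 3) := fun p q h => by
    have : (β p : ℝ) + 1 ≤ β q := by exact_mod_cast h
    linarith [hp0 q, hp1 p]
  have hβ : ∀ p q : Fin n, β p < β q → n * β p + p < n * β q + q := fun p q h => by
    have h2 := Nat.mul_le_mul_left n (Nat.succ_le_of_lt h)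
    rw [Nat.mul_succ] at h2
    have := p.2
    omega
  refine cover hn μ hA β (fun p => 2 * (β p : ℝ) + (p : ℕ) / (32 * n ^ 3)) h1
    (fun p q h => ?_) ⟨Y, hY.2, fun x hx g hg hr h0 => ?_⟩ hN
  · rw [h, abs_le]
    constructor <;> linarith [hp0 p, hp0 q, hp1 p, hp1 q]
  · refine hTT.cross (ρ := fun p => n * β p + p) (fun p q e => ?_) hβ hT hx hg (fun k => ?_)
      fun p q h => h0 p q ?_
    · rcases lt_trichotomy (β p) (β q) with h | h | h
      · exact absurd e (hβ p q h).ne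
      · simp only [h] at e
        exact Fin.ext (Nat.add_left_cancel e)
      · exact absurd e (hβ q p h).ne'
    · have h2 := (abs_le.1 (hr k k)).1
      rw [Matrix.sub_apply, Matrix.one_apply_eq] at h2
      have : (1 : ℝ) / (2 * n) < 1 := by
        rw [div_lt_one (by positivity)]
        linarith
      linarith
    · rcases lt_trichotomy (β p) (β q) with h2 | h2 | h2
      · linarith [h1 p q h2]
      · rw [h2] at h ⊢
        have h3 : ((p : ℕ) : ℝ) < (q : ℕ) := by exact_mod_cast Nat.lt_of_add_lt_add_left h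
        linarith [div_lt_div_of_pos_right h3 hd]
      · exact absurd h (hβ q p h2).not_gt

end Vale.Agent.P007
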